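import Vale.Agent.P296.AlgB

/-!
The bihomogeneous polynomials that define the bundle and its sections.
-/

open Matrix

noncomputable section

namespace Vale.Agent.P296

/-- The polynomials used in the construction, with `K = α + 2`. -/
structure Polys (α : ℕ) where
  Θ : Fin 2 → V → V → ℂ
  Θ' : Fin 2 → V → V → ℂ
  Ξ : Fin 2 → Fin 2 → V → V → ℂ
  Z : Fin 2 → Fin 2 → V → V → ℂ
  R1 : Fin 2 → Fin 2 → V → V → ℂ
  R2 : Fin 2 → Fin 2 → V → V → ℂ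
  hΘ : ∀ j, Hol α 2 (Θ j)
  hΘ' : ∀ l, Hol 2 α (Θ' l)
  hΞ : ∀ j j', Hol (α - 3) (α + 1) (Ξ j j')
  hZ : ∀ l j, Hol (α - 1) (α - 1) (Z l j)
  hR1 : ∀ J j, Hol (α - 3) (2 * α + 1) (R1 J j)
  hR2 : ∀ J j, Hol (2 * α - 6) (2 * α) (R2 J j)
  on_D : ∀ i j X, Θ j X (gam i *ᵥ X) = (gam i *ᵥ X) j ^ (α + 2)
  xi : ∀ j j' X Y, Y j ^ (α + 2) * Θ j' X Y - Y j' ^ (α + 2) * Θ j X Y = DD X Y * Ξ j j' X Y
  xi_self : ∀ j X Y, Ξ j j X Y = 0
  xi_coc : ∀ j j' j'' X Y, Y j'' ^ (α + 2) * Ξ j j' X Y + Y j ^ (α + 2) * Ξ j' j'' X Y =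
    Y j' ^ (α + 2) * Ξ j j'' X Y
  zeta : ∀ l j X Y, X l ^ (α + 2) * Y j ^ (α + 2) - Θ' l X Y * Θ j X Y = DD X Y * Z l j X Y
  zeta_coc : ∀ l j j' X Y, Θ' l X Y * Ξ j j' X Y + Y j ^ (α + 2) * Z l j' X Y =
    Y j' ^ (α + 2) * Z l j X Y
  r1_coc : ∀ J j j' X Y, Y J ^ (2 * α + 2) * Ξ j j' X Y + Y j ^ (α + 2) * R1 J j' X Y =
    Y j' ^ (α + 2) * R1 J j X Y
  r2_coc : ∀ J j j' X Y, Y J ^ (2 * α + 2) * Ξ j j' X Y ^ 2 +
    2 * Ξ j j' X Y * Y j ^ (α + 2) * R1 J j' X Y + (Y j ^ (α + 2)) ^ 2 * R2 J j' X Y =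
    (Y j' ^ (α + 2)) ^ 2 * R2 J j X Y

theorem pow_node {κ : ℂ} {α : ℕ} (h6 : 6 ∣ α) (hκ : κ ^ 6 = 1) : κ ^ α = 1 := by
  obtain ⟨k, rfl⟩ := h6
  rw [pow_mul, hκ, one_pow]

theorem gam_ne {i : Fin 3} {W : V} (hW : W ≠ 0) : gam i *ᵥ W ≠ 0 := fun h =>
  hW (Matrix.eq_zero_of_mulVec_eq_zero (gam_det_ne i) h)

/-- Second order interpolation. -/
theorem exists_eta (α : ℕ) (h6 : 6 ∣ α) (hα : 6 ≤ α) (ρ : Fin 2 → V → V → ℂ)
    (hρ : ∀ j, BH (2 * α - 3) (2 * α + 3) (ρ j))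
    (hrel : ∀ i X, (gam i *ᵥ X) 1 ^ (2 * α + 4) * ρ 0 X (gam i *ᵥ X) =
      (gam i *ᵥ X) 0 ^ (2 * α + 4) * ρ 1 X (gam i *ᵥ X)) :
    ∃ η, BH (α - 3) (α - 1) η ∧ ∀ i j X,
      ρ j X (gam i *ᵥ X) = (gam i *ᵥ X) j ^ (2 * α + 4) * η X (gam i *ᵥ X) := by
  have i1 : ∀ i X, gam i *ᵥ ((gam i)⁻¹ *ᵥ X) = X := fun i X => by
    rw [Matrix.mulVec_mulVec, Matrix.mul_nonsing_inv _ (Ne.isUnit (gam_det_ne i)),
      Matrix.one_mulVec]
  have i2 : ∀ i X, (gam i)⁻¹ *ᵥ (gam i *ᵥ X) = X := fun i X => by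
    rw [Matrix.mulVec_mulVec, Matrix.nonsing_inv_mul _ (Ne.isUnit (gam_det_ne i)),
      Matrix.one_mulVec]
  have step : ∀ i, ∃ k : V → ℂ, BH ((α : ℤ) - 3 + ((α - 1 : ℕ) : ℤ)) 0 (fun X _ => k X) ∧
      ∀ j X, ρ j X (gam i *ᵥ X) = (gam i *ᵥ X) j ^ (2 * α + 4) * k X := by
    intro i
    obtain ⟨Q, hQ, e0, e1⟩ := BH.coprime (2 * α + 4) ((hρ 0).substX (gam i)⁻¹).diag
      ((hρ 1).substX (gam i)⁻¹).diag (fun X _ => by simpa only [i1] using hrel i ((gam i)⁻¹ *ᵥ X))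
    refine ⟨fun X => Q (gam i *ᵥ X) 0, ((hQ.substX (gam i)).fixY 0).cast (by omega) rfl,
      fun j X => ?_⟩
    fin_cases j
    · simpa only [i2, Fin.zero_eta] using e0 (gam i *ᵥ X) 0
    · simpa only [i2, Fin.mk_one] using e1 (gam i *ᵥ X) 0
  choose k hk ek using step
  obtain ⟨η, hη, eη⟩ := crt (α - 3) (α - 1) (by omega) (by omega) k hk (by
    intro i i' W κ hW hκ e
    obtain ⟨j, hj⟩ := Function.ne_iff.1 (gam_ne (i := i) hW)
    have h1 := (hρ j).node hκ e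
    have hκα := pow_node h6 hκ
    have h0 : κ ≠ 0 := by
      rintro rfl
      simp at hκ
    have h2 : κ ^ (α - 1) * κ = 1 := by rw [← pow_succ, Nat.sub_add_cancel (by omega), hκα]
    have h3 : κ ^ (2 * (α : ℤ) + 3) = κ ^ (2 * α + 3) := by norm_cast
    rw [ek, ek, e, Pi.smul_apply, smul_eq_mul, mul_pow, h3] at h1
    have h4 : κ ^ (2 * α + 3) * (gam i *ᵥ W) j ^ (2 * α + 4) ≠ 0 :=
      mul_ne_zero (pow_ne_zero _ h0) (pow_ne_zero _ hj)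
    have h5 : κ * k i' W = k i W := by
      apply mul_left_cancel₀ h4
      linear_combination h1
    linear_combination κ ^ (α - 1) * h5 - k i' W * h2)
  exact ⟨η, hη.cast rfl (by omega), fun i j X => by rw [ek, eη]⟩

theorem exists_polys (α : ℕ) (h6 : 6 ∣ α) (hα : 6 ≤ α) : Nonempty (Polys α) := by
  have hΘ : ∀ j : Fin 2, ∃ Θ, BH α 2 Θ ∧ ∀ i X, Θ X (gam i *ᵥ X) = (gam i *ᵥ X) j ^ (α + 2) :=
    fun j => crt α 2 (by omega) le_rfl (fun i X => (gam i *ᵥ X) j ^ (α + 2))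
      (fun i => ((BH.linX (gam i) j).pow (α + 2)).cast (by push_cast; ring) (by ring))
      (fun i i' W κ _ hκ e => by
        simp only [e, Pi.smul_apply, smul_eq_mul, mul_pow]
        rw [pow_add κ, pow_node h6 hκ, one_mul])
  have hΘ' : ∀ l : Fin 2, ∃ Θ', BH 2 α Θ' ∧ ∀ i X, Θ' X (gam i *ᵥ X) = X l ^ (α + 2) :=
    fun l => crt 2 α le_rfl (by omega) (fun _ X => X l ^ (α + 2))
      (fun i => (BH.powX l (α + 2)).cast (by push_cast; ring) rfl)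
      (fun i i' W κ _ hκ _ => by rw [pow_node h6 hκ, one_mul])
  have hc2 : ∀ J : Fin 2, ∃ c, BH (2 * α) 2 c ∧
      ∀ i X, c X (gam i *ᵥ X) = (gam i *ᵥ X) J ^ (2 * α + 2) :=
    fun J => crt (2 * α) 2 (by omega) le_rfl (fun i X => (gam i *ᵥ X) J ^ (2 * α + 2))
      (fun i => ((BH.linX (gam i) J).pow (2 * α + 2)).cast (by push_cast; ring) (by ring))
      (fun i i' W κ _ hκ e => by
        simp only [e, Pi.smul_apply, smul_eq_mul, mul_pow]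
        rw [pow_add κ, pow_mul', pow_node h6 hκ, one_pow, one_mul])
  choose Θ hΘ eΘ using hΘ
  choose Θ' hΘ' eΘ' using hΘ'
  choose c2 hc2 ec2 using hc2
  have hY : ∀ j, BH 0 (α + 2) (fun _ Y => Y j ^ (α + 2)) := fun j => BH.powY j (α + 2)
  have hX : ∀ j, BH (α + 2) 0 (fun X _ => X j ^ (α + 2)) := fun j => BH.powX j (α + 2)
  have hc0 : ∀ j, BH 0 (2 * α + 2) (fun _ Y => Y j ^ (2 * α + 2)) := fun j =>
    BH.powY j (2 * α + 2)
  have hΞ : ∀ j j', ∃ Ξ, BH (α - 3) (α + 1) Ξ ∧ ∀ X Y,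
      Y j ^ (α + 2) * Θ j' X Y - Y j' ^ (α + 2) * Θ j X Y = DD X Y * Ξ X Y := by
    intro j j'
    obtain ⟨Q, hQ, e⟩ := (((hY j).mul (hΘ j')).sub ((hY j').mul (hΘ j))).divD
      (fun i X => by rw [eΘ, eΘ]; ring)
    exact ⟨Q, hQ.cast (by ring) (by ring), e⟩
  choose Ξ hΞ eΞ using hΞ
  have hZ : ∀ l j, ∃ Z, BH (α - 1) (α - 1) Z ∧ ∀ X Y,
      X l ^ (α + 2) * Y j ^ (α + 2) - Θ' l X Y * Θ j X Y = DD X Y * Z X Y := by
    intro l j
    obtain ⟨Q, hQ, e⟩ := (((hX l).mul (hY j)).sub (((hΘ' l).mul (hΘ j)).cast (by ring)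
      (by ring))).divD (fun i X => by rw [eΘ, eΘ']; ring)
    exact ⟨Q, hQ.cast (by ring) (by ring), e⟩
  choose Z hZ eZ using hZ
  have hR : ∀ J, ∃ (c1 : V → V → ℂ) (R1 R2 : Fin 2 → V → V → ℂ),
      (∀ j, BH (α - 3) (2 * α + 1) (R1 j)) ∧ (∀ j, BH (2 * α - 6) (2 * α) (R2 j)) ∧
      (∀ j X Y, c1 X Y * Y j ^ (α + 2) - Y J ^ (2 * α + 2) * Θ j X Y = DD X Y * R1 j X Y) ∧
      (∀ j X Y, Y J ^ (2 * α + 2) * Θ j X Y ^ 2 - 2 * c1 X Y * Θ j X Y * Y j ^ (α + 2) +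
        c2 J X Y * (Y j ^ (α + 2)) ^ 2 = DD X Y ^ 2 * R2 j X Y) := by
    intro J
    have hc1 : BH α (α + 2) (fun X Y => Y J ^ α * Θ J X Y) :=
      ((BH.powY J α).mul (hΘ J)).cast (by ring) rfl
    have hR1 : ∀ j, ∃ R, BH (α - 3) (2 * α + 1) R ∧ ∀ X Y, Y J ^ α * Θ J X Y * Y j ^ (α + 2) -
        Y J ^ (2 * α + 2) * Θ j X Y = DD X Y * R X Y := by
      intro j
      obtain ⟨Q, hQ, e⟩ := ((hc1.mul (hY j)).sub (((hc0 J).mul (hΘ j)).cast (by ring)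
        (by ring))).divD (fun i X => by rw [eΘ, eΘ]; ring)
      exact ⟨Q, hQ.cast (by ring) (by ring), e⟩
    choose R1 hR1 eR1 using hR1
    have hρ : ∀ j, ∃ ρ, BH (2 * α - 3) (2 * α + 3) ρ ∧ ∀ X Y,
        Y J ^ (2 * α + 2) * Θ j X Y ^ 2 - 2 * (Y J ^ α * Θ J X Y * Θ j X Y * Y j ^ (α + 2)) +
          c2 J X Y * (Y j ^ (α + 2)) ^ 2 = DD X Y * ρ X Y := by
      intro j
      obtain ⟨Q, hQ, e⟩ := (((((hc0 J).mul ((hΘ j).pow 2)).cast (a' := 2 * α) (b' := 2 * α + 6)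
        (by push_cast; ring) (by push_cast; ring)).sub ((((hc1.mul (hΘ j)).mul (hY j)).smul 2).cast
        (by ring) (by ring))).add (((hc2 J).mul ((hY j).pow 2)).cast (by push_cast; ring)
        (by push_cast; ring))).divD (fun i X => by rw [eΘ, eΘ, ec2]; ring)
      exact ⟨Q, hQ.cast (by ring) (by ring), e⟩
    choose ρ hρ eρ using hρ
    have hrel : ∀ X Y, DD X Y * (Y J ^ (2 * α + 2) * Ξ 0 1 X Y ^ 2 +
        2 * (Ξ 0 1 X Y * Y 0 ^ (α + 2) * R1 1 X Y)) + (Y 0 ^ (α + 2)) ^ 2 * ρ 1 X Y -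
        (Y 1 ^ (α + 2)) ^ 2 * ρ 0 X Y = 0 := by
      refine BH.cancelD (a := 2 * α - 3) (b := 4 * α + 7) (((bh_DD.mul
        ((((hc0 J).mul ((hΞ 0 1).pow 2)).cast (a' := 2 * α - 6) (b' := 4 * α + 4)
          (by push_cast; ring) (by push_cast; ring)).add
          (((((hΞ 0 1).mul (hY 0)).mul (hR1 1)).smul 2).cast (by ring) (by ring)))).cast
          (by ring) (by ring)).add ((((hY 0).pow 2).mul (hρ 1)).cast (by push_cast; ring)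
          (by push_cast; ring)) |>.sub ((((hY 1).pow 2).mul (hρ 0)).cast (by push_cast; ring)
          (by push_cast; ring))) (fun X Y => ?_)
      have a1 := eΞ 0 1 X Y
      have a2 := eR1 1 X Y
      have a3 := eρ 0 X Y
      have a4 := eρ 1 X Y
      generalize Y 0 ^ (α + 2) = y0 at *
      generalize Y 1 ^ (α + 2) = y1 at *
      linear_combination (-(Y J ^ (2 * α + 2) * (DD X Y * Ξ 0 1 X Y + (y0 * Θ 1 X Y -
        y1 * Θ 0 X Y)) + 2 * y0 * DD X Y * R1 1 X Y)) * a1 -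
        2 * y0 * (y0 * Θ 1 X Y - y1 * Θ 0 X Y) * a2 - y0 ^ 2 * a4 + y1 ^ 2 * a3
    obtain ⟨η, hη, eη⟩ := exists_eta α h6 hα ρ hρ (fun i X => by
      have := hrel X (gam i *ᵥ X)
      rw [DD_graph'] at this
      linear_combination (-1 : ℂ) * this)
    have hR2 : ∀ j, ∃ R, BH (2 * α - 6) (2 * α) R ∧ ∀ X Y,
        ρ j X Y - η X Y * Θ j X Y * Y j ^ (α + 2) = DD X Y * R X Y := by
      intro j
      obtain ⟨Q, hQ, e⟩ := ((hρ j).sub (((hη.mul (hΘ j)).mul (hY j)).cast (by ring)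
        (by ring))).divD (fun i X => by rw [eη, eΘ]; ring)
      exact ⟨Q, hQ.cast (by ring) (by ring), e⟩
    choose R2 hR2 eR2 using hR2
    refine ⟨fun X Y => Y J ^ α * Θ J X Y + DD X Y * η X Y / 2,
      fun j X Y => R1 j X Y + 2⁻¹ * (η X Y * Y j ^ (α + 2)), R2,
      fun j => (hR1 j).add (((hη.mul (hY j)).smul _).cast (by ring) (by ring)), hR2,
      fun j X Y => ?_, fun j X Y => ?_⟩
    · linear_combination eR1 j X Y
    · linear_combination eρ j X Y + DD X Y * eR2 j X Y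
  choose c1 R1 R2 hR1 hR2 eR1 eR2 using hR
  refine ⟨⟨Θ, Θ', Ξ, Z, R1, R2, fun j => (hΘ j).hol, fun j => (hΘ' j).hol,
    fun j j' => (hΞ j j').hol, fun l j => (hZ l j).hol, fun J j => (hR1 J j).hol,
    fun J j => (hR2 J j).hol, fun i j X => eΘ j i X, eΞ, fun j => ?_, fun j j' j'' X Y => ?_, eZ,
    fun l j j' X Y => ?_, fun J j j' X Y => ?_, fun J j j' X Y => ?_⟩⟩
  · exact (hΞ j j).cancelD (fun X Y => by rw [← eΞ, sub_self])
  · exact sub_eq_zero.1 (((((hY j'').mul (hΞ j j')).add ((hY j).mul (hΞ j' j''))).sub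
      ((hY j').mul (hΞ j j''))).cancelD (fun X Y => by
        linear_combination -Y j'' ^ (α + 2) * eΞ j j' X Y - Y j ^ (α + 2) * eΞ j' j'' X Y +
          Y j' ^ (α + 2) * eΞ j j'' X Y) X Y)
  · exact sub_eq_zero.1 ((((((hΘ' l).mul (hΞ j j')).cast (by ring) (by ring)).add
      ((hY j).mul (hZ l j'))).sub ((hY j').mul (hZ l j))).cancelD (fun X Y => by
        linear_combination -Θ' l X Y * eΞ j j' X Y - Y j ^ (α + 2) * eZ l j' X Y +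
          Y j' ^ (α + 2) * eZ l j X Y) X Y)
  · exact sub_eq_zero.1 ((((((hc0 J).mul (hΞ j j')).cast (by ring) (by ring)).add
      ((hY j).mul (hR1 J j'))).sub ((hY j').mul (hR1 J j))).cancelD (fun X Y => by
        linear_combination -Y J ^ (2 * α + 2) * eΞ j j' X Y - Y j ^ (α + 2) * eR1 J j' X Y +
          Y j' ^ (α + 2) * eR1 J j X Y) X Y)
  · have hT : BH (2 * α - 6) (4 * α + 4) (fun X Y => Y J ^ (2 * α + 2) * Ξ j j' X Y ^ 2 +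
        2 * (Ξ j j' X Y * Y j ^ (α + 2) * R1 J j' X Y) + (Y j ^ (α + 2)) ^ 2 * R2 J j' X Y -
        (Y j' ^ (α + 2)) ^ 2 * R2 J j X Y) :=
      (((((hc0 J).mul ((hΞ j j').pow 2)).cast (by push_cast; ring) (by push_cast; ring)).add
        (((((hΞ j j').mul (hY j)).mul (hR1 J j')).smul 2).cast (by ring) (by ring))).add
        ((((hY j).pow 2).mul (hR2 J j')).cast (by push_cast; ring) (by push_cast; ring))).sub
        ((((hY j').pow 2).mul (hR2 J j)).cast (by push_cast; ring) (by push_cast; ring))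
    have := hT.cancelD ((bh_DD.mul hT).cancelD (fun X Y => by
      have a1 := eΞ j j' X Y
      have a2 := eR1 J j' X Y
      have a3 := eR2 J j X Y
      have a4 := eR2 J j' X Y
      generalize Y j ^ (α + 2) = y0 at *
      generalize Y j' ^ (α + 2) = y1 at *
      linear_combination (-(Y J ^ (2 * α + 2) * (DD X Y * Ξ j j' X Y + (y0 * Θ j' X Y -
        y1 * Θ j X Y)) + 2 * y0 * DD X Y * R1 J j' X Y)) * a1 -
        2 * y0 * (y0 * Θ j' X Y - y1 * Θ j X Y) * a2 - y0 ^ 2 * a4 + y1 ^ 2 * a3)) X Y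
    linear_combination this

end Vale.Agent.P296
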