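import Vale.Agent.P296.Basic

/-!
Bihomogeneous polynomial functions on `ℂ² × ℂ²`: closure properties and division lemmas.
-/

open Matrix

noncomputable section

namespace Vale.Agent.P296

/-- Bihomogeneous polynomial functions of bidegree `(a, b)`. -/
inductive BH : ℤ → ℤ → (V → V → ℂ) → Prop
  | zero (a b : ℤ) : BH a b (fun _ _ => 0)
  | const (c : ℂ) : BH 0 0 (fun _ _ => c)
  | add {a b : ℤ} {P Q : V → V → ℂ} : BH a b P → BH a b Q → BH a b (fun X Y => P X Y + Q X Y)
  | mulX {a b : ℤ} {P : V → V → ℂ} (l : Fin 2) : BH a b P → BH (a + 1) b (fun X Y => X l * P X Y)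
  | mulY {a b : ℤ} {P : V → V → ℂ} (l : Fin 2) : BH a b P → BH a (b + 1) (fun X Y => Y l * P X Y)

namespace BH

variable {a b a' b' : ℤ} {P Q : V → V → ℂ}

theorem of_eq (h : BH a b P) (ha : a = a') (hb : b = b') (hP : ∀ X Y, P X Y = Q X Y) :
    BH a' b' Q := by
  have : P = Q := by
    ext X Y
    exact hP X Y
  subst ha hb this
  exact h

theorem cast (h : BH a b P) (ha : a = a') (hb : b = b') : BH a' b' P :=
  h.of_eq ha hb fun _ _ => rfl

theorem smul (c : ℂ) (h : BH a b P) : BH a b (fun X Y => c * P X Y) := by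
  induction h with
  | zero a b => exact (zero a b).of_eq rfl rfl (by simp)
  | const d => exact const _
  | add _ _ i1 i2 => exact (i1.add i2).of_eq rfl rfl (fun X Y => by ring)
  | mulX l _ i => exact (i.mulX l).of_eq rfl rfl (fun X Y => by ring)
  | mulY l _ i => exact (i.mulY l).of_eq rfl rfl (fun X Y => by ring)

theorem mul (h : BH a b P) (h' : BH a' b' Q) :
    BH (a + a') (b + b') (fun X Y => P X Y * Q X Y) := by
  induction h with
  | zero a b => exact (zero _ _).of_eq rfl rfl (by simp)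
  | const d => exact (h'.smul d).cast (by ring) (by ring)
  | add _ _ i1 i2 => exact (i1.add i2).of_eq rfl rfl (fun X Y => by ring)
  | mulX l _ i => exact (i.mulX l).of_eq (by ring) rfl (fun X Y => by ring)
  | mulY l _ i => exact (i.mulY l).of_eq rfl (by ring) (fun X Y => by ring)

theorem sub (h : BH a b P) (h' : BH a b Q) : BH a b (fun X Y => P X Y - Q X Y) :=
  (h.add (h'.smul (-1))).of_eq rfl rfl (fun X Y => by ring)

theorem pow (h : BH a b P) (k : ℕ) : BH (k * a) (k * b) (fun X Y => P X Y ^ k) := by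
  induction k with
  | zero => exact (const 1).of_eq (by simp) (by simp) (by simp)
  | succ k ih =>
    exact (ih.mul h).of_eq (by push_cast; ring) (by push_cast; ring) (fun X Y => by ring)

theorem coordX (l : Fin 2) : BH 1 0 (fun X _ => X l) :=
  ((const 1).mulX l).of_eq (by simp) rfl (by simp)

theorem coordY (l : Fin 2) : BH 0 1 (fun _ Y => Y l) :=
  ((const 1).mulY l).of_eq rfl (by simp) (by simp)

theorem powX (l : Fin 2) (k : ℕ) : BH k 0 (fun X _ => X l ^ k) :=
  ((coordX l).pow k).cast (by simp) (by simp)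

theorem powY (l : Fin 2) (k : ℕ) : BH 0 k (fun _ Y => Y l ^ k) :=
  ((coordY l).pow k).cast (by simp) (by simp)

theorem linX (g : Matrix (Fin 2) (Fin 2) ℂ) (l : Fin 2) : BH 1 0 (fun X _ => (g *ᵥ X) l) :=
  (((coordX 0).smul (g l 0)).add ((coordX 1).smul (g l 1))).of_eq rfl rfl
    (fun X Y => by simp [Matrix.mulVec, dotProduct, Fin.sum_univ_two])

theorem linY (g : Matrix (Fin 2) (Fin 2) ℂ) (l : Fin 2) : BH 0 1 (fun _ Y => (g *ᵥ Y) l) :=
  (((coordY 0).smul (g l 0)).add ((coordY 1).smul (g l 1))).of_eq rfl rfl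
    (fun X Y => by simp [Matrix.mulVec, dotProduct, Fin.sum_univ_two])

theorem subst (h : BH a b P) {s1 s2 t1 t2 : ℤ} {x y : V → V → V}
    (hx : ∀ l, BH s1 s2 (fun X Y => x X Y l)) (hy : ∀ l, BH t1 t2 (fun X Y => y X Y l)) :
    BH (a * s1 + b * t1) (a * s2 + b * t2) (fun X Y => P (x X Y) (y X Y)) := by
  induction h with
  | zero a b => exact zero _ _
  | const d => exact (const d).cast (by ring) (by ring)
  | add _ _ i1 i2 => exact i1.add i2
  | mulX l _ i => exact ((hx l).mul i).cast (by ring) (by ring)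
  | mulY l _ i => exact ((hy l).mul i).cast (by ring) (by ring)

theorem substX (h : BH a b P) (g : Matrix (Fin 2) (Fin 2) ℂ) :
    BH a b (fun X Y => P (g *ᵥ X) Y) :=
  (h.subst (linX g) coordY).cast (by ring) (by ring)

theorem graph (h : BH a b P) (g : Matrix (Fin 2) (Fin 2) ℂ) :
    BH (a + b) 0 (fun X _ => P X (g *ᵥ X)) :=
  (h.subst coordX (linX g)).cast (by ring) (by ring)

theorem fixX (h : BH a b P) (W : V) : BH 0 b (fun _ Y => P W Y) :=
  (h.subst (x := fun _ _ => W) (fun l => const (W l)) coordY).cast (by ring) (by ring)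

theorem fixY (h : BH a b P) (W : V) : BH a 0 (fun X _ => P X W) :=
  (h.subst (y := fun _ _ => W) coordX (fun l => const (W l))).cast (by ring) (by ring)

theorem diag (h : BH a b P) : BH (a + b) 0 (fun X _ => P X X) :=
  (h.subst coordX coordX).cast (by ring) (by ring)

theorem dtXY (g : Matrix (Fin 2) (Fin 2) ℂ) : BH 1 1 (fun X Y => dt (g *ᵥ X) Y) :=
  (((linX g 0).mul (coordY 1)).sub ((linX g 1).mul (coordY 0))).of_eq (by simp) (by simp)
    (fun _ _ => rfl)

theorem dtXW (W : V) : BH 1 0 (fun X _ => dt X W) :=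
  (((coordX 0).smul (W 1)).sub ((coordX 1).smul (W 0))).of_eq rfl rfl
    (fun X Y => by rw [dt]; ring)

theorem neg_deg (h : BH a b P) (hab : a < 0 ∨ b < 0) (X Y : V) : P X Y = 0 := by
  induction h with
  | zero a b => rfl
  | const d => omega
  | add _ _ i1 i2 => simp [i1 hab, i2 hab]
  | mulX l _ i => simp [i (by omega)]
  | mulY l _ i => simp [i (by omega)]

theorem hol (h : BH a b P) : Hol a b P := by
  induction h with
  | zero a b => exact ⟨differentiable_const _, by simp⟩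
  | const d => exact ⟨differentiable_const _, by simp⟩
  | add _ _ i1 i2 =>
    refine ⟨i1.diff.add i2.diff, fun c d X Y hc hd => ?_⟩
    simp only [i1.hom c d X Y hc hd, i2.hom c d X Y hc hd]
    ring
  | mulX l _ i =>
    refine ⟨(by fun_prop : Differentiable ℂ fun p : V × V => p.1 l).mul i.diff,
      fun c d X Y hc hd => ?_⟩
    simp only [i.hom c d X Y hc hd, zpow_add_one₀ hc, Pi.smul_apply, smul_eq_mul]
    ring
  | mulY l _ i =>
    refine ⟨(by fun_prop : Differentiable ℂ fun p : V × V => p.2 l).mul i.diff,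
      fun c d X Y hc hd => ?_⟩
    simp only [i.hom c d X Y hc hd, zpow_add_one₀ hd, Pi.smul_apply, smul_eq_mul]
    ring

/-- Cancellation of a nonzero factor. -/
theorem cancel (h : BH a b P) (h' : BH a' b' Q) (X0 Y0 : V) (h0 : P X0 Y0 ≠ 0)
    (hPQ : ∀ X Y, P X Y * Q X Y = 0) (X Y : V) : Q X Y = 0 := by
  let L : ℂ → V × V := fun t => (X0 + t • (X - X0), Y0 + t • (Y - Y0))
  have hL : Differentiable ℂ L := by fun_prop
  have h1 : AnalyticOnNhd ℂ (fun t => P (L t).1 (L t).2) Set.univ :=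
    (h.hol.diff.comp hL).differentiableOn.analyticOnNhd isOpen_univ
  have h2 : AnalyticOnNhd ℂ (fun t => Q (L t).1 (L t).2) Set.univ :=
    (h'.hol.diff.comp hL).differentiableOn.analyticOnNhd isOpen_univ
  rcases h1.eq_zero_or_eq_zero_of_mul_eq_zero h2 (fun t _ => hPQ _ _) isPreconnected_univ with
    h3 | h3
  · exact absurd (by simpa [L] using h3 0 trivial) h0
  · simpa [L] using h3 1 trivial

theorem cross (l l' : Fin 2) : ∃ ε : ℂ, ∀ X W : V, W l * X l' - X l * W l' = ε * dt X W := by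
  fin_cases l <;> fin_cases l'
  · exact ⟨0, fun X W => by simp [mul_comm]⟩
  · exact ⟨-1, fun X W => by simp [dt]; ring⟩
  · exact ⟨1, fun X W => by simp [dt]; ring⟩
  · exact ⟨0, fun X W => by simp [mul_comm]⟩

/-- Division with remainder by a linear form in the first variable. -/
theorem remX (h : BH a b P) (W : V) (l : Fin 2) (k : ℕ) (hk : a = k) :
    ∃ Q, BH (a - 1) b Q ∧ ∀ X Y, W l ^ k * P X Y - X l ^ k * P W Y = dt X W * Q X Y := by
  induction h generalizing k with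
  | zero a b => exact ⟨_, zero _ _, by simp⟩
  | const d =>
    obtain rfl : k = 0 := by omega
    exact ⟨_, zero _ _, by simp⟩
  | add _ _ i1 i2 =>
    obtain ⟨Q1, h1, e1⟩ := i1 k hk
    obtain ⟨Q2, h2, e2⟩ := i2 k hk
    exact ⟨_, h1.add h2, fun X Y => by linear_combination e1 X Y + e2 X Y⟩
  | @mulX a b P l' hP i =>
    rcases k with _ | k
    · exact ⟨_, zero _ _, fun X Y => by simp [hP.neg_deg (Or.inl (by omega))]⟩
    obtain ⟨Q, hQ, e⟩ := i k (by omega)
    obtain ⟨ε, hε⟩ := cross l l'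
    refine ⟨_, (((hQ.mulX l').smul (W l)).cast (by ring) rfl).add
      ((((powX l k).mul (hP.fixX W)).smul ε).cast (by omega) (by ring)), fun X Y => ?_⟩
    linear_combination W l * X l' * e X Y + X l ^ k * P W Y * hε X W
  | mulY l' _ i =>
    obtain ⟨Q, hQ, e⟩ := i k hk
    exact ⟨_, hQ.mulY l', fun X Y => by linear_combination Y l' * e X Y⟩

theorem divX (h : BH a b P) {W : V} (hW : W ≠ 0) (h0 : ∀ Y, P W Y = 0) :
    ∃ Q, BH (a - 1) b Q ∧ ∀ X Y, P X Y = dt X W * Q X Y := by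
  by_cases ha : a < 0
  · exact ⟨_, zero _ _, fun X Y => by simp [h.neg_deg (Or.inl ha)]⟩
  obtain ⟨l, hl⟩ := Function.ne_iff.1 hW
  obtain ⟨Q, hQ, e⟩ := h.remX W l a.toNat (by omega)
  have hl' : W l ^ a.toNat ≠ 0 := pow_ne_zero _ hl
  refine ⟨_, hQ.smul (W l ^ a.toNat)⁻¹, fun X Y => ?_⟩
  have := e X Y
  rw [h0] at this
  field_simp
  linear_combination this

theorem coprime_aux (M L : ℕ) {P0 P1 : V → V → ℂ} (h0 : BH a b P0) (h1 : BH (a + M - L) b P1)
    (e : ∀ X Y, X 1 ^ M * P0 X Y = X 0 ^ L * P1 X Y) :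
    ∃ Q, BH (a - L) b Q ∧ ∀ X Y, P0 X Y = X 0 ^ L * Q X Y := by
  induction L generalizing P0 a with
  | zero => exact ⟨_, h0.cast (by simp) rfl, by simp⟩
  | succ L ih =>
    obtain ⟨Q, hQ, eQ⟩ := h0.divX (W := ![0, 1]) (by simp) (fun Y => by simpa using e ![0, 1] Y)
    have eQ' : ∀ X Y, P0 X Y = X 0 * Q X Y := fun X Y => by simpa [dt] using eQ X Y
    have := (coordX 0).cancel (((powX 1 M).mul hQ).sub (((powX 0 L).mul h1).cast
      (by push_cast; ring) rfl)) ![1, 0] 0 (by simp)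
      (fun X Y => by linear_combination e X Y - X 1 ^ M * eQ' X Y)
    obtain ⟨R, hR, eR⟩ := ih hQ (h1.cast (by push_cast; ring) rfl)
      (fun X Y => by linear_combination this X Y)
    exact ⟨R, hR.cast (by push_cast; ring) rfl, fun X Y => by rw [eQ', eR]; ring⟩

theorem coprime (L : ℕ) {P0 P1 : V → V → ℂ} (h0 : BH a b P0) (h1 : BH a b P1)
    (e : ∀ X Y, X 1 ^ L * P0 X Y = X 0 ^ L * P1 X Y) :
    ∃ Q, BH (a - L) b Q ∧ (∀ X Y, P0 X Y = X 0 ^ L * Q X Y) ∧
      ∀ X Y, P1 X Y = X 1 ^ L * Q X Y := by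
  obtain ⟨Q, hQ, eQ⟩ := coprime_aux L L h0 (h1.cast (by ring) rfl) e
  refine ⟨Q, hQ, eQ, fun X Y => ?_⟩
  have := (powX 0 L).cancel (h1.sub (((powX 1 L).mul hQ).cast (by ring) (by ring))) ![1, 0] 0
    (by simp) (fun X Y => by linear_combination X 1 ^ L * eQ X Y - e X Y) X Y
  linear_combination this

/-- Pseudo-division by the equation of the diagonal. -/
theorem remD (h : BH a b P) (l : Fin 2) (k : ℕ) (hk : b = k) :
    ∃ Q, BH (a + b - 1) (b - 1) Q ∧
      ∀ X Y, X l ^ k * P X Y - Y l ^ k * P X X = dt Y X * Q X Y := by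
  induction h generalizing k with
  | zero a b => exact ⟨_, zero _ _, by simp⟩
  | const d =>
    obtain rfl : k = 0 := by omega
    exact ⟨_, zero _ _, by simp⟩
  | add _ _ i1 i2 =>
    obtain ⟨Q1, h1, e1⟩ := i1 k hk
    obtain ⟨Q2, h2, e2⟩ := i2 k hk
    exact ⟨_, h1.add h2, fun X Y => by linear_combination e1 X Y + e2 X Y⟩
  | mulX l' _ i =>
    obtain ⟨Q, hQ, e⟩ := i k hk
    exact ⟨_, (hQ.mulX l').cast (by ring) rfl, fun X Y => by linear_combination X l' * e X Y⟩
  | @mulY a b P l' hP i =>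
    rcases k with _ | k
    · exact ⟨_, zero _ _, fun X Y => by simp [hP.neg_deg (Or.inr (by omega))]⟩
    obtain ⟨Q, hQ, e⟩ := i k (by omega)
    obtain ⟨ε, hε⟩ := cross l l'
    refine ⟨_, (((hQ.mulY l').mulX l).cast (by ring) (by ring)).add
      ((((powY l k).mul hP.diag).smul ε).cast (by ring) (by omega)), fun X Y => ?_⟩
    linear_combination X l * Y l' * e X Y + Y l ^ k * P X X * hε Y X

theorem dtYX : BH 1 1 (fun X Y => dt Y X) :=
  (((coordX 1).mul (coordY 0)).sub ((coordX 0).mul (coordY 1))).of_eq (by simp) (by simp)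
    (fun _ _ => by rw [dt]; ring)

theorem divDiag (h : BH a b P) (h0 : ∀ X, P X X = 0) :
    ∃ Q, BH (a - 1) (b - 1) Q ∧ ∀ X Y, P X Y = dt X Y * Q X Y := by
  by_cases hb : b < 0
  · exact ⟨_, zero _ _, fun X Y => by simp [h.neg_deg (Or.inr hb)]⟩
  obtain ⟨k, rfl⟩ := Int.eq_ofNat_of_zero_le (not_lt.1 hb)
  obtain ⟨Q0, hQ0, e0⟩ := h.remD 0 k rfl
  obtain ⟨Q1, hQ1, e1⟩ := h.remD 1 k rfl
  simp only [h0, mul_zero, sub_zero] at e0 e1
  have e2 := dtYX.cancel (((powX 1 k).mul hQ0).sub ((powX 0 k).mul hQ1)) ![0, 1] ![1, 0]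
    (by simp [dt]) (fun X Y => by linear_combination X 0 ^ k * e1 X Y - X 1 ^ k * e0 X Y)
  obtain ⟨Q, hQ, eQ, -⟩ := coprime k hQ0 hQ1 (fun X Y => by linear_combination e2 X Y)
  have e3 := (powX 0 k).cancel (h.sub ((dtYX.mul hQ).cast (by ring) (by ring))) ![1, 0] 0
    (by simp) (fun X Y => by linear_combination e0 X Y + dt Y X * eQ X Y)
  refine ⟨_, (hQ.smul (-1)).cast (by ring) rfl, fun X Y => ?_⟩
  have := e3 X Y
  simp only [dt] at this ⊢
  linear_combination this

theorem divGraph (h : BH a b P) {g : Matrix (Fin 2) (Fin 2) ℂ} (hg : g.det ≠ 0)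
    (h0 : ∀ X, P X (g *ᵥ X) = 0) :
    ∃ Q, BH (a - 1) (b - 1) Q ∧ ∀ X Y, P X Y = dt (g *ᵥ X) Y * Q X Y := by
  have i1 : ∀ X, g *ᵥ (g⁻¹ *ᵥ X) = X := fun X => by
    rw [Matrix.mulVec_mulVec, Matrix.mul_nonsing_inv _ (Ne.isUnit hg), Matrix.one_mulVec]
  have i2 : ∀ X, g⁻¹ *ᵥ (g *ᵥ X) = X := fun X => by
    rw [Matrix.mulVec_mulVec, Matrix.nonsing_inv_mul _ (Ne.isUnit hg), Matrix.one_mulVec]
  obtain ⟨Q, hQ, e⟩ := (h.substX g⁻¹).divDiag (fun X => by simpa only [i1] using h0 (g⁻¹ *ᵥ X))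
  exact ⟨_, hQ.substX g, fun X Y => by simpa only [i2] using e (g *ᵥ X) Y⟩

/-- Every binary form of degree `a + k` is the restriction to a graph of a form of bidegree
`(a, k)`. -/
theorem lift {g : Matrix (Fin 2) (Fin 2) ℂ} (hg : g.det ≠ 0) (ha : 0 ≤ a) (k : ℕ) {h : V → ℂ}
    (hh : BH (a + k) 0 (fun X _ => h X)) : ∃ P, BH a k P ∧ ∀ X, P X (g *ᵥ X) = h X := by
  have i2 : ∀ X, g⁻¹ *ᵥ (g *ᵥ X) = X := fun X => by
    rw [Matrix.mulVec_mulVec, Matrix.nonsing_inv_mul _ (Ne.isUnit hg), Matrix.one_mulVec]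
  induction k generalizing h with
  | zero => exact ⟨_, hh.cast (by simp) rfl, fun _ => rfl⟩
  | succ k ih =>
    obtain ⟨n, hn⟩ := Int.eq_ofNat_of_zero_le (by omega : 0 ≤ a + k)
    obtain ⟨Q, hQ, e⟩ := hh.remX ![0, 1] 1 (n + 1) (by push_cast; omega)
    obtain ⟨P0, h0, e0⟩ := ih ((hQ.fixY 0).cast (by push_cast; ring) rfl)
    obtain ⟨P1, h1, e1⟩ := ih (((powX 1 n).smul (h ![0, 1])).cast hn.symm rfl)
    refine ⟨_, (((linY g⁻¹ 0).mul h0).add ((linY g⁻¹ 1).mul h1)).cast (by ring)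
      (by push_cast; ring), fun X => ?_⟩
    have := e X 0
    simp only [dt, Matrix.cons_val_one, Matrix.cons_val_zero, one_pow] at this
    rw [i2, e0, e1]
    linear_combination (-1 : ℂ) * this

end BH

end Vale.Agent.P296
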