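import Vale.Agent.P296.AlgA

/-!
Division by the equation of the curve `D` and interpolation on its three components.
-/

open Matrix

noncomputable section

namespace Vale.Agent.P296

theorem dt01 (X : V) : dt (gam 0 *ᵥ X) (gam 1 *ᵥ X) = (1 - ze) * (dt X ![1, 0] * dt X ![0, 1]) := by
  rw [gam0_mulVec, gam1_mulVec]
  simp [dt]
  ring

theorem dt02 (X : V) : dt (gam 0 *ᵥ X) (gam 2 *ᵥ X) = ze * (dt X ![1, 2] * dt X ![1, 3]) := by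
  rw [gam0_mulVec, gam2_mulVec]
  simp [dt]
  ring

theorem dt12 (X : V) : dt (gam 1 *ᵥ X) (gam 2 *ᵥ X) =
    ze ^ 2 * (dt X ![1, 4 - 2 * ze] * dt X ![1, 2 - ze]) := by
  rw [gam1_mulVec, gam2_mulVec]
  simp [dt]
  linear_combination (X 0 ^ 2 * (6 * ze - 2 * ze ^ 2) + X 0 * X 1 * (1 - 3 * ze)) * ze_sq

theorem dt_self (X : V) : dt X X = 0 := by
  rw [dt]
  ring

theorem one_sub_ze_ne : 1 - ze ≠ 0 := by
  intro h
  apply ze_aff_ne (-1) 1 (by norm_num)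
  push_cast
  linear_combination h

theorem aff_ne {c : ℂ} (a b : ℝ) (ha : a ≠ 0) (h : c = a * ze + b) : c ≠ 0 :=
  h ▸ ze_aff_ne a b ha

theorem bh_DD : BH 3 3 DD :=
  (((BH.dtXY (gam 0)).mul (BH.dtXY (gam 1))).mul (BH.dtXY (gam 2))).of_eq (by norm_num)
    (by norm_num) (fun _ _ => rfl)

theorem DD_ne : DD ![1, 0] ![0, 1] ≠ 0 := by
  simp only [DD, gam0_mulVec, gam1_mulVec, gam2_mulVec, dt]
  simpa using aff_ne (c := 1 + 2 * ze) 2 1 (by norm_num) (by push_cast; ring)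

theorem DD_graph' (i : Fin 3) (X : V) : DD X (gam i *ᵥ X) = 0 := by
  have := dt_self (gam i *ᵥ X)
  fin_cases i <;> simp_all [DD]

namespace BH

variable {a b : ℤ} {P : V → V → ℂ}

theorem cancelD (h : BH a b P) (h0 : ∀ X Y, DD X Y * P X Y = 0) (X Y : V) : P X Y = 0 :=
  bh_DD.cancel h _ _ DD_ne h0 X Y

theorem divD (h : BH a b P) (h0 : ∀ i X, P X (gam i *ᵥ X) = 0) :
    ∃ Q, BH (a - 3) (b - 3) Q ∧ ∀ X Y, P X Y = DD X Y * Q X Y := by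
  have n01 : dt (gam 0 *ᵥ ![1, 1]) (gam 1 *ᵥ ![1, 1]) ≠ 0 := by
    rw [dt01]
    exact mul_ne_zero one_sub_ze_ne (by simp [dt])
  have n02 : dt (gam 0 *ᵥ ![0, 1]) (gam 2 *ᵥ ![0, 1]) ≠ 0 := by
    rw [dt02]
    simpa [dt] using ze_ne_zero
  have n12 : dt (gam 1 *ᵥ ![0, 1]) (gam 2 *ᵥ ![0, 1]) ≠ 0 := by
    rw [dt12]
    simpa [dt] using ze_ne_zero
  obtain ⟨Q0, hQ0, e0⟩ := h.divGraph (gam_det_ne 0) (h0 0)
  have z1 : ∀ X, Q0 X (gam 1 *ᵥ X) = 0 := fun X =>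
    ((dtXY (gam 0)).graph (gam 1)).cancel (hQ0.graph (gam 1)) ![1, 1] 0 n01
      (fun X _ => by rw [← e0, h0]) X 0
  have z2 : ∀ X, Q0 X (gam 2 *ᵥ X) = 0 := fun X =>
    ((dtXY (gam 0)).graph (gam 2)).cancel (hQ0.graph (gam 2)) ![0, 1] 0 n02
      (fun X _ => by rw [← e0, h0]) X 0
  obtain ⟨Q1, hQ1, e1⟩ := hQ0.divGraph (gam_det_ne 1) z1
  have z3 : ∀ X, Q1 X (gam 2 *ᵥ X) = 0 := fun X =>
    ((dtXY (gam 1)).graph (gam 2)).cancel (hQ1.graph (gam 2)) ![0, 1] 0 n12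
      (fun X _ => by rw [← e1, z2]) X 0
  obtain ⟨Q2, hQ2, e2⟩ := hQ1.divGraph (gam_det_ne 2) z3
  exact ⟨Q2, hQ2.cast (by ring) (by ring), fun X Y => by rw [e0, e1, e2, DD]; ring⟩

theorem div1 {h : V → ℂ} (hh : BH a 0 (fun X _ => h X)) {W : V} (hW : W ≠ 0) (h0 : h W = 0) :
    ∃ k : V → ℂ, BH (a - 1) 0 (fun X _ => k X) ∧ ∀ X, h X = dt X W * k X := by
  obtain ⟨Q, hQ, e⟩ := hh.divX hW (fun _ => h0)
  exact ⟨_, hQ.fixY 0, fun X => e X 0⟩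

theorem div2 {h : V → ℂ} (hh : BH a 0 (fun X _ => h X)) {W W' : V} (hW : dt W' W ≠ 0)
    (h0 : h W = 0) (h0' : h W' = 0) :
    ∃ k : V → ℂ, BH (a - 2) 0 (fun X _ => k X) ∧ ∀ X, h X = dt X W * dt X W' * k X := by
  obtain ⟨k, hk, e⟩ := hh.div1 (W := W) (by rintro rfl; simp [dt] at hW) h0
  obtain ⟨k', hk', e'⟩ := hk.div1 (W := W') (by rintro rfl; simp [dt] at hW)
    ((mul_eq_zero.1 ((e W').symm.trans h0')).resolve_left hW)
  exact ⟨k', hk'.cast (by ring) rfl, fun X => by rw [e, e']; ring⟩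

theorem node (h : BH a b P) {i i' : Fin 3} {W : V} {κ : ℂ} (hκ : κ ^ 6 = 1)
    (hW : gam i' *ᵥ W = κ • (gam i *ᵥ W)) : P W (gam i' *ᵥ W) = κ ^ b * P W (gam i *ᵥ W) := by
  have h0 : κ ≠ 0 := by
    rintro rfl
    simp at hκ
  simpa [hW] using h.hol.hom 1 κ W (gam i *ᵥ W) one_ne_zero h0

end BH

theorem nd1 : gam 1 *ᵥ ![1, 0] = (1 : ℂ) • (gam 0 *ᵥ ![1, 0]) := by
  rw [gam0_mulVec, gam1_mulVec]
  simp

theorem nd2 : gam 1 *ᵥ ![0, 1] = ze • (gam 0 *ᵥ ![0, 1]) := by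
  rw [gam0_mulVec, gam1_mulVec]
  simp

theorem nd3 : gam 2 *ᵥ ![1, 2] = (1 : ℂ) • (gam 0 *ᵥ ![1, 2]) := by
  rw [gam0_mulVec, gam2_mulVec]
  ext i
  fin_cases i <;> simp <;> ring

theorem nd4 : gam 2 *ᵥ ![1, 3] = (1 - ze) • (gam 0 *ᵥ ![1, 3]) := by
  rw [gam0_mulVec, gam2_mulVec]
  ext i
  fin_cases i <;> simp <;> ring

theorem nd5 : gam 2 *ᵥ ![1, 4 - 2 * ze] = (-1 : ℂ) • (gam 1 *ᵥ ![1, 4 - 2 * ze]) := by
  rw [gam1_mulVec, gam2_mulVec]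
  ext i
  fin_cases i
  · simp
    linear_combination 2 * ze_sq
  · simp
    linear_combination 4 * ze_sq

theorem nd6 : gam 2 *ᵥ ![1, 2 - ze] = ze • (gam 1 *ᵥ ![1, 2 - ze]) := by
  rw [gam1_mulVec, gam2_mulVec]
  ext i
  fin_cases i
  · simp
    linear_combination ze_sq
  · simp
    linear_combination (ze + 2) * ze_sq

theorem one_sub_ze_pow : (1 - ze) ^ 6 = 1 := by
  have h : (1 - ze) * ze = 1 := by linear_combination (-1 : ℂ) * ze_sq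
  have : (1 - ze) ^ 6 * ze ^ 6 = 1 := by rw [← mul_pow, h, one_pow]
  rwa [ze_pow_six, mul_one] at this

/-- Interpolation: compatible binary forms on the three graphs come from one form. -/
theorem crt (a : ℤ) (b : ℕ) (ha : 2 ≤ a) (hb : 2 ≤ b) (h : Fin 3 → V → ℂ)
    (hh : ∀ i, BH (a + b) 0 (fun X _ => h i X))
    (hc : ∀ (i i' : Fin 3) (W : V) (κ : ℂ), W ≠ 0 → κ ^ 6 = 1 →
      gam i' *ᵥ W = κ • (gam i *ᵥ W) → h i' W = κ ^ b * h i W) :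
    ∃ P, BH a b P ∧ ∀ i X, P X (gam i *ᵥ X) = h i X := by
  obtain ⟨b, rfl⟩ : ∃ c, b = c + 2 := ⟨b - 2, by omega⟩
  have van : ∀ {P : V → V → ℂ}, BH a ((b + 2 : ℕ) : ℤ) P → ∀ {i i' : Fin 3} {W : V} {κ : ℂ},
      W 0 ≠ 0 ∨ W 1 ≠ 0 → κ ^ 6 = 1 → gam i' *ᵥ W = κ • (gam i *ᵥ W) →
      (∀ X, P X (gam i *ᵥ X) = h i X) → h i' W - P W (gam i' *ᵥ W) = 0 := by
    intro P hP i i' W κ hW hκ e hPi
    rw [hP.node hκ e, hPi, hc i i' W κ (by rintro rfl; simp at hW) hκ e, zpow_natCast, sub_self]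
  obtain ⟨P1, hP1, e1⟩ := BH.lift (gam_det_ne 0) (by omega) (b + 2) (hh 0)
  obtain ⟨k1, hk1, f1⟩ := ((hh 1).sub (hP1.graph (gam 1))).div2
    (W := ![1, 0]) (W' := ![0, 1]) (by simp [dt]) (van hP1 (by simp) (by simp) nd1 e1)
    (van hP1 (by simp) ze_pow_six nd2 e1)
  obtain ⟨Q1, hQ1, g1⟩ := BH.lift (a := a - 1) (gam_det_ne 1) (by omega) (b + 1)
    ((hk1.smul (1 - ze)⁻¹).cast (by push_cast; ring) rfl)
  have hP2 : BH a ((b + 2 : ℕ) : ℤ) (fun X Y => P1 X Y + dt (gam 0 *ᵥ X) Y * Q1 X Y) :=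
    hP1.add (((BH.dtXY (gam 0)).mul hQ1).cast (by ring) (by push_cast; ring))
  have e20 : ∀ X, P1 X (gam 0 *ᵥ X) + dt (gam 0 *ᵥ X) (gam 0 *ᵥ X) * Q1 X (gam 0 *ᵥ X) = h 0 X :=
    fun X => by rw [dt_self, e1]; ring
  have e21 : ∀ X, P1 X (gam 1 *ᵥ X) + dt (gam 0 *ᵥ X) (gam 1 *ᵥ X) * Q1 X (gam 1 *ᵥ X) = h 1 X :=
    fun X => by
      have := one_sub_ze_ne
      rw [dt01, g1]
      field_simp
      linear_combination (-1 : ℂ) * f1 X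
  obtain ⟨k2, hk2, f2⟩ := ((hh 2).sub (hP2.graph (gam 2))).div2
    (W := ![1, 2]) (W' := ![1, 3]) (by norm_num [dt]) (van hP2 (by simp) (by simp) nd3 e20)
    (van hP2 (by simp) one_sub_ze_pow nd4 e20)
  have z5 : k2 ![1, 4 - 2 * ze] = 0 := by
    have := (f2 ![1, 4 - 2 * ze]).symm.trans (van hP2 (by simp) (by norm_num) nd5 e21)
    refine (mul_eq_zero.1 this).resolve_left (mul_ne_zero ?_ ?_)
    · exact aff_ne 2 (-2) (by norm_num) (by simp [dt]; ring)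
    · exact aff_ne 2 (-1) (by norm_num) (by simp [dt]; ring)
  have z6 : k2 ![1, 2 - ze] = 0 := by
    have := (f2 ![1, 2 - ze]).symm.trans (van hP2 (by simp) ze_pow_six nd6 e21)
    refine (mul_eq_zero.1 this).resolve_left (mul_ne_zero ?_ ?_)
    · exact aff_ne 1 0 (by norm_num) (by simp [dt])
    · exact aff_ne 1 1 (by norm_num) (by simp [dt]; ring)
  obtain ⟨k3, hk3, f3⟩ := hk2.div2 (W := ![1, 4 - 2 * ze]) (W' := ![1, 2 - ze])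
    (aff_ne (-1) 2 (by norm_num) (by simp [dt]; ring)) z5 z6
  obtain ⟨Q2, hQ2, g2⟩ := BH.lift (a := a - 2) (gam_det_ne 2) (by omega) b
    ((hk3.smul (ze ^ 3)⁻¹).cast (by push_cast; ring) rfl)
  refine ⟨fun X Y => P1 X Y + dt (gam 0 *ᵥ X) Y * Q1 X Y +
    dt (gam 0 *ᵥ X) Y * dt (gam 1 *ᵥ X) Y * Q2 X Y, hP2.add ((((BH.dtXY (gam 0)).mul
      (BH.dtXY (gam 1))).mul hQ2).cast (by ring) (by push_cast; ring)), fun i X => ?_⟩
  fin_cases i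
  · simp only [Fin.zero_eta]
    rw [e20, dt_self]
    ring
  · simp only [Fin.mk_one]
    rw [e21, dt_self]
    ring
  · simp only [Fin.reduceFinMk]
    have h1 := f2 X
    have := ze_ne_zero
    rw [f3] at h1
    rw [g2, dt12]
    rw [dt02] at h1 ⊢
    generalize dt X ![1, 4 - 2 * ze] = t at h1 ⊢
    field_simp
    linear_combination (-1 : ℂ) * h1

end Vale.Agent.P296
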