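import Vale.Agent.P296.Sections

/-!
The bundle is ample.
-/

open Matrix

noncomputable section

namespace Vale.Agent.P296

variable {α : ℕ} (P : Polys α)

theorem vec_ne_zero {v : V} (hv : v ≠ 0) (h1 : v 1 = 0) : v 0 ≠ 0 := by
  intro h0
  apply hv
  ext i
  fin_cases i <;> simp [h0, h1]

theorem pad_family {P : Polys α} {m : ℕ} {a b : ℤ} {Φ : Fin 2 → Fin 2 → Fin 2 → V → V → V → ℂ}
    (h : ∀ l J, HS P m a b (Φ l J)) (a' b' : ℤ) (ha : a ≤ a') (hb : b ≤ b') :
    ∃ p q : ℕ, ∀ l J, HS P m a' b' (fun j x y v => x l ^ p * y J ^ q * Φ l J j x y v) :=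
  ⟨_, _, fun l J => (h l J).pad a' b' ha hb l J⟩

theorem bpf_family (hα : 6 ≤ α) : ∃ Ψ : Fin 2 → Fin 2 → Fin 4 → (Fin 2 → V → V → V → ℂ),
    (∀ l J k, HS P 48 (-12) (-12) (Ψ l J k)) ∧
    ∀ l j x y v, x l ≠ 0 → y j ≠ 0 → v ≠ 0 → ∃ k, Ψ l j k j x y v ≠ 0 := by
  obtain ⟨p0, q0, h0⟩ := pad_family (fun _ _ => ((hs_A P).mul HS.sB).pow 24) (-12) (-12)
    (by omega) (by omega)
  obtain ⟨p1, q1, h1⟩ := pad_family (fun _ J => ((hs_A P).mul ((hs_E P J).pow 3)).pow 12)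
    (-12) (-12) (by omega) (by omega)
  obtain ⟨p2, q2, h2⟩ := pad_family (fun l _ => (HS.sB.mul ((hs_E' P l).pow 3)).pow 12)
    (-12) (-12) (by omega) (by omega)
  obtain ⟨p3, q3, h3⟩ := pad_family (fun l J => ((hs_P P J).mul (hs_E' P l)).pow 16)
    (-12) (-12) (by omega) (by omega)
  refine ⟨fun l J => ![fun j x y v => x l ^ p0 * y J ^ q0 * (sA P j x y v * v 1) ^ 24,
    fun j x y v => x l ^ p1 * y J ^ q1 * (sA P j x y v * sE P J j x y v ^ 3) ^ 12,
    fun j x y v => x l ^ p2 * y J ^ q2 * (v 1 * sE' P l j x y v ^ 3) ^ 12,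
    fun j x y v => x l ^ p3 * y J ^ q3 * (sP P J j x y v * sE' P l j x y v) ^ 16],
    fun l J k => ?_, ?_⟩
  · fin_cases k
    · exact h0 l J
    · exact h1 l J
    · exact h2 l J
    · exact h3 l J
  intro l j x y v hx hy hv
  have hX := pow_ne_zero (α + 2) (f5_ne hx)
  have hY := pow_ne_zero (α + 2) (f5_ne hy)
  have hz := P.zeta l j (f5 x) (f5 y)
  have hE : sE P j j x y v = v 0 := by
    rw [sE, P.xi_self]
    field_simp
    ring
  have pad : ∀ (a b : ℕ) (t : ℂ) (k : ℕ), t ≠ 0 → x l ^ a * y j ^ b * t ^ k ≠ 0 :=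
    fun a b t k ht => mul_ne_zero (mul_ne_zero (pow_ne_zero _ hx) (pow_ne_zero _ hy))
      (pow_ne_zero _ ht)
  by_cases hA : sA P j x y v = 0
  · have hA' : DD (f5 x) (f5 y) * v 0 = P.Θ j (f5 x) (f5 y) * v 1 := by
      rw [sA, div_eq_zero_iff] at hA
      rcases hA with hA | hA
      · linear_combination hA
      · exact absurd hA hY
    by_cases hB : v 1 = 0
    · have hv0 := vec_ne_zero hv hB
      have hD : DD (f5 x) (f5 y) = 0 := by
        rw [hB, mul_zero] at hA'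
        exact (mul_eq_zero.1 hA').resolve_right hv0
      have hΘ : P.Θ' l (f5 x) (f5 y) ≠ 0 := by
        intro h
        rw [h, hD, zero_mul, zero_mul, sub_zero] at hz
        exact mul_ne_zero hX hY hz
      refine ⟨3, pad _ _ _ _ (mul_ne_zero ?_ ?_)⟩
      · rw [sP, hB]
        refine div_ne_zero ?_ (pow_ne_zero _ hY)
        simpa using ⟨fun h => absurd h (f5_ne hy), hv0⟩
      · rw [sE', hB]
        refine div_ne_zero ?_ hY
        simpa using ⟨hΘ, hv0⟩
    · refine ⟨2, pad _ _ _ _ (mul_ne_zero hB (pow_ne_zero _ ?_))⟩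
      rw [sE']
      refine div_ne_zero ?_ hY
      intro h
      apply mul_ne_zero hB (mul_ne_zero hX hY)
      linear_combination v 1 * hz + DD (f5 x) (f5 y) * h - P.Θ' l (f5 x) (f5 y) * hA'
  · by_cases hB : v 1 = 0
    · refine ⟨1, pad _ _ _ _ (mul_ne_zero hA (pow_ne_zero _ ?_))⟩
      rw [hE]
      exact vec_ne_zero hv hB
    · exact ⟨0, pad _ _ _ _ (mul_ne_zero hA hB)⟩

/-- The multipliers of bidegree `(1, 1)`. -/
def mu (l J : Fin 2) (m : Fin 3) (x y : V) : ℂ :=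
  ![x l * y J, x l.rev * y J, x l * y J.rev] m

theorem hs_mu (l J : Fin 2) (m : Fin 3) : HS P 0 1 1 (fun _ x y _ => mu l J m x y) := by
  fin_cases m
  · exact (HS.coordX l).mul (HS.coordY J)
  · exact (HS.coordX l.rev).mul (HS.coordY J)
  · exact (HS.coordX l).mul (HS.coordY J.rev)

theorem coord_family : ∃ W : Fin 2 → Fin 2 → Fin 2 → (Fin 2 → V → V → V → ℂ),
    (∀ l J i, HS P 1 11 11 (W l J i)) ∧
    ∀ l j i s t v, W l j i j (hc l s) (hc j t) v = v i := by
  obtain ⟨p0, q0, h0⟩ := pad_family (fun _ J => hs_E P J) 11 11 (by omega) (by omega)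
  obtain ⟨p1, q1, h1⟩ := pad_family (fun _ _ => HS.sB (P := P)) 11 11 (by omega) (by omega)
  refine ⟨fun l J => ![fun j x y v => x l ^ p0 * y J ^ q0 * sE P J j x y v,
    fun j x y v => x l ^ p1 * y J ^ q1 * v 1], fun l J i => ?_, ?_⟩
  · fin_cases i
    · exact h0 l J
    · exact h1 l J
  intro l j i s t v
  fin_cases i
  · simp [hc_self, sE, P.xi_self, f5]
  · simp [hc_self]

theorem euler {ψ : V × V → ℂ} (hψ : Differentiable ℂ ψ) {m : ℕ} (z v : V)
    (h : ∀ c : ℂ, ψ (z, c • v) = c ^ m * ψ (z, v)) :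
    fderiv ℂ ψ (z, v) (0, v) = m * ψ (z, v) := by
  have h1 : HasDerivAt (fun c : ℂ => ((z, c • v) : V × V)) (0, v) 1 := by
    have := (hasDerivAt_const (1 : ℂ) z).prodMk ((hasDerivAt_id (1 : ℂ)).smul_const v)
    simpa using this
  have h2 : HasFDerivAt ψ (fderiv ℂ ψ (z, v)) ((fun c : ℂ => ((z, c • v) : V × V)) 1) := by
    simpa using (hψ (z, v)).hasFDerivAt
  have h3 := h2.comp_hasDerivAt (1 : ℂ) h1
  have h4 : HasDerivAt (fun c : ℂ => c ^ m * ψ (z, v)) (m * ψ (z, v)) 1 := by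
    simpa using (hasDerivAt_pow m (1 : ℂ)).mul_const (ψ (z, v))
  have h5 : (ψ ∘ fun c : ℂ => ((z, c • v) : V × V)) = fun c : ℂ => c ^ m * ψ (z, v) := by
    ext c
    exact h c
  rw [h5] at h3
  exact h3.unique h4

theorem immersion {ι : Type*} [Fintype ι] {F : ι → V × V → ℂ} (hF : ∀ k, Differentiable ℂ (F k))
    {ψ : V × V → ℂ} (hψ : Differentiable ℂ ψ) {m : ℕ} {z v : V}
    (h : ∀ c : ℂ, ψ (z, c • v) = c ^ m * ψ (z, v)) (hv : v ≠ 0) (hne : ψ (z, v) ≠ 0)
    (h0 : ∀ i, ∃ k, F k = fun p => ψ p * p.2 i)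
    (h1 : ∀ i a, ∃ k, F k = fun p => ψ p * (p.1 a * p.2 i)) :
    Function.Injective (fderiv ℂ (fun p k => F k p) (z, v)) := by
  rw [injective_iff_map_eq_zero]
  intro ξ hξ
  have hk : ∀ k, fderiv ℂ (F k) (z, v) ξ = 0 := by
    intro k
    rw [fderiv_pi (fun k => hF k (z, v))] at hξ
    exact congrFun hξ k
  have d2 : ∀ i, HasFDerivAt (fun p : V × V => p.2 i)
      ((ContinuousLinearMap.proj i).comp (ContinuousLinearMap.snd ℂ V V)) (z, v) := fun i =>
    ((ContinuousLinearMap.proj i).comp (ContinuousLinearMap.snd ℂ V V)).hasFDerivAt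
  have d1 : ∀ i, HasFDerivAt (fun p : V × V => p.1 i)
      ((ContinuousLinearMap.proj i).comp (ContinuousLinearMap.fst ℂ V V)) (z, v) := fun i =>
    ((ContinuousLinearMap.proj i).comp (ContinuousLinearMap.fst ℂ V V)).hasFDerivAt
  have dψ := (hψ (z, v)).hasFDerivAt
  have e0 : ∀ i, ψ (z, v) * ξ.2 i + v i * fderiv ℂ ψ (z, v) ξ = 0 := by
    intro i
    obtain ⟨k, hk'⟩ := h0 i
    have := hk k
    rw [hk', (dψ.fun_mul (d2 i)).fderiv] at this
    simpa using this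
  have e1 : ∀ i a, ψ (z, v) * (z a * ξ.2 i + v i * ξ.1 a) +
      z a * v i * fderiv ℂ ψ (z, v) ξ = 0 := by
    intro i a
    obtain ⟨k, hk'⟩ := h1 i a
    have := hk k
    rw [hk', (dψ.fun_mul ((d1 a).fun_mul (d2 i))).fderiv] at this
    simpa [mul_add] using this
  obtain ⟨i, hi⟩ := exists_ne_zero hv
  have f1 : ξ.1 = 0 := by
    ext a
    have : ψ (z, v) * v i * ξ.1 a = 0 := by linear_combination e1 i a - z a * e0 i
    simpa [hne, hi] using this
  set τ := fderiv ℂ ψ (z, v) ξ / ψ (z, v) with hτ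
  have hτ' : fderiv ℂ ψ (z, v) ξ = τ * ψ (z, v) := by
    rw [hτ]
    field_simp
  have f2 : ξ = (-τ) • ((0, v) : V × V) := by
    ext a
    · simp [f1]
    · have := e0 a
      rw [hτ'] at this
      have h' : ψ (z, v) * (ξ.2 a + τ * v a) = 0 := by linear_combination this
      have h'' := (mul_eq_zero.1 h').resolve_left hne
      simp only [Prod.smul_snd, Pi.smul_apply, smul_eq_mul]
      linear_combination h''
  have f3 : τ = 0 := by
    have := hτ'
    conv_lhs at this => rw [f2, map_smul, euler hψ z v h]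
    have h' : ((m : ℂ) + 1) * ψ (z, v) * τ = 0 := by
      simp only [smul_eq_mul] at this
      linear_combination (-1 : ℂ) * this
    have hm : (m : ℂ) + 1 ≠ 0 := Nat.cast_add_one_ne_zero m
    simpa [hm, hne] using h'
  rw [f2, f3]
  simp

theorem ample (hα : 6 ≤ α) : Ample (EE P) := by
  obtain ⟨Ψ, hΨ, hbpf⟩ := bpf_family P hα
  obtain ⟨W, hW, hWv⟩ := coord_family P
  have hH : ∀ l J i m, HS P 1 12 12 (fun j x y v => mu l J m x y * W l J i j x y v) :=
    fun l J i m => ((hs_mu P l J m).mul (hW l J i)).cast rfl rfl rfl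
  have hS : ∀ q : (Fin 2 × Fin 2) × Fin 4 × (Fin 2 × Fin 2) × Fin 2 × Fin 3,
      HS P 49 0 0 (fun j x y v => Ψ q.1.1 q.1.2 q.2.1 j x y v *
        (mu q.2.2.1.1 q.2.2.1.2 q.2.2.2.2 x y * W q.2.2.1.1 q.2.2.1.2 q.2.2.2.1 j x y v)) :=
    fun q => ((hΨ _ _ _).mul (hH _ _ _ _)).cast rfl rfl rfl
  let e := Fintype.equivFin ((Fin 2 × Fin 2) × Fin 4 × (Fin 2 × Fin 2) × Fin 2 × Fin 3)
  have one1 : ∀ l t, hc l t l ≠ 0 := fun l t => by rw [hc_self]; exact one_ne_zero
  refine ⟨49, _, fun k => (hS (e.symm k)).toSec, by norm_num, ?_, ?_, ?_⟩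
  · intro c z v hv
    obtain ⟨k, hk⟩ := hbpf c.1 c.2 (hc c.1 (z 0)) (hc c.2 (z 1)) v (one1 _ _) (one1 _ _) hv
    obtain ⟨i, hi⟩ := exists_ne_zero hv
    refine ⟨e (c, k, c, i, 0), ?_⟩
    simp only [HS.toSec, Equiv.symm_apply_apply, hWv, mu, hc_self, Matrix.cons_val_zero]
    simpa using ⟨hk, hi⟩
  · intro c d z w v v' t hv hv' hprop
    obtain ⟨k, hk⟩ := hbpf d.1 d.2 (hc d.1 (w 0)) (hc d.2 (w 1)) v' (one1 _ _) (one1 _ _) hv'
    set x := hc c.1 (z 0) with hx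
    set y := hc c.2 (z 1) with hy
    set t1 := t * Ψ d.1 d.2 k c.2 x y v / Ψ d.1 d.2 k d.2 (hc d.1 (w 0)) (hc d.2 (w 1)) v'
      with ht1
    have key : ∀ i m, mu d.1 d.2 m (hc d.1 (w 0)) (hc d.2 (w 1)) * v' i =
        t1 * (mu d.1 d.2 m x y * W d.1 d.2 i c.2 x y v) := by
      intro i m
      have := hprop (e (d, k, d, i, m))
      simp only [HS.toSec, Equiv.symm_apply_apply, hWv] at this
      rw [ht1]
      field_simp
      linear_combination this
    obtain ⟨i, hi⟩ := exists_ne_zero hv'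
    have k0 := key i 0
    have k1 := key i 1
    have k2 := key i 2
    simp only [mu, hc_self, hc_rev, Matrix.cons_val_zero, Matrix.cons_val_one, Matrix.cons_val,
      one_mul, mul_one] at k0 k1 k2
    have hxl : x d.1 ≠ 0 := by
      intro h
      rw [h] at k0
      exact hi (by simpa using k0)
    have hyl : y d.2 ≠ 0 := by
      intro h
      rw [h] at k0
      exact hi (by simpa using k0)
    have w0 : w 0 = x d.1.rev / x d.1 := by
      rw [eq_div_iff hxl]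
      apply mul_right_cancel₀ hi
      linear_combination x d.1 * k1 - x d.1.rev * k0
    have w1 : w 1 = y d.2.rev / y d.2 := by
      rw [eq_div_iff hyl]
      apply mul_right_cancel₀ hi
      linear_combination y d.2 * k2 - y d.2.rev * k0
    have hzw : chart c z = chart d w :=
      chart_eq_of (a := (x d.1)⁻¹) (b := (y d.2)⁻¹) (by rw [w0, hc_of hxl]) (by rw [w1, hc_of hyl])
    refine ⟨hzw, t1 / chi 12 12 (x d.1)⁻¹ (y d.2)⁻¹, ?_⟩
    ext a
    have c1 := (hH d.1 d.2 a 0).compat v hzw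
    have c2 := key a 0
    have c3 := chi_ne 12 12 (inv_ne_zero hxl) (inv_ne_zero hyl)
    simp only [hWv, mu, hc_self, Matrix.cons_val_zero, one_mul] at c1 c2
    rw [← hx, ← hy] at c1
    change v' a = t1 / chi 12 12 (x d.1)⁻¹ (y d.2)⁻¹ * (v ᵥ* TT P c d z) a
    rw [c1, c2, ← mul_assoc (t1 / _), div_mul_cancel₀ _ c3]
  · intro c z v hv
    obtain ⟨k, hk⟩ := hbpf c.1 c.2 (hc c.1 (z 0)) (hc c.2 (z 1)) v (one1 _ _) (one1 _ _) hv
    refine immersion (F := fun k => (hS (e.symm k)).toSec.val c)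
      (fun k => (hS (e.symm k)).toSec.holo c) ((hΨ c.1 c.2 k).chart_diff c)
      (fun t => (hΨ c.1 c.2 k).homv _ _ _ _ _) hv hk ?_ ?_
    · intro i
      refine ⟨e (c, k, c, i, 0), ?_⟩
      ext p
      simp [HS.toSec, hWv, mu, hc_self]
    · intro i a
      fin_cases a
      · refine ⟨e (c, k, c, i, 1), ?_⟩
        ext p
        simp [HS.toSec, hWv, mu, hc_self, hc_rev]
      · refine ⟨e (c, k, c, i, 2), ?_⟩
        ext p
        simp [HS.toSec, hWv, mu, hc_self, hc_rev]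

end Vale.Agent.P296
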