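import Mathlib

/-!
Common notions for the counterexample: binary vectors, the determinant, the fifth power map,
bihomogeneous entire functions, and the three matrices whose graphs form the curve `D`.
-/

open Matrix

noncomputable section

namespace Vale.Agent.P296

abbrev V := Fin 2 → ℂ

/-- The determinant of two vectors. -/
def dt (a b : V) : ℂ := a 0 * b 1 - a 1 * b 0

/-- The fifth power map. -/
def f5 (x : V) : V := fun i => x i ^ 5

/-- An entire function on `ℂ² × ℂ²`, bihomogeneous of bidegree `(a, b)`. -/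
structure Hol (a b : ℤ) (P : V → V → ℂ) : Prop where
  diff : Differentiable ℂ (fun p : V × V => P p.1 p.2)
  hom : ∀ (c d : ℂ) (X Y : V), c ≠ 0 → d ≠ 0 → P (c • X) (d • Y) = c ^ a * d ^ b * P X Y

/-- A primitive sixth root of unity. -/
def ze : ℂ := ⟨1 / 2, Real.sqrt 3 / 2⟩

theorem ze_re : ze.re = 1 / 2 := rfl

theorem ze_im : ze.im = Real.sqrt 3 / 2 := rfl

theorem ze_im_ne : ze.im ≠ 0 := by
  rw [ze_im]
  have : 0 < Real.sqrt 3 := Real.sqrt_pos.2 (by norm_num)
  positivity

theorem ze_sq : ze ^ 2 = ze - 1 := by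
  have h3 : Real.sqrt 3 * Real.sqrt 3 = 3 := Real.mul_self_sqrt (by norm_num)
  apply Complex.ext
  · simp [pow_two, ze_re, ze_im]
    nlinarith
  · simp [pow_two, ze_re, ze_im]
    ring

theorem ze_pow_six : ze ^ 6 = 1 := by
  linear_combination (ze ^ 4 + ze ^ 3 - ze - 1) * ze_sq

/-- A real affine combination of `ze` with nonzero coefficient does not vanish. -/
theorem ze_aff_ne (a b : ℝ) (ha : a ≠ 0) : (a : ℂ) * ze + b ≠ 0 := by
  intro h
  have := congrArg Complex.im h
  simp at this
  rcases this with h | h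
  · exact ha h
  · exact ze_im_ne h

theorem ze_ne_zero : ze ≠ 0 := by
  simpa using ze_aff_ne 1 0 one_ne_zero

/-- The three matrices `1`, `A`, `B`. -/
def gam : Fin 3 → Matrix (Fin 2) (Fin 2) ℂ :=
  ![!![1, 0; 0, 1], !![1, 0; 0, ze], !![1 + 2 * ze, -ze; 6 * ze, 1 - 3 * ze]]

theorem gam0_mulVec (X : V) : gam 0 *ᵥ X = X := by
  ext i
  fin_cases i <;> simp [gam, Matrix.mulVec, dotProduct, Fin.sum_univ_two]

theorem gam1_mulVec (X : V) : gam 1 *ᵥ X = ![X 0, ze * X 1] := by
  ext i
  fin_cases i <;> simp [gam, Matrix.mulVec, dotProduct, Fin.sum_univ_two]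

theorem gam2_mulVec (X : V) :
    gam 2 *ᵥ X = ![(1 + 2 * ze) * X 0 - ze * X 1, 6 * ze * X 0 + (1 - 3 * ze) * X 1] := by
  ext i
  fin_cases i <;> simp [gam, Matrix.mulVec, dotProduct, Fin.sum_univ_two]
  ring

theorem gam_det_ne (i : Fin 3) : (gam i).det ≠ 0 := by
  fin_cases i
  · simp [gam, Matrix.det_fin_two]
  · simpa [gam, Matrix.det_fin_two] using ze_ne_zero
  · have h : (gam 2).det = (-1 : ℝ) * ze + (1 : ℝ) := by
      simp [gam, Matrix.det_fin_two]
      ring
    have := ze_aff_ne (-1) 1 (by norm_num)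
    rw [← h] at this
    exact this

/-- The equation of the curve `D`, the union of the graphs of the three matrices. -/
def DD (X Y : V) : ℂ := dt (gam 0 *ᵥ X) Y * dt (gam 1 *ᵥ X) Y * dt (gam 2 *ᵥ X) Y

end Vale.Agent.P296
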