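import Vale.Agent.P296.Defs
import Vale.Agent.P296.Alg

/-!
The rank two bundle on `ℙ¹ × ℙ¹` defined by the polynomials, in homogeneous coordinates.
-/

open Matrix

noncomputable section

namespace Vale.Agent.P296

theorem hc_self (l : Fin 2) (t : ℂ) : hc l t l = 1 := by simp [hc]

theorem hc_rev (l : Fin 2) (t : ℂ) : hc l t l.rev = t := by
  fin_cases l <;> simp [hc]

theorem hc_of {x : V} {l : Fin 2} (h : x l ≠ 0) : hc l (x l.rev / x l) = (x l)⁻¹ • x := by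
  ext i
  fin_cases l <;> fin_cases i <;> simp_all [hc] <;> field_simp

theorem hc_add (l : Fin 2) (t s : ℂ) : hc l (t + s) = hc l t + Pi.single l.rev s := by
  ext i
  fin_cases l <;> fin_cases i <;> simp [hc]

theorem hc_differentiable (l : Fin 2) : Differentiable ℂ (hc l) := by
  rw [differentiable_pi]
  intro i
  by_cases h : i = l <;> simp [hc, h]

theorem f5_differentiable : Differentiable ℂ f5 := by
  rw [differentiable_pi]
  intro i
  unfold f5
  fun_prop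

theorem f5_smul (c : ℂ) (x : V) : f5 (c • x) = c ^ 5 • f5 x := by
  ext i
  simp [f5, mul_pow]

theorem f5_ne {x : V} {l : Fin 2} (h : x l ≠ 0) : f5 x l ≠ 0 := pow_ne_zero _ h

theorem exists_ne_zero {x : V} (h : x ≠ 0) : ∃ l, x l ≠ 0 := Function.ne_iff.1 h

theorem mk_hc_eq {l l' : Fin 2} {t t' : ℂ}
    (h : Projectivization.mk ℂ (hc l t) (hc_ne_zero _ _) =
      Projectivization.mk ℂ (hc l' t') (hc_ne_zero _ _)) :
    hc l t l' ≠ 0 ∧ hc l' t' = (hc l t l')⁻¹ • hc l t := by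
  obtain ⟨a, ha⟩ := (Projectivization.mk_eq_mk_iff' ℂ _ _ _ _).1 h
  have h1 : hc l t l' = a := by
    rw [← ha]
    simp [hc_self]
  have h0 : a ≠ 0 := by
    rintro rfl
    exact hc_ne_zero l t (by rw [← ha, zero_smul])
  refine ⟨h1 ▸ h0, ?_⟩
  rw [h1, ← ha, smul_smul, inv_mul_cancel₀ h0, one_smul]

theorem mk_hc_eq_of {l l' : Fin 2} {t t' a : ℂ} (h : hc l' t' = a • hc l t) :
    Projectivization.mk ℂ (hc l t) (hc_ne_zero _ _) =
      Projectivization.mk ℂ (hc l' t') (hc_ne_zero _ _) :=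
  ((Projectivization.mk_eq_mk_iff' ℂ _ _ _ _).2 ⟨a, h.symm⟩).symm

theorem chart_eq {c d : Fin 2 × Fin 2} {z w : V} (h : chart c z = chart d w) :
    (hc c.1 (z 0) d.1 ≠ 0 ∧ hc d.1 (w 0) = (hc c.1 (z 0) d.1)⁻¹ • hc c.1 (z 0)) ∧
    (hc c.2 (z 1) d.2 ≠ 0 ∧ hc d.2 (w 1) = (hc c.2 (z 1) d.2)⁻¹ • hc c.2 (z 1)) :=
  ⟨mk_hc_eq (congrArg Prod.fst h), mk_hc_eq (congrArg Prod.snd h)⟩

theorem chart_eq_of {c d : Fin 2 × Fin 2} {z w : V} {a b : ℂ}
    (h1 : hc d.1 (w 0) = a • hc c.1 (z 0)) (h2 : hc d.2 (w 1) = b • hc c.2 (z 1)) :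
    chart c z = chart d w :=
  Prod.ext (mk_hc_eq_of h1) (mk_hc_eq_of h2)

theorem mem_range_chart {c d : Fin 2 × Fin 2} {z : V} (h : chart c z ∈ Set.range (chart d)) :
    hc c.1 (z 0) d.1 ≠ 0 ∧ hc c.2 (z 1) d.2 ≠ 0 := by
  obtain ⟨w, hw⟩ := h
  exact ⟨(chart_eq hw.symm).1.1, (chart_eq hw.symm).2.1⟩

theorem Hol.diffAt {a b : ℤ} {Q : V → V → ℂ} (h : Hol a b Q) {E : Type*} [NormedAddCommGroup E]
    [NormedSpace ℂ E] {x y : E → V} {p : E} (hx : DifferentiableAt ℂ x p)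
    (hy : DifferentiableAt ℂ y p) : DifferentiableAt ℂ (fun t => Q (x t) (y t)) p :=
  DifferentiableAt.comp (g := fun p : V × V => Q p.1 p.2) (f := fun t => (x t, y t)) p
    (h.diff (x p, y p)) (hx.prodMk hy)

theorem diffAt_div {E : Type*} [NormedAddCommGroup E] [NormedSpace ℂ E] {f g : E → ℂ} {p : E}
    (hf : DifferentiableAt ℂ f p) (hg : DifferentiableAt ℂ g p) (h : g p ≠ 0) :
    DifferentiableAt ℂ (fun t => f t / g t) p := by
  simp only [div_eq_mul_inv]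
  exact hf.mul (hg.inv h)

variable {α : ℕ} (P : Polys α)

/-- Change of frame at the point with homogeneous coordinates `(x, y)`. -/
def GG (j j' : Fin 2) (x y : V) : Matrix (Fin 2) (Fin 2) ℂ :=
  !![f5 y j' ^ (α + 2) / f5 y j ^ (α + 2), 0;
    P.Ξ j j' (f5 x) (f5 y) / f5 y j ^ (α + 2), 1]

/-- The character of the torus with weights `(m, n)`. -/
def chi (m n : ℤ) (a b : ℂ) : ℂ := a ^ m * b ^ n

theorem chi_mul (m n : ℤ) (a b a' b' : ℂ) :
    chi m n (a * a') (b * b') = chi m n a b * chi m n a' b' := by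
  simp only [chi, mul_zpow]
  ring

theorem chi_one (m n : ℤ) : chi m n 1 1 = 1 := by simp [chi]

theorem chi_add (m n m' n' : ℤ) {a b : ℂ} (ha : a ≠ 0) (hb : b ≠ 0) :
    chi (m + m') (n + n') a b = chi m n a b * chi m' n' a b := by
  simp only [chi, zpow_add₀ ha, zpow_add₀ hb]
  ring

theorem chi_ne (m n : ℤ) {a b : ℂ} (ha : a ≠ 0) (hb : b ≠ 0) : chi m n a b ≠ 0 :=
  mul_ne_zero (zpow_ne_zero _ ha) (zpow_ne_zero _ hb)

theorem chi_eq {m n m' n' m'' n'' : ℤ} {a b : ℂ} (ha : a ≠ 0) (hb : b ≠ 0) (h1 : m + m' = m'')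
    (h2 : n + n' = n'') : chi m n a b * chi m' n' a b = chi m'' n'' a b := by
  rw [← chi_add _ _ _ _ ha hb, h1, h2]

theorem chi_zero (a b : ℂ) : chi 0 0 a b = 1 := by simp [chi]

theorem Hol.hom5 {a b : ℤ} {Q : V → V → ℂ} (h : Hol a b Q) {c d : ℂ} (hc0 : c ≠ 0) (hd : d ≠ 0)
    (x y : V) : Q (f5 (c • x)) (f5 (d • y)) = chi (5 * a) (5 * b) c d * Q (f5 x) (f5 y) := by
  rw [chi, f5_smul, f5_smul, h.hom _ _ _ _ (pow_ne_zero _ hc0) (pow_ne_zero _ hd), _root_.zpow_mul,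
    _root_.zpow_mul]
  norm_cast

/-- The action of the torus on covector coordinates. -/
def SS (α : ℕ) (a b : ℂ) : Matrix (Fin 2) (Fin 2) ℂ :=
  !![chi (-4) 6 a b, 0; 0, chi (11 - 5 * (α : ℤ)) 11 a b]

theorem vecMul_GG (j j' : Fin 2) (x y v : V) : v ᵥ* GG P j j' x y =
    ![(f5 y j' ^ (α + 2) * v 0 + P.Ξ j j' (f5 x) (f5 y) * v 1) / f5 y j ^ (α + 2), v 1] := by
  ext i
  fin_cases i <;> simp [GG, Matrix.vecMul, dotProduct, Fin.sum_univ_two]
  ring

theorem vecMul_SS (a b : ℂ) (v : V) : v ᵥ* SS α a b =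
    ![chi (-4) 6 a b * v 0, chi (11 - 5 * (α : ℤ)) 11 a b * v 1] := by
  ext i
  fin_cases i <;> simp [SS, Matrix.vecMul, dotProduct, Fin.sum_univ_two] <;> ring

theorem GG_self {j : Fin 2} {x y : V} (h : y j ≠ 0) : GG P j j x y = 1 := by
  have := pow_ne_zero (α + 2) (f5_ne h)
  ext a b
  fin_cases a <;> fin_cases b <;> simp [GG, P.xi_self, div_self this]

theorem GG_mul {j j' : Fin 2} (j'' : Fin 2) {x y : V} (h : y j ≠ 0) (h' : y j' ≠ 0) :
    GG P j j' x y * GG P j' j'' x y = GG P j j'' x y := by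
  have h1 := pow_ne_zero (α + 2) (f5_ne h)
  have h2 := pow_ne_zero (α + 2) (f5_ne h')
  have := P.xi_coc j j' j'' (f5 x) (f5 y)
  ext a b
  fin_cases a <;> fin_cases b <;> simp [GG, Matrix.mul_apply, Fin.sum_univ_two]
  · field_simp
  · field_simp
    linear_combination this

theorem SS_mul (a b a' b' : ℂ) : SS α a b * SS α a' b' = SS α (a * a') (b * b') := by
  ext i k
  fin_cases i <;> fin_cases k <;> simp [SS, Matrix.mul_apply, Fin.sum_univ_two, chi_mul]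

theorem SS_one : SS α 1 1 = 1 := by
  ext i k
  fin_cases i <;> fin_cases k <;> simp [SS, chi_one]

theorem f5_pow_smul_right (a b : ℂ) (y : V) (j : Fin 2) (k : ℕ) :
    f5 (b • y) j ^ k = chi 0 (5 * (k : ℤ)) a b * f5 y j ^ k := by
  rw [f5_smul, Pi.smul_apply, smul_eq_mul, mul_pow, ← pow_mul, chi, zpow_zero, one_mul]
  norm_cast

theorem f5_pow_smul_left (a b : ℂ) (x : V) (j : Fin 2) (k : ℕ) :
    f5 (a • x) j ^ k = chi (5 * (k : ℤ)) 0 a b * f5 x j ^ k := by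
  rw [f5_smul, Pi.smul_apply, smul_eq_mul, mul_pow, ← pow_mul, chi, zpow_zero, mul_one]
  norm_cast

theorem GG_scale (j j' : Fin 2) (x y : V) {a b : ℂ} (ha : a ≠ 0) (hb : b ≠ 0) :
    SS α a b * GG P j j' (a • x) (b • y) = GG P j j' x y * SS α a b := by
  have hz : chi 0 (5 * ((α + 2 : ℕ) : ℤ)) a b ≠ 0 := chi_ne _ _ ha hb
  have e1 : chi (11 - 5 * (α : ℤ)) 11 a b * chi (5 * ((α : ℤ) - 3)) (5 * ((α : ℤ) + 1)) a b =
      chi (-4) 6 a b * chi 0 (5 * ((α + 2 : ℕ) : ℤ)) a b := by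
    rw [chi_eq ha hb rfl rfl, chi_eq ha hb rfl rfl]
    congr 1 <;> push_cast <;> ring
  ext i k
  fin_cases i <;> fin_cases k
  · simp only [SS, GG, f5_pow_smul_right a b, Matrix.mul_apply, Fin.sum_univ_two, Fin.zero_eta,
      Matrix.of_apply, Matrix.cons_val', Matrix.cons_val_zero, Matrix.cons_val_one,
      Matrix.cons_val_fin_one, zero_mul, mul_zero, add_zero]
    rw [mul_div_mul_left _ _ hz, mul_comm]
  · simp [SS, GG, Matrix.mul_apply, Fin.sum_univ_two]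
  · simp only [SS, GG, f5_pow_smul_right a b, (P.hΞ j j').hom5 ha hb, Matrix.mul_apply,
      Fin.sum_univ_two, Fin.zero_eta, Fin.mk_one, Matrix.of_apply, Matrix.cons_val',
      Matrix.cons_val_zero, Matrix.cons_val_one, Matrix.cons_val_fin_one, zero_mul, mul_zero,
      add_zero, zero_add]
    by_cases h0 : f5 y j ^ (α + 2) = 0
    · simp [h0]
    field_simp
    linear_combination (P.Ξ j j' (f5 x) (f5 y)) * e1
  · simp [SS, GG, Matrix.mul_apply, Fin.sum_univ_two]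

/-- The transition matrices. -/
def TT (c d : Fin 2 × Fin 2) (z : V) : Matrix (Fin 2) (Fin 2) ℂ :=
  GG P c.2 d.2 (hc c.1 (z 0)) (hc c.2 (z 1)) *
    SS α (hc c.1 (z 0) d.1)⁻¹ (hc c.2 (z 1) d.2)⁻¹

theorem hcz_diff (l i : Fin 2) : Differentiable ℂ (fun z : V => hc l (z i)) :=
  (hc_differentiable l).comp (differentiable_apply i)

theorem TT_diffAt (c d : Fin 2 × Fin 2) (a b : Fin 2) (z : V) (h1 : hc c.1 (z 0) d.1 ≠ 0)
    (h2 : hc c.2 (z 1) d.2 ≠ 0) : DifferentiableAt ℂ (fun z => TT P c d z a b) z := by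
  have hx : DifferentiableAt ℂ (fun z : V => f5 (hc c.1 (z 0))) z :=
    (f5_differentiable.comp (hcz_diff c.1 0)) z
  have hy : DifferentiableAt ℂ (fun z : V => f5 (hc c.2 (z 1))) z :=
    (f5_differentiable.comp (hcz_diff c.2 1)) z
  have hyj : ∀ j, DifferentiableAt ℂ (fun z : V => f5 (hc c.2 (z 1)) j ^ (α + 2)) z := fun j =>
    (differentiableAt_pi.1 hy j).pow _
  have hne : f5 (hc c.2 (z 1)) c.2 ^ (α + 2) ≠ 0 :=
    pow_ne_zero _ (f5_ne (by rw [hc_self]; exact one_ne_zero))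
  have ha : ∀ n : ℤ, DifferentiableAt ℂ (fun z : V => (hc c.1 (z 0) d.1)⁻¹ ^ n) z := fun n =>
    ((differentiableAt_pi.1 (hcz_diff c.1 0 z) d.1).inv h1).zpow (Or.inl (inv_ne_zero h1))
  have hb : ∀ n : ℤ, DifferentiableAt ℂ (fun z : V => (hc c.2 (z 1) d.2)⁻¹ ^ n) z := fun n =>
    ((differentiableAt_pi.1 (hcz_diff c.2 1 z) d.2).inv h2).zpow (Or.inl (inv_ne_zero h2))
  have hG : ∀ a b, DifferentiableAt ℂ
      (fun z : V => GG P c.2 d.2 (hc c.1 (z 0)) (hc c.2 (z 1)) a b) z := by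
    intro a b
    fin_cases a <;> fin_cases b
    · exact diffAt_div (hyj d.2) (hyj c.2) hne
    · exact differentiableAt_const (0 : ℂ)
    · exact diffAt_div ((P.hΞ c.2 d.2).diffAt hx hy) (hyj c.2) hne
    · exact differentiableAt_const (1 : ℂ)
  have hS : ∀ a b, DifferentiableAt ℂ
      (fun z : V => SS α (hc c.1 (z 0) d.1)⁻¹ (hc c.2 (z 1) d.2)⁻¹ a b) z := by
    intro a b
    fin_cases a <;> fin_cases b
    · exact (ha _).mul (hb _)
    · exact differentiableAt_const (0 : ℂ)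
    · exact differentiableAt_const (0 : ℂ)
    · exact (ha _).mul (hb _)
  simp only [TT, Matrix.mul_apply, Fin.sum_univ_two]
  exact ((hG _ _).mul (hS _ _)).add ((hG _ _).mul (hS _ _))

/-- The bundle. -/
def EE : Bundle 2 where
  T := TT P
  holo c d a b z hz := (TT_diffAt P c d a b z (mem_range_chart hz).1
    (mem_range_chart hz).2).differentiableWithinAt
  self c z := by
    rw [TT, GG_self P (by rw [hc_self]; exact one_ne_zero), hc_self, hc_self, inv_one, SS_one,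
      mul_one]
  cocycle c d e z w h _ := by
    obtain ⟨⟨h1, e1⟩, ⟨h2, e2⟩⟩ := chart_eq h
    have hy : hc c.2 (z 1) c.2 ≠ 0 := by rw [hc_self]; exact one_ne_zero
    rw [TT, TT, TT, e1, e2, Matrix.mul_assoc, ← Matrix.mul_assoc (SS _ _ _),
      GG_scale P _ _ _ _ (inv_ne_zero h1) (inv_ne_zero h2), Matrix.mul_assoc, SS_mul,
      ← Matrix.mul_assoc, GG_mul P _ hy h2]
    congr 2
    · rw [Pi.smul_apply, smul_eq_mul, mul_inv, inv_inv, ← mul_assoc, inv_mul_cancel₀ h1, one_mul]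
    · rw [Pi.smul_apply, smul_eq_mul, mul_inv, inv_inv, ← mul_assoc, inv_mul_cancel₀ h2, one_mul]

end Vale.Agent.P296
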