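import Vale.Agent.P296.Basic

/-!
Three hyperbolic elements of the group generated by `A` and `B`.
-/

open Matrix

noncomputable section

namespace Vale.Agent.P296

theorem gam_inv_mulVec (i : Fin 3) (X : V) : (gam i)⁻¹ *ᵥ (gam i *ᵥ X) = X := by
  rw [Matrix.mulVec_mulVec, Matrix.nonsing_inv_mul _ (Ne.isUnit (gam_det_ne i)), Matrix.one_mulVec]

theorem gam0_inv_mulVec (X : V) : (gam 0)⁻¹ *ᵥ X = X := by
  conv_lhs => rw [← gam0_mulVec X]
  exact gam_inv_mulVec 0 X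

/-- The eigenvector of `A * B` for the eigenvalue `μ`. -/
def eig (μ : ℝ) : V := ![1, 2 + (1 - ze) * (1 - μ)]

theorem eig_eq (μ : ℝ) (h : (μ : ℂ) ^ 2 - 4 * μ + 1 = 0) :
    gam 1 *ᵥ (gam 2 *ᵥ eig μ) = (μ : ℂ) • eig μ := by
  rw [gam1_mulVec, gam2_mulVec]
  ext i
  fin_cases i
  · simp [eig]
    linear_combination (1 - μ) * ze_sq
  · simp [eig]
    linear_combination (3 * ze - 3 * ze * μ - 1 + μ) * ze_sq + (1 - ze) * h

theorem exists_hyp : ∃ (g : Fin 3 → Matrix (Fin 2) (Fin 2) ℂ) (Vs Vu : Fin 3 → V) (lam : ℝ),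
    0 < lam ∧ lam < 1 ∧ (∀ j, g j ∈ Submonoid.closure {m | ∃ a b, m = gam a * (gam b)⁻¹}) ∧
    (∀ j, g j *ᵥ Vs j = (lam : ℂ) • Vs j) ∧ (∀ j, g j *ᵥ Vu j = (lam : ℂ)⁻¹ • Vu j) ∧
    (∀ j, dt (Vs j) (Vu j) ≠ 0) ∧ (∀ i j, i ≠ j → dt (Vs i) (Vs j) ≠ 0) := by
  have h3 : Real.sqrt 3 * Real.sqrt 3 = 3 := Real.mul_self_sqrt (by norm_num)
  have h3p : 0 < Real.sqrt 3 := Real.sqrt_pos.2 (by norm_num)
  set s := Real.sqrt 3 with hsdef
  have hs1 : 1 < s := by nlinarith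
  have hs2 : s < 2 := by nlinarith
  have h3c : (s : ℂ) * s = 3 := by exact_mod_cast h3
  have hl : (((2 - s : ℝ) : ℂ)) ^ 2 - 4 * ((2 - s : ℝ) : ℂ) + 1 = 0 := by
    push_cast
    linear_combination h3c
  have hl' : (((2 + s : ℝ) : ℂ)) ^ 2 - 4 * ((2 + s : ℝ) : ℂ) + 1 = 0 := by
    push_cast
    linear_combination h3c
  have hprod : ((2 - s : ℝ) : ℂ) * ((2 + s : ℝ) : ℂ) = 1 := by
    push_cast
    linear_combination (-1 : ℂ) * h3c
  have hinv : ((2 - s : ℝ) : ℂ)⁻¹ = ((2 + s : ℝ) : ℂ) := inv_eq_of_mul_eq_one_right hprod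
  have e1 := eig_eq _ hl
  have e2 := eig_eq _ hl'
  have mem : ∀ a b, gam a * (gam b)⁻¹ ∈
      Submonoid.closure {m : Matrix (Fin 2) (Fin 2) ℂ | ∃ a b, m = gam a * (gam b)⁻¹} :=
    fun a b => Submonoid.subset_closure ⟨a, b, rfl⟩
  have i1 : (gam 2)⁻¹ *ᵥ ((gam 1)⁻¹ *ᵥ eig (2 + s)) = ((2 - s : ℝ) : ℂ) • eig (2 + s) := by
    have : eig (2 + s) = ((2 - s : ℝ) : ℂ) • (gam 1 *ᵥ (gam 2 *ᵥ eig (2 + s))) := by
      rw [e2, smul_smul, hprod, one_smul]
    conv_lhs => rw [this]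
    rw [Matrix.mulVec_smul, Matrix.mulVec_smul, gam_inv_mulVec, gam_inv_mulVec]
  have i2 : (gam 2)⁻¹ *ᵥ ((gam 1)⁻¹ *ᵥ eig (2 - s)) = ((2 + s : ℝ) : ℂ) • eig (2 - s) := by
    have : eig (2 - s) = ((2 + s : ℝ) : ℂ) • (gam 1 *ᵥ (gam 2 *ᵥ eig (2 - s))) := by
      rw [e1, smul_smul, mul_comm, hprod, one_smul]
    conv_lhs => rw [this]
    rw [Matrix.mulVec_smul, Matrix.mulVec_smul, gam_inv_mulVec, gam_inv_mulVec]
  have d01 : dt (eig (2 - s)) (eig (2 + s)) ≠ 0 := by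
    have := ze_aff_ne (2 * s) (-2 * s) (by positivity)
    intro h
    apply this
    simp [dt, eig] at h
    push_cast
    linear_combination h
  have d02 : dt (eig (2 - s)) (gam 1 *ᵥ eig (2 - s)) ≠ 0 := by
    have := ze_aff_ne (1 + s) (-2) (by positivity)
    intro h
    apply this
    rw [gam1_mulVec] at h
    simp [dt, eig] at h
    push_cast
    linear_combination h + (s - 1) * ze_sq
  have d12 : dt (eig (2 + s)) (gam 1 *ᵥ eig (2 - s)) ≠ 0 := by
    have := ze_aff_ne (1 - s) (2 * s - 2) (by linarith)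
    intro h
    apply this
    rw [gam1_mulVec] at h
    simp [dt, eig] at h
    push_cast
    linear_combination h + (s - 1) * ze_sq
  have d22 : dt (gam 1 *ᵥ eig (2 - s)) (gam 1 *ᵥ eig (2 + s)) ≠ 0 := by
    have : dt (gam 1 *ᵥ eig (2 - s)) (gam 1 *ᵥ eig (2 + s)) =
        ze * dt (eig (2 - s)) (eig (2 + s)) := by
      rw [gam1_mulVec, gam1_mulVec]
      simp [dt]
      ring
    rw [this]
    exact mul_ne_zero ze_ne_zero d01
  have anti : ∀ a b : V, dt a b ≠ 0 → dt b a ≠ 0 := by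
    intro a b h h'
    apply h
    simp only [dt] at h' ⊢
    linear_combination (-1 : ℂ) * h'
  refine ⟨![gam 1 * (gam 0)⁻¹ * (gam 2 * (gam 0)⁻¹), gam 0 * (gam 2)⁻¹ * (gam 0 * (gam 1)⁻¹),
      gam 1 * (gam 0)⁻¹ * (gam 1 * (gam 0)⁻¹ * (gam 2 * (gam 0)⁻¹)) * (gam 0 * (gam 1)⁻¹)],
    ![eig (2 - s), eig (2 + s), gam 1 *ᵥ eig (2 - s)],
    ![eig (2 + s), eig (2 - s), gam 1 *ᵥ eig (2 + s)], 2 - s, by linarith, by linarith,
    ?_, ?_, ?_, ?_, ?_⟩
  · intro j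
    fin_cases j
    · exact mul_mem (mem _ _) (mem _ _)
    · exact mul_mem (mem _ _) (mem _ _)
    · exact mul_mem (mul_mem (mem _ _) (mul_mem (mem _ _) (mem _ _))) (mem _ _)
  · intro j
    fin_cases j
    · simp only [Fin.zero_eta, Matrix.cons_val_zero, ← Matrix.mulVec_mulVec, gam0_inv_mulVec]
      exact e1
    · simp only [Fin.mk_one, Matrix.cons_val_one, Matrix.cons_val_zero, ← Matrix.mulVec_mulVec,
        gam0_mulVec]
      exact i1
    · simp only [Fin.reduceFinMk, Matrix.cons_val, ← Matrix.mulVec_mulVec, gam0_inv_mulVec,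
        gam0_mulVec, gam_inv_mulVec, e1, Matrix.mulVec_smul]
  · intro j
    rw [hinv]
    fin_cases j
    · simp only [Fin.zero_eta, Matrix.cons_val_zero, ← Matrix.mulVec_mulVec, gam0_inv_mulVec]
      exact e2
    · simp only [Fin.mk_one, Matrix.cons_val_one, Matrix.cons_val_zero, ← Matrix.mulVec_mulVec,
        gam0_mulVec]
      exact i2
    · simp only [Fin.reduceFinMk, Matrix.cons_val, ← Matrix.mulVec_mulVec, gam0_inv_mulVec,
        gam0_mulVec, gam_inv_mulVec, e2, Matrix.mulVec_smul]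
  · intro j
    fin_cases j
    · exact d01
    · exact anti _ _ d01
    · exact d22
  · intro i j hij
    fin_cases i <;> fin_cases j
    · exact absurd rfl hij
    · exact d01
    · exact d02
    · exact anti _ _ d01
    · exact absurd rfl hij
    · exact d12
    · exact anti _ _ d02
    · exact anti _ _ d12
    · exact absurd rfl hij

end Vale.Agent.P296
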