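import Vale.Agent.P296.KeyA

/-!
The analytic heart of the counterexample, in abstract form. `V = ℂ²` carries the sup norm.
-/

open Matrix Filter Topology Set

noncomputable section

namespace Vale.Agent.P296

lemma key_comp (g g' : Matrix (Fin 2) (Fin 2) ℂ) {η : ℝ} (hη : 0 < η) :
    ∃ η1, 0 < η1 ∧ ∃ η2, 0 < η2 ∧ ∀ (φ ψ χ : V → V → ℝ) (C1 C2 : ℝ), 0 < C1 →
      KeyGood φ ψ g η1 C1 → KeyGood ψ χ g' η2 C2 → KeyGood φ χ (g' * g) η (C1 * C2) := by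
  obtain ⟨M, hM, hM'⟩ := key_bound g
  obtain ⟨M', hm, hm'⟩ := key_bound g'
  refine ⟨min 1 (η / 2 / M'), lt_min one_pos (by positivity), η / 2 / (M + 1), by positivity,
    fun φ ψ χ C1 C2 hC h1 h2 y hy x hx => ?_⟩
  obtain ⟨z, hz, x', hx', b1, b2⟩ := h1 y hy x hx
  obtain ⟨z', hz', x'', hx'', b3, b4⟩ := h2 z hz x' hx'
  refine ⟨z', hz', x'', hx'', ?_, b2.trans (by rw [mul_assoc]; gcongr)⟩
  have n0 := norm_nonneg (f5 y)
  have c1 : ‖f5 z‖ ≤ (M + 1) * ‖f5 y‖ := by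
    have := mul_le_mul_of_nonneg_right (min_le_left 1 (η / 2 / M')) n0
    linarith [norm_le_norm_sub_add (f5 z) (g *ᵥ f5 y), hM' (f5 y)]
  have c2 : η / 2 / (M + 1) * ‖f5 z‖ ≤ η / 2 * ‖f5 y‖ :=
    (mul_le_mul_of_nonneg_left c1 (by positivity)).trans (le_of_eq (by field_simp))
  have c3 : M' * ‖f5 z - g *ᵥ f5 y‖ ≤ η / 2 * ‖f5 y‖ :=
    (mul_le_mul_of_nonneg_left (b1.trans (mul_le_mul_of_nonneg_right (min_le_right _ _) n0))
      hm.le).trans (le_of_eq (by field_simp))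
  have c4 := hm' (f5 z - g *ᵥ f5 y)
  rw [mulVec_sub, mulVec_mulVec] at c4
  linarith [norm_sub_le_norm_sub_add_norm_sub (f5 z') (g' *ᵥ f5 z) ((g' * g) *ᵥ f5 y)]

lemma key_monoid {ι : Type*} (γ : ι → Matrix (Fin 2) (Fin 2) ℂ) (hγ : ∀ i, (γ i).det ≠ 0)
    {g : Matrix (Fin 2) (Fin 2) ℂ} (hg : g ∈ Submonoid.closure {m | ∃ a b, m = γ a * (γ b)⁻¹}) :
    ∀ η : ℝ, 0 < η → ∃ C, 0 < C ∧ ∀ n u1 u2, Data γ n u1 u2 →
      KeyGood (fun y x => u1 x y) (fun y x => u1 x y) g η C := by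
  induction hg using Submonoid.closure_induction with
  | mem m hm =>
    obtain ⟨a, b, rfl⟩ := hm
    intro η hη
    obtain ⟨η1, h1, η2, h2, h3⟩ := key_comp (γ b)⁻¹ (γ a) hη
    obtain ⟨C1, c1, c1'⟩ := key_half (g := (γ b)⁻¹)
      (by rw [det_nonsing_inv, Ring.inverse_eq_inv']; exact inv_ne_zero (hγ b)) h1
    obtain ⟨C2, c2, c2'⟩ := key_half (hγ a) h2
    refine ⟨C1 * C2, by positivity, fun n u1 u2 h => h3 _ u2 _ _ _ c1 (c1' n _ _ ⟨h.n1x,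
      fun c y x hc hy hx => (h.n1y x hx).hom c y hc hy, h.n2x, fun y x l hy hx e => ?_⟩)
      (c2' n _ _ ⟨h.n2y, fun c y x hc hy hx => (h.n2x x hx).hom c y hc hy, h.n1y,
        fun y x l hy hx e => h.ver a y x l hy hx e⟩)⟩
    refine h.hor b x y l hy hx ?_
    rw [e, mulVec_mulVec, mul_nonsing_inv _ (Ne.isUnit (hγ b)), one_mulVec]
  | one =>
    intro η hη
    exact ⟨1, one_pos, fun n u1 u2 _ y hy x hx => ⟨y, hy, x, hx, by simp; positivity, by simp⟩⟩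
  | mul g' g _ _ ih' ih =>
    intro η hη
    obtain ⟨η1, h1, η2, h2, h3⟩ := key_comp g g' hη
    obtain ⟨C1, c1, c1'⟩ := ih η1 h1
    obtain ⟨C2, c2, c2'⟩ := ih' η2 h2
    exact ⟨C1 * C2, by positivity, fun n u1 u2 h => h3 _ _ _ _ _ c1 (c1' n u1 u2 h)
      (c2' n u1 u2 h)⟩

lemma key_dt_id (a b Y : V) : dt a b • Y = dt Y b • a - dt Y a • b := by
  ext i
  fin_cases i <;> simp [dt] <;> ring

lemma key_dt_le (a b : V) : ‖dt a b‖ ≤ 2 * (‖a‖ * ‖b‖) := by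
  have h : ∀ i j, ‖a i * b j‖ ≤ ‖a‖ * ‖b‖ := fun i j => by
    rw [norm_mul]; gcongr <;> exact norm_le_pi_norm _ _
  linarith [norm_sub_le (a 0 * b 1) (a 1 * b 0), h 0 1, h 1 0, show ‖dt a b‖ = ‖a 0 * b 1 - a 1 * b 0‖
    from rfl]

lemma key_pow_eig {g : Matrix (Fin 2) (Fin 2) ℂ} {v : V} {c : ℂ} (h : g *ᵥ v = c • v) (k : ℕ) :
    (g ^ k) *ᵥ v = c ^ k • v := by
  induction k with
  | zero => simp
  | succ k ih => rw [pow_succ, ← mulVec_mulVec, h, mulVec_smul, ih, smul_smul, pow_succ']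

lemma key_sep (Vs : Fin 3 → V) (hss : ∀ i j, i ≠ j → dt (Vs i) (Vs j) ≠ 0) :
    ∃ c, 0 < c ∧ ∀ Y : V, ‖Y‖ = 1 → ∃ j, ‖dt Y (Vs j)‖ ≤ c * ‖∏ i, dt Y (Vs i)‖ := by
  obtain ⟨p, hp⟩ := Finite.exists_min fun p : Fin 3 × Fin 3 =>
    if p.1 = p.2 then 1 else ‖dt (Vs p.1) (Vs p.2)‖ / (‖Vs p.1‖ + ‖Vs p.2‖ + 1)
  set c := if p.1 = p.2 then 1 else ‖dt (Vs p.1) (Vs p.2)‖ / (‖Vs p.1‖ + ‖Vs p.2‖ + 1) with hc
  have hc0 : 0 < c := by
    rw [hc]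
    split_ifs with h
    · exact one_pos
    · have := norm_pos_iff.mpr (hss _ _ h); positivity
  refine ⟨(c ^ 2)⁻¹, by positivity, fun Y hY => ?_⟩
  obtain ⟨j, hj⟩ := Finite.exists_min fun j => ‖dt Y (Vs j)‖
  refine ⟨j, (le_inv_mul_iff₀ (by positivity)).mpr ?_⟩
  have h1 : ∀ i ∈ Finset.univ.erase j, c ≤ ‖dt Y (Vs i)‖ := fun i hi => by
    have h2 := hp (i, j)
    rw [if_neg (Finset.ne_of_mem_erase hi), le_div_iff₀ (by positivity)] at h2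
    have h3 := congrArg norm (key_dt_id (Vs i) (Vs j) Y)
    rw [norm_smul, hY, mul_one] at h3
    have h4 := norm_sub_le (dt Y (Vs j) • Vs i) (dt Y (Vs i) • Vs j)
    rw [norm_smul, norm_smul] at h4
    have h5 := mul_le_mul_of_nonneg_right (hj i) (norm_nonneg (Vs i))
    refine le_of_mul_le_mul_right ?_ (show 0 < ‖Vs i‖ + ‖Vs j‖ + 1 by positivity)
    linarith [norm_nonneg (dt Y (Vs i))]
  have h2 := Finset.prod_le_prod (fun i _ => hc0.le) h1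
  rw [Finset.prod_const, Finset.card_erase_of_mem (Finset.mem_univ j)] at h2
  rw [norm_prod, ← Finset.mul_prod_erase _ _ (Finset.mem_univ j), mul_comm]
  exact mul_le_mul_of_nonneg_left (by simpa using h2) (norm_nonneg _)

lemma key_final {n : ℕ} {u a C B E l t : ℝ} (hu : 0 ≤ u) (ht : 0 ≤ t) (hB : 0 ≤ B)
    (h1 : u ≤ C * (t ^ n * a)) (h2 : t ^ 5 ≤ E * l) :
    u ^ 15 * B ^ n ≤ a ^ 15 * (l * l) ^ n * (C ^ 15 * (l * (E ^ 3 * B)) ^ n) ∨ C * a < 0 := by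
  rcases lt_or_ge (C * a) 0 with h | h
  · exact Or.inr h
  left
  have c1 := pow_le_pow_left₀ hu h1 15
  have c2 : (t ^ n) ^ 15 ≤ ((E * l) ^ 3) ^ n := by
    rw [← pow_mul, mul_comm n 15, pow_mul, show 15 = 5 * 3 by norm_num, pow_mul]
    gcongr
  rw [mul_left_comm, mul_pow] at c1
  calc _ ≤ ((E * l) ^ 3) ^ n * (C * a) ^ 15 * B ^ n := by
        gcongr; exact c1.trans (by gcongr)
    _ = _ := by
        rw [show (E * l) ^ 3 = l * l * (l * E ^ 3) by ring]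
        simp only [mul_pow]; ring

/-- No such data exist for large `n` when the monoid generated by the quotients `γ a * (γ b)⁻¹`
contains three hyperbolic elements with pairwise independent contracting directions. -/
theorem key {ι : Type*} (γ : ι → Matrix (Fin 2) (Fin 2) ℂ) (hγ : ∀ i, (γ i).det ≠ 0)
    (g : Fin 3 → Matrix (Fin 2) (Fin 2) ℂ) (Vs Vu : Fin 3 → V) (lam : ℝ) (h0 : 0 < lam)
    (h1 : lam < 1) (hg : ∀ j, g j ∈ Submonoid.closure {m | ∃ a b, m = γ a * (γ b)⁻¹})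
    (hs : ∀ j, g j *ᵥ Vs j = (lam : ℂ) • Vs j) (hu : ∀ j, g j *ᵥ Vu j = (lam : ℂ)⁻¹ • Vu j)
    (hsu : ∀ j, dt (Vs j) (Vu j) ≠ 0) (hss : ∀ i j, i ≠ j → dt (Vs i) (Vs j) ≠ 0) :
    ∃ n0 : ℕ, ∀ n, n0 ≤ n → ∀ u1 u2 : V → V → ℝ, ¬ Data γ n u1 u2 := by
  obtain ⟨c, hc, hsep⟩ := key_sep Vs hss
  set B := 1 + ∏ j, 2 * ‖Vs j‖ with hB
  have hB1 : 1 ≤ B := le_add_of_nonneg_right (Finset.prod_nonneg fun _ _ => by positivity)
  set E := 1 + ∑ j, (2 * ‖Vu j‖ * ‖Vs j‖ + c * ‖Vu j‖) / ‖dt (Vs j) (Vu j)‖ with hE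
  have hE' : ∀ j, 1 + (2 * ‖Vu j‖ * ‖Vs j‖ + c * ‖Vu j‖) / ‖dt (Vs j) (Vu j)‖ ≤ E := fun j =>
    add_le_add le_rfl (Finset.single_le_sum
      (f := fun j => (2 * ‖Vu j‖ * ‖Vs j‖ + c * ‖Vu j‖) / ‖dt (Vs j) (Vu j)‖)
      (fun _ _ => by positivity) (Finset.mem_univ j))
  have hE0 : 0 < E := lt_of_lt_of_le (by positivity) (hE' 0)
  obtain ⟨k, hk⟩ := exists_pow_lt_of_lt_one (show 0 < 1 / 2 / (E ^ 3 * B) by positivity) h1
  rw [lt_div_iff₀ (by positivity)] at hk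
  have hl : 0 < lam ^ k := pow_pos h0 k
  have hl1 : lam ^ k ≤ 1 := pow_le_one₀ h0.le h1.le
  choose C hC hC' using fun j => key_monoid γ hγ (pow_mem (hg j) k) _ hl
  have hCs : ∀ j, C j ≤ ∑ j, C j := fun j =>
    Finset.single_le_sum (fun j _ => (hC j).le) (Finset.mem_univ j)
  have hCs0 : 0 < ∑ j, C j := (hC 0).trans_le (hCs 0)
  obtain ⟨n0, hn0⟩ := exists_pow_lt_of_lt_one (show 0 < ((∑ j, C j) ^ 15)⁻¹ by positivity)
    (show (1 / 2 : ℝ) < 1 by norm_num)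
  refine ⟨n0, fun n hn u1 u2 h => ?_⟩
  obtain ⟨⟨xs, ys⟩, ⟨hxs, hys⟩, hmax⟩ :=
    ((isCompact_sphere (0 : V) 1).prod (isCompact_sphere (0 : V) 1)).exists_isMaxOn
      ⟨(fun _ => 1, fun _ => 1), by simp, by simp⟩
      (h.cont.mono fun p hp => ⟨key_ne (by simpa using hp.1), key_ne (by simpa using hp.2)⟩)
  replace hxs : ‖xs‖ = 1 := by simpa using hxs
  replace hys : ‖ys‖ = 1 := by simpa using hys
  replace hmax : ∀ x y, ‖x‖ = 1 → ‖y‖ = 1 → u1 x y ≤ u1 xs ys := fun x y hx hy =>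
    hmax (a := (x, y)) ⟨by simpa using hx, by simpa using hy⟩
  have hN := h.n1y xs (key_ne hxs)
  have ha := hN.pos ys (key_ne hys)
  obtain ⟨y, hy, b1, b2⟩ := key_P0 hN (D0 := 15) (Δ := fun y => ∏ j, dt (f5 y) (Vs j))
    (by simp only [Fin.prod_univ_three, dt, f5]; fun_prop)
    (fun c x => by simp only [Fin.prod_univ_three, dt, f5, Pi.smul_apply, smul_eq_mul]; ring)
    (by norm_num) (B := B) (ρ := lam ^ k * lam ^ k) (fun x hx => by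
      rw [norm_prod]
      refine le_trans (Finset.prod_le_prod (fun _ _ => norm_nonneg _) fun j _ => ?_)
        (le_add_of_nonneg_left zero_le_one)
      simpa [key_norm_f5, hx] using key_dt_le (f5 x) (Vs j))
    (by positivity) ((mul_le_one₀ hl1 hl.le hl1).trans hB1) hys
  have hY : ‖f5 y‖ = 1 := by rw [key_norm_f5, hy, one_pow]
  obtain ⟨j, hj⟩ := hsep _ hY
  obtain ⟨z, hz, x', hx', b3, b4⟩ := hC' j n u1 u2 h y (key_ne hy) xs hxs
  have b5 := (h.n1y x' (key_ne hx')).le (fun y hy => hmax x' y hx' hy) hz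
  have b6 : ‖dt (Vs j) (Vu j)‖ * ‖(g j ^ k) *ᵥ f5 y‖ ≤
      (2 * ‖Vu j‖ * ‖Vs j‖ + c * ‖Vu j‖) * lam ^ k := by
    rw [← norm_smul, ← mulVec_smul, key_dt_id, mulVec_sub, mulVec_smul, mulVec_smul,
      key_pow_eig (hs j), key_pow_eig (hu j)]
    refine (norm_sub_le _ _).trans ?_
    simp only [norm_smul, norm_pow, norm_inv, Complex.norm_real, Real.norm_of_nonneg h0.le, inv_pow]
    have c1 := key_dt_le (f5 y) (Vu j)
    rw [hY, one_mul] at c1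
    have c2 : ‖dt (f5 y) (Vs j)‖ * ((lam ^ k)⁻¹ * ‖Vu j‖) ≤ c * ‖Vu j‖ * lam ^ k :=
      (mul_le_mul_of_nonneg_right (hj.trans (mul_le_mul_of_nonneg_left b1 hc.le))
        (by positivity)).trans (le_of_eq (by field_simp))
    have c3 := mul_le_mul_of_nonneg_right c1 (show 0 ≤ lam ^ k * ‖Vs j‖ by positivity)
    linarith
  have b7 : ‖z‖ ^ 5 ≤ E * lam ^ k := by
    rw [← le_div_iff₀' (norm_pos_iff.mpr (hsu j)), mul_div_right_comm] at b6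
    rw [hY, mul_one] at b3
    rw [← key_norm_f5]
    have := mul_le_mul_of_nonneg_right (hE' j) hl.le
    linarith [norm_le_norm_sub_add (f5 z) ((g j ^ k) *ᵥ f5 y)]
  have b8 : u1 xs y ≤ (∑ j, C j) * (‖z‖ ^ n * u1 xs ys) :=
    b4.trans (mul_le_mul (hCs j) b5 ((h.n1y x' (key_ne hx')).pos z hz).le hCs0.le)
  have b9 : u1 xs y ^ 15 * B ^ n ≤ u1 xs ys ^ 15 * (lam ^ k * lam ^ k) ^ n *
      ((∑ j, C j) ^ 15 * (lam ^ k * (E ^ 3 * B)) ^ n) := by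
    exact (key_final (hN.pos y (key_ne hy)).le (norm_nonneg z) (by linarith) b8 b7).resolve_right
      (not_lt.mpr (mul_pos hCs0 ha).le)
  have b10 := (le_mul_iff_one_le_right (mul_pos (pow_pos ha 15) (pow_pos (mul_pos hl hl) n))).mp
    (b2.trans b9)
  have b11 : (lam ^ k * (E ^ 3 * B)) ^ n ≤ (1 / 2) ^ n0 :=
    (pow_le_pow_left₀ (mul_nonneg hl.le (mul_nonneg (pow_nonneg hE0.le 3) (by linarith)))
      hk.le n).trans
      (pow_le_pow_of_le_one (by norm_num) (by norm_num) hn)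
  have b12 := mul_le_mul_of_nonneg_left b11 (pow_nonneg hCs0.le 15)
  have b13 := mul_lt_mul_of_pos_left hn0 (pow_pos hCs0 15)
  rw [mul_inv_cancel₀ (pow_pos hCs0 15).ne'] at b13
  exact absurd (b10.trans b12) (not_le.mpr b13)

end Vale.Agent.P296
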