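import Vale.Agent.P296.Basic

/-!
The analytic heart of the counterexample, in abstract form. `V = ℂ²` carries the sup norm.
-/

open Matrix Filter Topology Set

noncomputable section

namespace Vale.Agent.P296

/-- A positive continuous function on `ℂ² ∖ 0`, homogeneous of degree `d`, which satisfies a strict
maximum principle along coordinate lines after multiplication by the modulus of any nonvanishing
holomorphic germ. -/
structure NM (d : ℕ) (p : V → ℝ) : Prop where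
  cont : ContinuousOn p {x | x ≠ 0}
  pos : ∀ x, x ≠ 0 → 0 < p x
  hom : ∀ (c : ℂ) (x : V), c ≠ 0 → x ≠ 0 → p (c • x) = ‖c‖ ^ d * p x
  nomax : ∀ (x : V) (l : Fin 2) (κ : ℂ → ℂ), x l ≠ 0 → AnalyticAt ℂ κ 0 → κ 0 ≠ 0 →
    ¬ IsLocalMax (fun s : ℂ => ‖κ s‖ * p (x + Pi.single l.rev s)) 0

/-- `p` and `q` are the lengths of two vectors whose difference is `(s ^ 5 - a ^ 5)` times a third
vector, whose length `ρ` satisfies the maximum principle. -/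
def Third (p q : ℂ → ℝ) (a : ℂ) : Prop :=
  ∃ ρ : ℂ → ℝ, Continuous ρ ∧ (∀ s, 0 ≤ ρ s) ∧
    (∀ s, p s ≤ q s + ‖s ^ 5 - a ^ 5‖ * ρ s) ∧ (∀ s, ‖s ^ 5 - a ^ 5‖ * ρ s ≤ p s + q s) ∧
    ∀ s, ρ s ≠ 0 → ¬ IsLocalMax ρ s

/-- The data extracted from a Griffiths positive metric: the lengths `u1 x y`, `u2 x y` of two
sections, of bidegrees `(4, n)` and `(n, 4)`. -/
structure Data {ι : Type*} (γ : ι → Matrix (Fin 2) (Fin 2) ℂ) (n : ℕ) (u1 u2 : V → V → ℝ) :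
    Prop where
  cont : ContinuousOn (fun p : V × V => u1 p.1 p.2) {p | p.1 ≠ 0 ∧ p.2 ≠ 0}
  n1x : ∀ y, y ≠ 0 → NM 4 (fun x => u1 x y)
  n1y : ∀ x, x ≠ 0 → NM n (fun y => u1 x y)
  n2x : ∀ y, y ≠ 0 → NM n (fun x => u2 x y)
  n2y : ∀ x, x ≠ 0 → NM 4 (fun y => u2 x y)
  hor : ∀ i (x y : V) (l : Fin 2), y ≠ 0 → x l ≠ 0 → f5 y = γ i *ᵥ f5 x →
    Third (fun s => u1 (Function.update x l.rev s) y) (fun s => u2 (Function.update x l.rev s) y)
      (x l.rev)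
  ver : ∀ i (x y : V) (l : Fin 2), x ≠ 0 → y l ≠ 0 → f5 y = γ i *ᵥ f5 x →
    Third (fun s => u2 x (Function.update y l.rev s)) (fun s => u1 x (Function.update y l.rev s))
      (y l.rev)


lemma key_norm (x : V) : ‖x‖ = max ‖x 0‖ ‖x 1‖ := by
  refine le_antisymm ((pi_norm_le_iff_of_nonneg (by positivity)).mpr fun i => ?_)
    (max_le (norm_le_pi_norm x 0) (norm_le_pi_norm x 1))
  fin_cases i
  · exact le_max_left _ _
  · exact le_max_right _ _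

lemma key_exists_max (x : V) : ∃ l, ‖x l‖ = ‖x‖ := by
  rw [key_norm]
  rcases le_total ‖x 0‖ ‖x 1‖ with h | h
  · exact ⟨1, (max_eq_right h).symm⟩
  · exact ⟨0, (max_eq_left h).symm⟩

lemma key_norm_f5 (x : V) : ‖f5 x‖ = ‖x‖ ^ 5 := by
  rw [key_norm, key_norm x, f5, f5, norm_pow, norm_pow]
  rcases le_total ‖x 0‖ ‖x 1‖ with h | h
  · rw [max_eq_right h, max_eq_right (by gcongr)]
  · rw [max_eq_left h, max_eq_left (by gcongr)]

lemma key_f5_smul (c : ℂ) (x : V) : f5 (c • x) = c ^ 5 • f5 x := by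
  ext i; simp [f5, mul_pow]

lemma key_unit {x : V} (hx : x ≠ 0) :
    ∃ x' : V, ‖x'‖ = 1 ∧ x = ((‖x‖ : ℝ) : ℂ) • x' ∧ x' = ((‖x‖ : ℂ))⁻¹ • x := by
  have h : (‖x‖ : ℂ) ≠ 0 := by simpa using hx
  refine ⟨((‖x‖ : ℂ))⁻¹ • x, ?_, by rw [smul_smul, mul_inv_cancel₀ h, one_smul], rfl⟩
  rw [norm_smul, norm_inv, Complex.norm_real, norm_norm, inv_mul_cancel₀ (by simpa using hx)]

lemma key_ne {x : V} (hx : ‖x‖ = 1) : x ≠ 0 := by rintro rfl; simp at hx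

lemma NM.le {d : ℕ} {p : V → ℝ} (hp : NM d p) {a : ℝ} (ha : ∀ x, ‖x‖ = 1 → p x ≤ a) {x : V}
    (hx : x ≠ 0) : p x ≤ ‖x‖ ^ d * a := by
  obtain ⟨x', h1, h2, -⟩ := key_unit hx
  have := hp.hom (‖x‖ : ℝ) x' (by simpa using hx) (key_ne h1)
  rw [← h2, Complex.norm_real, norm_norm] at this
  rw [this]
  exact mul_le_mul_of_nonneg_left (ha x' h1) (by positivity)

lemma key_nomax {d D0 : ℕ} {p : V → ℝ} (hp : NM d p) {Δ : V → ℂ} (hΔ : Differentiable ℂ Δ)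
    (hD : 0 < D0) {x1 : V} (h1 : x1 ≠ 0) (hn : Δ x1 ≠ 0)
    (h4 : ∀ᶠ x in 𝓝 x1, x ≠ 0 ∧ Δ x ≠ 0 ∧ p x ^ D0 / ‖Δ x‖ ^ d ≤ p x1 ^ D0 / ‖Δ x1‖ ^ d) :
    False := by
  have h3 := hp.pos x1 h1
  obtain ⟨l, hl⟩ := key_exists_max x1
  have c2 : Differentiable ℂ fun s : ℂ => x1 + (Pi.single l.rev s : V) := by
    refine differentiable_pi.mpr fun i => ?_
    by_cases hi : i = l.rev
    · subst hi; simp only [Pi.add_apply, Pi.single_eq_same]; fun_prop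
    · simp [hi]
  have c3 : AnalyticAt ℂ (fun s : ℂ => Δ (x1 + Pi.single l.rev s) / Δ x1) 0 :=
    ((hΔ.comp c2).analyticAt 0).div_const
  have c4 : AnalyticAt ℂ (fun s : ℂ => Complex.log (Δ (x1 + Pi.single l.rev s) / Δ x1)) 0 :=
    c3.clog (by simp [hn])
  have c5 : AnalyticAt ℂ (fun s : ℂ => Complex.exp (-(d / D0 : ℂ) *
      Complex.log (Δ (x1 + Pi.single l.rev s) / Δ x1))) 0 := (analyticAt_const.mul c4).cexp'
  refine hp.nomax x1 l _ (norm_pos_iff.mp (by rw [hl]; simpa using h1)) c5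
    (Complex.exp_ne_zero _) ?_
  filter_upwards [(c2.continuous.tendsto' 0 x1 (by simp)).eventually h4] with s ⟨e0, e1, e2⟩
  simp only [Pi.single_zero, add_zero, div_self hn, Complex.log_one, mul_zero, Complex.exp_zero,
    norm_one, one_mul]
  refine le_of_pow_le_pow_left₀ hD.ne' h3.le ?_
  have e3 : Complex.exp (-(d / D0 : ℂ) * Complex.log (Δ (x1 + Pi.single l.rev s) / Δ x1)) ^ D0 =
      (Δ x1 / Δ (x1 + Pi.single l.rev s)) ^ d := by
    have : (D0 : ℂ) ≠ 0 := by exact_mod_cast hD.ne'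
    rw [← Complex.exp_nat_mul, show (D0 : ℂ) * (-(d / D0 : ℂ) *
      Complex.log (Δ (x1 + Pi.single l.rev s) / Δ x1)) =
      d * -Complex.log (Δ (x1 + Pi.single l.rev s) / Δ x1) by field_simp, Complex.exp_nat_mul,
      Complex.exp_neg, Complex.exp_log (div_ne_zero e1 hn), inv_div]
  rw [mul_pow, ← norm_pow, e3, norm_pow, norm_div, div_pow, div_mul_eq_mul_div, mul_comm,
    ← div_mul_eq_mul_div]
  exact (le_div_iff₀ (pow_pos (norm_pos_iff.mpr hn) d)).mp e2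

lemma key_P0 {d D0 : ℕ} {p : V → ℝ} (hp : NM d p) {Δ : V → ℂ} (hΔ : Differentiable ℂ Δ)
    (hh : ∀ (c : ℂ) x, Δ (c • x) = c ^ D0 * Δ x) (hD : 0 < D0) {B ρ : ℝ}
    (hB : ∀ x, ‖x‖ = 1 → ‖Δ x‖ ≤ B) (hρ : 0 < ρ) (hρB : ρ ≤ B) {xs : V} (hxs : ‖xs‖ = 1) :
    ∃ x, ‖x‖ = 1 ∧ ‖Δ x‖ ≤ ρ ∧ p xs ^ D0 * ρ ^ d ≤ p x ^ D0 * B ^ d := by
  have h0 := hp.pos xs (key_ne hxs)
  rcases le_or_gt ‖Δ xs‖ ρ with h | h
  · exact ⟨xs, hxs, h, by gcongr⟩
  have hK : IsCompact (Metric.sphere (0 : V) 1 ∩ {x | ρ ≤ ‖Δ x‖}) :=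
    (isCompact_sphere _ _).inter_right (isClosed_le continuous_const hΔ.continuous.norm)
  obtain ⟨x1, ⟨h1, h2⟩, hmax⟩ := hK.exists_isMaxOn ⟨xs, by simpa using hxs, h.le⟩
    (f := fun x => p x ^ D0 / ‖Δ x‖ ^ d)
    (((hp.cont.mono fun x hx => key_ne (by simpa using hx.1)).pow D0).div
      (hΔ.continuous.norm.pow d).continuousOn fun x hx => (pow_pos (hρ.trans_le hx.2) d).ne')
  replace h1 : ‖x1‖ = 1 := by simpa using h1
  replace h2 : ρ ≤ ‖Δ x1‖ := h2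
  have h3 := hp.pos x1 (key_ne h1)
  rcases h2.eq_or_lt with h2 | h2
  · refine ⟨x1, h1, h2.ge, ?_⟩
    have h4 : p xs ^ D0 / ‖Δ xs‖ ^ d ≤ p x1 ^ D0 / ‖Δ x1‖ ^ d :=
      hmax ⟨by simpa using hxs, h.le⟩
    rw [← h2, div_le_div_iff₀ (pow_pos (hρ.trans h) d) (pow_pos hρ d)] at h4
    exact h4.trans (by gcongr; exact hB xs hxs)
  exfalso
  have hn : Δ x1 ≠ 0 := norm_pos_iff.mp (hρ.trans h2)
  have h4 : ∀ᶠ x in 𝓝 x1, x ≠ 0 ∧ Δ x ≠ 0 ∧ p x ^ D0 / ‖Δ x‖ ^ d ≤ p x1 ^ D0 / ‖Δ x1‖ ^ d := by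
    have c0 : ContinuousAt (fun x : V => ((‖x‖ : ℂ))⁻¹) x1 :=
      ContinuousAt.inv₀ (f := fun x : V => (‖x‖ : ℂ)) (by fun_prop) (by simp [h1])
    have c1 : ContinuousAt (fun x : V => ‖Δ (((‖x‖ : ℂ))⁻¹ • x)‖) x1 :=
      (hΔ.continuous.continuousAt.comp (c0.smul continuousAt_id)).norm
    filter_upwards [c1.eventually (lt_mem_nhds (show ρ < _ by simpa [h1] using h2)),
      eventually_ne_nhds (key_ne h1), hΔ.continuous.continuousAt.eventually_ne hn] with x hx hx0 hx1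
    obtain ⟨x', e1, e2, e3⟩ := key_unit hx0
    rw [← e3] at hx
    refine ⟨hx0, hx1, le_trans (le_of_eq ?_) (hmax ⟨by simpa using e1, hx.le⟩)⟩
    have hx2 : 0 < ‖x‖ := norm_pos_iff.mpr hx0
    conv_lhs => rw [e2, hh, hp.hom _ _ (by simpa using hx0) (key_ne e1)]
    rw [norm_mul, norm_pow, Complex.norm_real, norm_norm, mul_pow, mul_pow, ← pow_mul, ← pow_mul,
      mul_comm d D0, mul_div_mul_left _ _ (by positivity)]
  exact key_nomax hp hΔ hD (key_ne h1) hn h4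

lemma key_bound (g : Matrix (Fin 2) (Fin 2) ℂ) : ∃ M, 0 < M ∧ ∀ X : V, ‖g *ᵥ X‖ ≤ M * ‖X‖ :=
  (LinearMap.toContinuousLinearMap (mulVecLin g)).bound

/-- one step of the transfer of mass -/
def KeyGood (φ ψ : V → V → ℝ) (g : Matrix (Fin 2) (Fin 2) ℂ) (η C : ℝ) : Prop :=
  ∀ y, y ≠ 0 → ∀ x, ‖x‖ = 1 → ∃ z, z ≠ 0 ∧ ∃ x', ‖x'‖ = 1 ∧
    ‖f5 z - g *ᵥ f5 y‖ ≤ η * ‖f5 y‖ ∧ φ y x ≤ C * ψ z x'

/-- hypotheses of the half lemma -/
structure KeyHalf (g : Matrix (Fin 2) (Fin 2) ℂ) (n : ℕ) (φ ψ : V → V → ℝ) : Prop where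
  n4 : ∀ y, y ≠ 0 → NM 4 (φ y)
  hom : ∀ (c : ℂ) y x, c ≠ 0 → y ≠ 0 → x ≠ 0 → φ (c • y) x = ‖c‖ ^ n * φ y x
  nn : ∀ x, x ≠ 0 → NM n (fun z => ψ z x)
  third : ∀ y x (l : Fin 2), y ≠ 0 → x l ≠ 0 → f5 x = g *ᵥ f5 y →
    Third (fun s => φ y (Function.update x l.rev s)) (fun s => ψ (Function.update x l.rev s) y)
      (x l.rev)

lemma key_rev_ne (l : Fin 2) : l ≠ l.rev := by fin_cases l <;> decide

lemma key_cases (l i : Fin 2) : i = l ∨ i = l.rev := by fin_cases l <;> fin_cases i <;> decide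

lemma key_half_unit {g : Matrix (Fin 2) (Fin 2) ℂ} {n : ℕ} {φ ψ : V → V → ℝ}
    (h : KeyHalf g n φ ψ) {m M R τ : ℝ} (hm : 0 < m) (hR : 0 < R) (hτ : 0 < τ) (hτ1 : τ ≤ 1)
    (hτ2 : 2 * M * τ ≤ min m R / 2) (hτ3 : 8 * M * (1 + M + R) * τ ≤ min 1 m * R) {y : V}
    (hy : ‖y‖ = 1) (h1 : m ≤ ‖g *ᵥ f5 y‖) (h2 : ‖g *ᵥ f5 y‖ ≤ M) {x : V} (hx : ‖x‖ = 1) :
    ∃ z, z ≠ 0 ∧ ‖f5 z - g *ᵥ f5 y‖ ≤ R ∧ φ y x ≤ 4 / (min 1 m * τ ^ 4) * ψ z y := by
  have hy0 := key_ne hy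
  have hM : 0 < M := hm.trans_le (h1.trans h2)
  set X := g *ᵥ f5 y with hX
  obtain ⟨l, hl⟩ := key_exists_max X
  choose x0 hx0 using fun i => IsAlgClosed.exists_pow_nat_eq (X i) (show 0 < 5 by norm_num)
  have hx0l : x0 l ≠ 0 := fun h0 => by
    rw [← hx0 l, h0] at hl
    simp at hl
    linarith
  obtain ⟨ρ, cρ, ρ0, t1, t2, t3⟩ := h.third y x0 l hy0 hx0l (funext hx0)
  simp only [hx0] at t1 t2
  have hne : ∀ s, Function.update x0 l.rev s ≠ 0 := fun s h0 => hx0l (by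
    simpa [Function.update_of_ne (key_rev_ne l)] using congrFun h0 l)
  have hσ : ∀ s, ‖f5 (Function.update x0 l.rev s) - X‖ = ‖s ^ 5 - X l.rev‖ := fun s => by
    rw [← Pi.norm_single (i := l.rev) (G := fun _ : Fin 2 => ℂ)]
    congr 1
    ext i
    rcases key_cases l i with rfl | rfl
    · simp [f5, Function.update_of_ne (key_rev_ne i), hx0, Pi.single_eq_of_ne (key_rev_ne i)]
    · simp [f5]
  obtain ⟨xs, hxs, hmax⟩ := (isCompact_sphere (0 : V) 1).exists_isMaxOn ⟨x, by simpa using hx⟩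
    ((h.n4 y hy0).cont.mono fun x hx => key_ne (by simpa using hx))
  replace hxs : ‖xs‖ = 1 := by simpa using hxs
  replace hmax : ∀ x, ‖x‖ = 1 → φ y x ≤ φ y xs := fun x hx => hmax (by simpa using hx)
  set a := φ y xs
  have ha : 0 < a := (h.n4 y hy0).pos xs (key_ne hxs)
  have h45 : ∀ t : ℝ, 0 ≤ t → t ^ 4 ≤ 1 + t ^ 5 := fun t ht => by
    rcases le_total t 1 with h | h
    · linarith [pow_le_one₀ (n := 4) ht h, pow_nonneg ht 5]
    · linarith [pow_le_pow_right₀ h (show 4 ≤ 5 by norm_num)]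
  have hK : IsCompact {s : ℂ | ‖s ^ 5 - X l.rev‖ ≤ R} := by
    refine Metric.isCompact_of_isClosed_isBounded (isClosed_le (by fun_prop) continuous_const)
      (isBounded_iff_forall_norm_le.mpr ⟨1 + (R + ‖X l.rev‖), fun s hs => ?_⟩)
    have h3 : ‖s‖ ^ 5 ≤ R + ‖X l.rev‖ := by
      rw [← norm_pow]; exact (norm_le_norm_sub_add _ _).trans (by gcongr; exact hs)
    rcases le_total ‖s‖ 1 with h | h
    · linarith [norm_nonneg (X l.rev)]
    · linarith [le_self_pow₀ h (show 5 ≠ 0 by norm_num)]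
  have hKn : ({s : ℂ | ‖s ^ 5 - X l.rev‖ ≤ R}).Nonempty := ⟨x0 l.rev, by simp [hx0, hR.le]⟩
  obtain ⟨s0, hs0, hq⟩ := hK.exists_isMaxOn hKn
    (f := fun s => ψ (Function.update x0 l.rev s) y)
    ((h.nn y hy0).cont.comp_continuous (by fun_prop) hne).continuousOn
  set q := ψ (Function.update x0 l.rev s0) y
  have hq0 : 0 < q := (h.nn y hy0).pos _ (hne s0)
  refine ⟨_, hne s0, (hσ s0).trans_le hs0, (hmax x hx).trans ?_⟩
  have b1 : ∀ s, ‖s ^ 5 - X l.rev‖ ≤ R → φ y (Function.update x0 l.rev s) ≤ (1 + M + R) * a := by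
    intro s hs
    refine ((h.n4 y hy0).le hmax (hne s)).trans (mul_le_mul_of_nonneg_right ?_ ha.le)
    refine (h45 _ (norm_nonneg _)).trans ?_
    rw [← key_norm_f5]
    linarith [norm_le_norm_sub_add (f5 (Function.update x0 l.rev s)) X, hσ s]
  have b2 : ∀ s, ‖s ^ 5 - X l.rev‖ ≤ R → R * ρ s ≤ (1 + M + R) * a + q := by
    obtain ⟨s1, hs1, hρ⟩ := hK.exists_isMaxOn hKn cρ.continuousOn
    intro s hs
    refine (mul_le_mul_of_nonneg_left (hρ hs) hR.le).trans ?_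
    rcases (show ‖s1 ^ 5 - X l.rev‖ ≤ R from hs1).eq_or_lt with h3 | h3
    · have h4 : ψ (Function.update x0 l.rev s1) y ≤ q := hq hs1
      have h5 := t2 s1
      rw [h3] at h5
      linarith [b1 s1 hs1]
    · have h4 : ρ s1 = 0 := by
        by_contra h5
        refine t3 s1 h5 (hρ.isLocalMax ?_)
        have : ContinuousAt (fun s : ℂ => ‖s ^ 5 - X l.rev‖) s1 := by fun_prop
        exact (this.eventually (gt_mem_nhds h3)).mono fun s hs => hs.le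
      simp only [h4, mul_zero]; positivity
  have hτ5 : τ ^ 5 ≤ τ := pow_le_of_le_one hτ.le hτ1 (by norm_num)
  have hXl : ∀ i, ‖X i‖ ≤ M := fun i => (norm_le_pi_norm X i).trans h2
  obtain ⟨x1, e1, e2, e3⟩ := key_P0 (h.n4 y hy0) (D0 := 5)
    (Δ := fun x => x l.rev ^ 5 * X l - x l ^ 5 * X l.rev) (by fun_prop)
    (fun c x => by simp only [Pi.smul_apply, smul_eq_mul]; ring) (by norm_num) (B := 2 * M)
    (ρ := 2 * M * τ ^ 5) (fun x hx => by
      have h3 : ∀ i j, ‖x i ^ 5 * X j‖ ≤ M := fun i j => by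
        rw [norm_mul, norm_pow]
        exact (mul_le_of_le_one_left (norm_nonneg _) (pow_le_one₀ (norm_nonneg _)
          ((norm_le_pi_norm x i).trans hx.le))).trans (hXl j)
      linarith [norm_sub_le (x l.rev ^ 5 * X l) (x l ^ 5 * X l.rev), h3 l.rev l, h3 l l.rev])
    (by positivity) (mul_le_of_le_one_right (by positivity) (hτ5.trans hτ1)) hxs
  have b3 : a * τ ^ 4 ≤ φ y x1 := by
    refine le_of_pow_le_pow_left₀ (n := 5) (by norm_num) ((h.n4 y hy0).pos _ (key_ne e1)).le ?_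
    refine le_of_mul_le_mul_right (le_trans (le_of_eq ?_) e3) (by positivity)
    ring
  have b4 : 2 * M * τ ^ 5 ≤ min m R / 2 := le_trans (by gcongr) hτ2
  have b5 : 1 / 2 ≤ ‖x1 l‖ ^ 5 := by
    obtain ⟨i, hi⟩ := key_exists_max x1
    rcases key_cases l i with rfl | rfl
    · rw [hi, e1]; norm_num
    · have h3 := norm_le_norm_sub_add (x1 l.rev ^ 5 * X l) (x1 l ^ 5 * X l.rev)
      rw [norm_mul, norm_mul, norm_pow, norm_pow, hi, e1, hl, one_pow, one_mul] at h3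
      have h4 := mul_le_mul_of_nonneg_left (norm_le_pi_norm X l.rev) (pow_nonneg (norm_nonneg (x1 l)) 5)
      refine le_of_mul_le_mul_right ?_ (hm.trans_le h1)
      linarith [min_le_left m R]
  have hx1l : x1 l ≠ 0 := fun h0 => by rw [h0] at b5; norm_num at b5
  have e4 : Function.update x0 l.rev (x0 l / x1 l * x1 l.rev) = (x0 l / x1 l) • x1 := by
    ext i
    rcases key_cases l i with rfl | rfl
    · simp [Function.update_of_ne (key_rev_ne i), hx1l]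
    · simp
  have b6 : ‖(x0 l / x1 l * x1 l.rev) ^ 5 - X l.rev‖ ≤ 2 * (2 * M * τ ^ 5) := by
    rw [show (x0 l / x1 l * x1 l.rev) ^ 5 - X l.rev =
      (x1 l.rev ^ 5 * X l - x1 l ^ 5 * X l.rev) / x1 l ^ 5 by rw [← hx0 l]; field_simp, norm_div,
      norm_pow, div_le_iff₀ (by linarith)]
    nlinarith [mul_pos hM (pow_pos hτ 5)]
  have b7 : min 1 m ≤ ‖x0 l / x1 l‖ ^ 4 := by
    rcases le_total 1 ‖x0 l / x1 l‖ with h3 | h3
    · exact (min_le_left _ _).trans (one_le_pow₀ h3)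
    · refine (min_le_right _ _).trans (le_trans ?_
        (pow_le_pow_of_le_one (norm_nonneg _) h3 (show 4 ≤ 5 by norm_num)))
      rw [← norm_pow, div_pow, hx0, norm_div, hl, norm_pow, le_div_iff₀ (by linarith)]
      exact (mul_le_of_le_one_right hm.le (pow_le_one₀ (norm_nonneg _)
        ((norm_le_pi_norm x1 l).trans e1.le))).trans h1
  have b8 : ‖(x0 l / x1 l * x1 l.rev) ^ 5 - X l.rev‖ ≤ R := by linarith [min_le_right m R]
  have b9 := t1 (x0 l / x1 l * x1 l.rev)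
  have b10 : ψ (Function.update x0 l.rev (x0 l / x1 l * x1 l.rev)) y ≤ q := hq b8
  have b11 := b2 _ b8
  have b12 := mul_le_mul_of_nonneg_right b6 (ρ0 (x0 l / x1 l * x1 l.rev))
  have b13 : min 1 m * (a * τ ^ 4) ≤ φ y (Function.update x0 l.rev (x0 l / x1 l * x1 l.rev)) := by
    rw [e4, (h.n4 y hy0).hom _ _ (div_ne_zero hx0l hx1l) (key_ne e1)]
    exact mul_le_mul b7 b3 (by positivity) (by positivity)
  have hm1 : 0 < min 1 m := lt_min one_pos hm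
  rw [div_mul_eq_mul_div, le_div_iff₀ (by positivity)]
  refine le_of_mul_le_mul_left ?_ hR
  have c1 := mul_le_mul_of_nonneg_left (b13.trans (b9.trans (add_le_add b10 b12))) hR.le
  have c2 := mul_le_mul_of_nonneg_left b11 (show 0 ≤ 2 * (2 * M * τ ^ 5) by positivity)
  have c3 := mul_le_mul_of_nonneg_right hτ3 (show 0 ≤ a * τ ^ 4 by positivity)
  have c4 := mul_le_mul_of_nonneg_right (show 2 * (2 * M * τ ^ 5) ≤ R by
    linarith [min_le_right m R]) hq0.le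
  nlinarith

lemma key_half {g : Matrix (Fin 2) (Fin 2) ℂ} (hg : g.det ≠ 0) {η : ℝ} (hη : 0 < η) :
    ∃ C, 0 < C ∧ ∀ n φ ψ, KeyHalf g n φ ψ → KeyGood φ ψ g η C := by
  obtain ⟨M, hM, hM'⟩ := key_bound g
  obtain ⟨M', hm, hm'⟩ := key_bound g⁻¹
  have hm1 : 0 < min 1 M'⁻¹ := lt_min one_pos (by positivity)
  have hm2 : 0 < min M'⁻¹ η := lt_min (by positivity) hη
  set τ := min 1 (min (min M'⁻¹ η / 2 / (2 * M)) (min 1 M'⁻¹ * η / (8 * M * (1 + M + η))))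
  have hτ : 0 < τ := lt_min one_pos (lt_min (by positivity) (by positivity))
  refine ⟨4 / (min 1 M'⁻¹ * τ ^ 4), by positivity, fun n φ ψ h y hy x hx => ?_⟩
  obtain ⟨y', e1, e2, -⟩ := key_unit hy
  have hc : ((‖y‖ : ℝ) : ℂ) ≠ 0 := by simpa using hy
  have e3 : ‖f5 y'‖ = 1 := by rw [key_norm_f5, e1, one_pow]
  obtain ⟨z, hz, b1, b2⟩ := key_half_unit h (m := M'⁻¹) (M := M) (by positivity) hη hτ
    (min_le_left _ _)
    ((le_div_iff₀' (by positivity)).mp ((min_le_right _ _).trans (min_le_left _ _)))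
    ((le_div_iff₀' (by positivity)).mp ((min_le_right _ _).trans (min_le_right _ _))) e1
    (by
      have := hm' (g *ᵥ f5 y')
      rw [mulVec_mulVec, nonsing_inv_mul _ (Ne.isUnit hg), one_mulVec, e3] at this
      exact (inv_le_iff_one_le_mul₀' hm).mpr this)
    (by simpa [e3] using hM' (f5 y')) hx
  refine ⟨((‖y‖ : ℝ) : ℂ) • z, smul_ne_zero hc hz, y', e1, ?_, ?_⟩
  · conv_lhs => rw [e2, norm_smul, e1, Complex.norm_real, norm_norm, mul_one]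
    rw [key_f5_smul, key_f5_smul, mulVec_smul, ← smul_sub, norm_smul, norm_pow, Complex.norm_real,
      norm_norm, key_norm_f5, mul_comm]
    gcongr
  · have := (h.nn y' (key_ne e1)).hom _ z hc hz
    rw [this]
    conv_lhs => rw [e2, h.hom _ _ _ hc (key_ne e1) (key_ne hx)]
    rw [mul_left_comm]
    gcongr

end Vale.Agent.P296
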