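import Vale.Agent.P296.Defs

/-!
The dual norm of a Hermitian metric and the maximum principle for holomorphic covectors when
the curvature is positive in one coordinate direction.
-/

open Matrix Filter Topology
open scoped ContDiff ComplexOrder

noncomputable section

namespace Vale.Agent.P296

variable {r : ℕ}

/-- The length of the covector `v` (row vector) for the metric with matrix `H`. -/
def nrm (H : Matrix (Fin r) (Fin r) ℂ) (v : Fin r → ℂ) : ℝ :=
  Real.sqrt (v ⬝ᵥ (H⁻¹ *ᵥ star v)).re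

theorem nrm_nonneg (H : Matrix (Fin r) (Fin r) ℂ) (v : Fin r → ℂ) : 0 ≤ nrm H v :=
  Real.sqrt_nonneg _

theorem nrm_pos {H : Matrix (Fin r) (Fin r) ℂ} (hH : H.PosDef) {v : Fin r → ℂ} (hv : v ≠ 0) :
    0 < nrm H v := by
  have := hH.inv.re_dotProduct_pos (x := star v) (star_ne_zero.mpr hv)
  rw [star_star] at this
  exact Real.sqrt_pos.mpr this

theorem nrm_smul (H : Matrix (Fin r) (Fin r) ℂ) (c : ℂ) (v : Fin r → ℂ) :
    nrm H (c • v) = ‖c‖ * nrm H v := by
  rw [nrm, nrm, star_smul, mulVec_smul, smul_dotProduct, dotProduct_smul, smul_smul,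
    RCLike.star_def, Complex.mul_conj', ← Complex.ofReal_pow, smul_eq_mul, Complex.re_ofReal_mul,
    Real.sqrt_mul (sq_nonneg _), Real.sqrt_sq (norm_nonneg _)]

open scoped MatrixOrder in
theorem nrm_add_le {H : Matrix (Fin r) (Fin r) ℂ} (hH : H.PosDef) (v w : Fin r → ℂ) :
    nrm H (v + w) ≤ nrm H v + nrm H w := by
  obtain ⟨C, hC⟩ := CStarAlgebra.nonneg_iff_eq_star_mul_self.mp hH.inv.posSemidef.nonneg
  have h : ∀ v : Fin r → ℂ, nrm H v = ‖WithLp.toLp 2 (C *ᵥ star v)‖ := fun v => by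
    rw [nrm, hC, ← mulVec_mulVec, dotProduct_mulVec, EuclideanSpace.norm_eq, star_eq_conjTranspose,
      vecMul_conjTranspose]
    congr 1
    simp only [dotProduct, Complex.re_sum, Pi.star_apply, RCLike.star_def, Complex.conj_mul',
      ← Complex.ofReal_pow, Complex.ofReal_re]
  rw [h, h, h, star_add, mulVec_add, WithLp.toLp_add]
  exact norm_add_le _ _

theorem nrm_conj (H : Matrix (Fin r) (Fin r) ℂ) {T : Matrix (Fin r) (Fin r) ℂ}
    (hT : IsUnit T.det) (v : Fin r → ℂ) : nrm (Tᴴ * H * T) (v ᵥ* T) = nrm H v := by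
  have hT' : IsUnit Tᴴ.det := by rw [det_conjTranspose]; exact hT.star
  rw [nrm, nrm, star_vecMul, Matrix.mul_inv_rev, Matrix.mul_inv_rev, mulVec_mulVec,
    Matrix.mul_assoc, Matrix.mul_assoc, nonsing_inv_mul _ hT', Matrix.mul_one, ← mulVec_mulVec,
    dotProduct_mulVec, vecMul_vecMul, mul_nonsing_inv _ hT, vecMul_one]

theorem nrm_continuousAt {X : Type*} [TopologicalSpace X] {H : X → Matrix (Fin r) (Fin r) ℂ}
    {v : X → Fin r → ℂ} {x : X} (hH : ∀ a b, ContinuousAt (fun y => H y a b) x)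
    (hpos : (H x).PosDef) (hv : ContinuousAt v x) :
    ContinuousAt (fun y => nrm (H y) (v y)) x := by
  have h1 : ContinuousAt H x := continuousAt_pi.mpr fun a => continuousAt_pi.mpr fun b => hH a b
  obtain ⟨u, hu⟩ := (isUnit_iff_isUnit_det _).mp hpos.isUnit
  have h2 := (continuousAt_matrix_inv (H x) (hu ▸ NormedRing.inverse_continuousAt u)).comp h1
  have h3 : Continuous fun p : Matrix (Fin r) (Fin r) ℂ × (Fin r → ℂ) =>
      Real.sqrt (p.2 ⬝ᵥ (p.1 *ᵥ star p.2)).re := by fun_prop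
  exact h3.continuousAt.comp (h2.prodMk hv)

section

open scoped Matrix.Norms.L2Operator

lemma nm_second_test {f f' : ℝ → ℝ} {a : ℝ} (h : IsLocalMin f 0)
    (h1 : ∀ᶠ t in 𝓝 0, HasDerivAt f (f' t) t) (h2 : HasDerivAt f' a 0) : 0 ≤ a := by
  by_contra hc
  have h3 : deriv f =ᶠ[𝓝 0] f' := h1.mono fun t ht => ht.deriv
  have h4 : deriv (deriv f) 0 = a := (h2.congr_of_eventuallyEq h3).deriv
  have h5 := isLocalMax_of_deriv_deriv_neg (h4 ▸ not_le.mp hc) h.deriv_eq_zero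
    h1.self_of_nhds.continuousAt
  have h6 : f =ᶠ[𝓝 0] fun _ => f 0 := (h.and h5).mono fun t ht => le_antisymm ht.2 ht.1
  have h7 := h6.deriv.deriv_eq
  rw [h4] at h7
  simp at h7
  exact hc h7.ge

/-- a sesquilinear pairing as a linear functional of the matrix -/
def nm_bf (a b : Fin r → ℂ) : Matrix (Fin r) (Fin r) ℂ →L[ℝ] ℂ :=
  LinearMap.toContinuousLinearMap
    { toFun := fun A => star a ⬝ᵥ A *ᵥ b,
      map_add' := fun A B => by simp [add_mulVec],
      map_smul' := fun c A => by simp [smul_mulVec] }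

lemma nm_bf_apply (a b : Fin r → ℂ) (A : Matrix (Fin r) (Fin r) ℂ) :
    nm_bf a b A = star a ⬝ᵥ A *ᵥ b := rfl

lemma nm_line {φ φ' : ℝ → Matrix (Fin r) (Fin r) ℂ} {φ'' : Matrix (Fin r) (Fin r) ℂ}
    (h1 : ∀ τ, HasDerivAt φ (φ' τ) τ) (h2 : HasDerivAt φ' φ'' 0) (s0 s1 : Fin r → ℂ) :
    ∃ q' : ℝ → ℂ, (∀ τ, HasDerivAt
      (fun τ : ℝ => star (s0 + (τ : ℂ) • s1) ⬝ᵥ φ τ *ᵥ (s0 + (τ : ℂ) • s1)) (q' τ) τ) ∧
      HasDerivAt q' (nm_bf s0 s0 φ'' + 2 * (nm_bf s1 s0 (φ' 0) + nm_bf s0 s1 (φ' 0)) +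
        2 * nm_bf s1 s1 (φ 0)) 0 := by
  have d1 : ∀ a b τ, HasDerivAt (fun τ => nm_bf a b (φ τ)) (nm_bf a b (φ' τ)) τ := fun a b τ =>
    (nm_bf a b).hasFDerivAt.comp_hasDerivAt τ (h1 τ)
  have d2 : ∀ a b, HasDerivAt (fun τ => nm_bf a b (φ' τ)) (nm_bf a b φ'') 0 := fun a b =>
    (nm_bf a b).hasFDerivAt.comp_hasDerivAt 0 h2
  have d0 : ∀ τ : ℝ, HasDerivAt (fun τ : ℝ => (τ : ℂ)) 1 τ := fun τ =>
    Complex.ofRealCLM.hasDerivAt
  refine ⟨fun τ => nm_bf s0 s0 (φ' τ) + ((nm_bf s1 s0 (φ τ) + nm_bf s0 s1 (φ τ)) +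
    τ * (nm_bf s1 s0 (φ' τ) + nm_bf s0 s1 (φ' τ))) +
    (2 * τ * nm_bf s1 s1 (φ τ) + τ * τ * nm_bf s1 s1 (φ' τ)), fun τ => ?_, ?_⟩
  · have := ((d1 s0 s0 τ).add ((d0 τ).mul ((d1 s1 s0 τ).add (d1 s0 s1 τ)))).add
      (((d0 τ).mul (d0 τ)).mul (d1 s1 s1 τ))
    refine (this.congr_deriv ?_).congr_of_eventuallyEq (Eventually.of_forall fun t => ?_)
    · simp only [Pi.add_apply, Pi.mul_apply]; ring
    · simp only [Pi.add_apply, Pi.mul_apply, nm_bf_apply, star_add, star_smul, mulVec_add,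
        mulVec_smul, add_dotProduct, dotProduct_add, smul_dotProduct, dotProduct_smul, smul_eq_mul,
        RCLike.star_def, Complex.conj_ofReal]
      ring
  · have := ((d2 s0 s0).add (((d1 s1 s0 0).add (d1 s0 s1 0)).add
      ((d0 0).mul ((d2 s1 s0).add (d2 s0 s1))))).add
      ((((d0 0).const_mul 2).mul (d1 s1 s1 0)).add (((d0 0).mul (d0 0)).mul (d2 s1 s1)))
    refine this.congr_deriv ?_
    simp only [Pi.add_apply, Pi.mul_apply, Complex.ofReal_zero]
    ring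

lemma nm_analytic {p : ℂ → ℂ} (hp : AnalyticAt ℂ p 0) (u : ℂ) :
    (∀ᶠ τ : ℝ in 𝓝 0, HasDerivAt (fun τ : ℝ => p (τ * u)) (deriv p (τ * u) * u) τ) ∧
      HasDerivAt (fun τ : ℝ => deriv p (τ * u) * u) (deriv (deriv p) 0 * u * u) 0 := by
  have d0 : ∀ τ : ℝ, HasDerivAt (fun τ : ℂ => τ * u) u τ := fun τ => by
    simpa using (hasDerivAt_id (τ : ℂ)).mul_const u
  constructor
  · have h1 : Tendsto (fun τ : ℝ => (τ : ℂ) * u) (𝓝 0) (𝓝 0) :=
      Continuous.tendsto' (by fun_prop) _ _ (by simp)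
    filter_upwards [h1.eventually hp.eventually_analyticAt] with τ hτ
    exact (hτ.differentiableAt.hasDerivAt.comp (τ : ℂ) (d0 τ)).comp_ofReal
  · have h1 : HasDerivAt (deriv p) (deriv (deriv p) 0) (((0 : ℝ) : ℂ) * u) := by
      simpa using hp.deriv.differentiableAt.hasDerivAt
    exact ((h1.comp ((0 : ℝ) : ℂ) (d0 0)).comp_ofReal).mul_const u

/-- entries as continuous linear maps -/
def nm_ent (i j : Fin r) : Matrix (Fin r) (Fin r) ℂ →L[ℝ] ℂ :=
  LinearMap.toContinuousLinearMap (Matrix.entryLinearMap ℝ ℂ i j)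

lemma nm_fderiv_entry {F : (Fin 2 → ℂ) → Matrix (Fin r) (Fin r) ℂ} {w : Fin 2 → ℂ}
    (hF : DifferentiableAt ℝ F w) (a b : Fin r) (e : Fin 2 → ℂ) :
    fderiv ℝ (fun w => F w a b) w e = fderiv ℝ F w e a b := by
  have := ((nm_ent a b).hasFDerivAt.comp w hF.hasFDerivAt).fderiv
  exact congrArg (fun L => L e) this

lemma nm_dz {F : (Fin 2 → ℂ) → Matrix (Fin r) (Fin r) ℂ} {w : Fin 2 → ℂ}
    (hF : DifferentiableAt ℝ F w) (j : Fin 2) : dz j F w = (1 / 2 : ℂ) •
      (fderiv ℝ F w (Pi.single j 1) - Complex.I • fderiv ℝ F w (Pi.single j Complex.I)) := by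
  ext a b
  simp only [dz, of_apply, nm_fderiv_entry hF, Matrix.smul_apply, Matrix.sub_apply, smul_eq_mul]
  ring

lemma nm_dzbar {F : (Fin 2 → ℂ) → Matrix (Fin r) (Fin r) ℂ} {w : Fin 2 → ℂ}
    (hF : DifferentiableAt ℝ F w) (j : Fin 2) : dzbar j F w = (1 / 2 : ℂ) •
      (fderiv ℝ F w (Pi.single j 1) + Complex.I • fderiv ℝ F w (Pi.single j Complex.I)) := by
  ext a b
  simp only [dzbar, of_apply, nm_fderiv_entry hF, Matrix.smul_apply, Matrix.add_apply, smul_eq_mul]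
  ring

lemma nm_smooth {h : (Fin 2 → ℂ) → Matrix (Fin r) (Fin r) ℂ}
    (hs : ∀ a b, ContDiff ℝ ∞ (fun z => h z a b)) : ContDiff ℝ ∞ h := by
  have : h = fun x => ∑ i, ∑ j, h x i j • (single i j (1 : ℂ) : Matrix (Fin r) (Fin r) ℂ) := by
    ext1 x
    simp only [smul_single, smul_eq_mul, mul_one]
    exact matrix_eq_sum_single _
  rw [this]
  exact ContDiff.sum fun i _ => ContDiff.sum fun j _ => (hs i j).smul contDiff_const

lemma nm_curv {h : (Fin 2 → ℂ) → Matrix (Fin r) (Fin r) ℂ} (hs : ContDiff ℝ ∞ h)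
    (hp : ∀ z, (h z).PosDef) (z : Fin 2 → ℂ) (j : Fin 2) :
    h z * curv h j j z = dzbar j h z * ((h z)⁻¹ * dz j h z) - (1 / 4 : ℂ) •
      (fderiv ℝ (fderiv ℝ h) z (Pi.single j 1) (Pi.single j 1) +
        fderiv ℝ (fderiv ℝ h) z (Pi.single j Complex.I) (Pi.single j Complex.I)) := by
  have d1 : Differentiable ℝ h := hs.differentiable (by simp)
  have d2 : Differentiable ℝ (fderiv ℝ h) :=
    (hs.fderiv_right (m := 1) (by norm_cast)).differentiable one_ne_zero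
  have hu : ∀ w, IsUnit (h w).det := fun w => (isUnit_iff_isUnit_det _).mp (hp w).isUnit
  have e1 : dz j h = fun w => (1 / 2 : ℂ) •
      (fderiv ℝ h w (Pi.single j 1) - Complex.I • fderiv ℝ h w (Pi.single j Complex.I)) := by
    ext1 w; exact nm_dz (d1 w) j
  have d3 : ∀ e, HasFDerivAt (fun w => fderiv ℝ h w e) ((fderiv ℝ (fderiv ℝ h) z).flip e) z :=
    fun e => by simpa using (d2 z).hasFDerivAt.clm_apply (hasFDerivAt_const e z)
  have d4 := ((d3 (Pi.single j 1)).sub ((d3 (Pi.single j Complex.I)).const_smul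
    Complex.I)).const_smul (1 / 2 : ℂ)
  have d4' := d4.congr_of_eventuallyEq (f₁ := dz j h)
    (Eventually.of_forall fun w => congrFun e1 w)
  have d5 : DifferentiableAt ℝ (fun w => (h w)⁻¹) z := by
    simp only [nonsing_inv_eq_ringInverse]
    exact (differentiableAt_inverse (hp z).isUnit).comp z (d1 z)
  have d6 : DifferentiableAt ℝ (fun w => (h w)⁻¹ * dz j h w) z := d5.mul d4'.differentiableAt
  have e2 : dz j h = h * fun w => (h w)⁻¹ * dz j h w := by
    ext1 w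
    rw [Pi.mul_apply, ← Matrix.mul_assoc, mul_nonsing_inv _ (hu w), Matrix.one_mul]
  have d7 := (d1 z).hasFDerivAt.mul' d6.hasFDerivAt
  rw [← e2] at d7
  have e3 := d7.unique d4'
  have e4 := congrArg (fun L => L (Pi.single j 1)) e3
  have e5 := congrArg (fun L => L (Pi.single j Complex.I)) e3
  have e6 := (hs.contDiffAt (x := z)).isSymmSndFDerivAt (by simp; norm_cast) (Pi.single j 1)
    (Pi.single j Complex.I)
  simp only [_root_.add_apply, _root_.smul_apply, smul_eq_mul,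
    _root_.sub_apply, ContinuousLinearMap.flip_apply, op_smul_eq_mul] at e4 e5
  rw [curv, nm_dzbar d6, nm_dzbar (d1 z), Matrix.mul_neg, Matrix.mul_smul, Matrix.mul_add,
    Matrix.mul_smul, eq_sub_of_add_eq e4, eq_sub_of_add_eq e5, e6]
  simp only [Matrix.smul_mul, Matrix.add_mul, smul_sub, smul_add, smul_smul]
  match_scalars
  · ring
  · ring
  · ring
  · linear_combination (1 / 4 : ℂ) * Complex.I_mul_I
  · ring

lemma nm_ineq {H : Matrix (Fin r) (Fin r) ℂ} (hH : H.PosDef) (v s : Fin r → ℂ) :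
    2 * (v ⬝ᵥ s).re ≤ (v ⬝ᵥ (H⁻¹ *ᵥ star v)).re + (star s ⬝ᵥ H *ᵥ s).re := by
  have h1 := hH.posSemidef.re_dotProduct_nonneg (s - H⁻¹ *ᵥ star v)
  have h2 : H *ᵥ (H⁻¹ *ᵥ star v) = star v := by
    rw [mulVec_mulVec, mul_nonsing_inv _ ((isUnit_iff_isUnit_det _).mp hH.isUnit), one_mulVec]
  have h3 : star (H⁻¹ *ᵥ star v) ⬝ᵥ H *ᵥ s = v ⬝ᵥ s := by
    rw [dotProduct_mulVec, ← hH.1.eq, vecMul_conjTranspose, hH.1.eq, star_star, h2, star_star]
  rw [mulVec_sub, h2, star_sub, sub_dotProduct, dotProduct_sub, dotProduct_sub, h3,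
    star_dotProduct_star, star_dotProduct_star] at h1
  simp only [map_sub, RCLike.re_to_complex, RCLike.star_def, Complex.conj_re] at h1
  linarith

end

open scoped Matrix.Norms.L2Operator in
/-- If the curvature of `h` at `z` is positive in the direction of the coordinate `j`, the dual
length of a holomorphic covector along the coordinate line through `z` has no local maximum at
`z`, unless the covector vanishes there. -/
theorem no_local_max (h : (Fin 2 → ℂ) → Matrix (Fin r) (Fin r) ℂ)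
    (hs : ∀ a b, ContDiff ℝ ∞ (fun z => h z a b)) (hp : ∀ z, (h z).PosDef)
    (z : Fin 2 → ℂ) (j : Fin 2)
    (hcurv : ∀ s : Fin r → ℂ, s ≠ 0 → 0 < (star s ⬝ᵥ ((h z * curv h j j z) *ᵥ s)).re)
    (c : ℂ) (hc0 : c ≠ 0) (v : ℂ → Fin r → ℂ) (hv : ∀ a, AnalyticAt ℂ (fun t => v t a) 0)
    (hv0 : v 0 ≠ 0) :
    ¬ IsLocalMax (fun t : ℂ => nrm (h (z + Pi.single j (c * t))) (v t)) 0 := by
  intro hmax
  have hs' := nm_smooth hs
  have d1 : Differentiable ℝ h := hs'.differentiable (by simp)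
  have d2 : Differentiable ℝ (fderiv ℝ h) :=
    (hs'.fderiv_right (m := 1) (by norm_cast)).differentiable one_ne_zero
  have hu : IsUnit (h z).det := (isUnit_iff_isUnit_det _).mp (hp z).isUnit
  set s0 := (h z)⁻¹ *ᵥ star (v 0) with hs0
  have k0 : h z *ᵥ s0 = star (v 0) := by rw [hs0, mulVec_mulVec, mul_nonsing_inv _ hu, one_mulVec]
  have k1 : s0 ≠ 0 := fun h0 => hv0 (by simpa [h0] using k0.symm)
  set s1 := -(((h z)⁻¹ * dz j h z) *ᵥ s0) with hs1
  have k2 : h z *ᵥ s1 = -(dz j h z *ᵥ s0) := by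
    rw [hs1, mulVec_neg, mulVec_mulVec, ← Matrix.mul_assoc, mul_nonsing_inv _ hu, Matrix.one_mul]
  set p : ℂ → ℂ := fun t => v t ⬝ᵥ (s0 + (c * t) • s1) with hpd
  have hpa : AnalyticAt ℂ p 0 := by
    simp only [hpd, dotProduct, Pi.add_apply, Pi.smul_apply, smul_eq_mul]
    exact Finset.analyticAt_fun_sum _ fun a _ => (hv a).mul (by fun_prop)
  have key : ∀ u : ℂ, 0 ≤ (nm_bf s0 s0 (fderiv ℝ (fderiv ℝ h) z (Pi.single j u) (Pi.single j u))
      + 2 * (nm_bf (u • s1) s0 (fderiv ℝ h z (Pi.single j u)) +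
        nm_bf s0 (u • s1) (fderiv ℝ h z (Pi.single j u))) + 2 * nm_bf (u • s1) (u • s1) (h z) -
        2 * (deriv (deriv p) 0 * (u / c) * (u / c))).re := by
    intro u
    set e : Fin 2 → ℂ := Pi.single j u with he
    have l0 : ∀ τ : ℝ, HasDerivAt (fun τ : ℝ => z + τ • e)
        e τ := fun τ => by
      simpa using ((hasDerivAt_id τ).smul_const e).const_add z
    have l1 : ∀ τ : ℝ, HasDerivAt (fun τ : ℝ => h (z + τ • e))
        (fderiv ℝ h (z + τ • e) e) τ := fun τ =>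
      (d1 _).hasFDerivAt.comp_hasDerivAt τ (l0 τ)
    have l2 : HasDerivAt (fun τ : ℝ => fderiv ℝ h (z + τ • e) e)
        (fderiv ℝ (fderiv ℝ h) z e e) 0 := by
      have h3 : HasFDerivAt (fun w => fderiv ℝ h w e) ((fderiv ℝ (fderiv ℝ h) z).flip e)
          (z + (0 : ℝ) • e) := by
        simpa using (d2 z).hasFDerivAt.clm_apply (hasFDerivAt_const e z)
      exact h3.comp_hasDerivAt (0 : ℝ) (l0 0)
    obtain ⟨q', m1, m2⟩ := nm_line l1 l2 s0 (u • s1)
    obtain ⟨m3, m4⟩ := nm_analytic hpa (u / c)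
    simp only [zero_smul, add_zero] at m2
    refine nm_second_test (f := fun τ : ℝ => (star (s0 + (τ : ℂ) • u • s1) ⬝ᵥ
      h (z + τ • e) *ᵥ (s0 + (τ : ℂ) • u • s1) - 2 * p (τ * (u / c))).re) ?_
      (m3.mono fun τ hτ => Complex.reCLM.hasFDerivAt.comp_hasDerivAt τ
        ((m1 τ).sub (hτ.const_mul 2)))
      (Complex.reCLM.hasFDerivAt.comp_hasDerivAt 0 (m2.sub (m4.const_mul 2)))
    have h1 : Tendsto (fun τ : ℝ => (τ : ℂ) * (u / c)) (𝓝 0) (𝓝 0) :=
      Continuous.tendsto' (by fun_prop) _ _ (by simp)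
    filter_upwards [h1.eventually hmax] with τ hτ
    have e1 : c * (τ * (u / c)) = τ * u := by field_simp
    have e2 : (Pi.single j ((τ : ℂ) * u) : Fin 2 → ℂ) = τ • e := by
      rw [he, ← Pi.single_smul]; rfl
    have h0 := (hp z).inv.posSemidef.re_dotProduct_nonneg (star (v 0))
    rw [star_star] at h0
    simp only [nrm, e1, e2, mul_zero, Pi.single_zero, add_zero] at hτ
    replace hτ := (Real.sqrt_le_sqrt_iff h0).mp hτ
    rw [RCLike.re_to_complex, ← hs0] at hτ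
    have h2 := nm_ineq (hp (z + τ • e)) (v (τ * (u / c))) (s0 + (τ : ℂ) • u • s1)
    rw [smul_smul] at h2
    simp only [hpd, e1, Complex.ofReal_zero, zero_smul, add_zero, zero_mul, mul_zero, k0,
      star_dotProduct_star, Complex.sub_re, RCLike.star_def, Complex.conj_re, smul_smul,
      Complex.mul_re, Complex.re_ofNat, Complex.im_ofNat, sub_zero]
    linarith
  have h1 := add_nonneg (key 1) (key Complex.I)
  have h2 := hcurv s0 k1
  have h3 : dzbar j h z *ᵥ (((h z)⁻¹ * dz j h z) *ᵥ s0) = -(dzbar j h z *ᵥ s1) := by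
    rw [hs1, mulVec_neg, neg_neg]
  rw [nm_curv hs' hp, sub_mulVec, ← mulVec_mulVec, h3, nm_dzbar (d1 z)] at h2
  rw [nm_dz (d1 z)] at k2
  rw [← Complex.add_re] at h1
  simp only [nm_bf_apply, one_smul, star_smul, mulVec_smul, smul_dotProduct, dotProduct_smul, k2,
    smul_eq_mul, RCLike.star_def, Complex.conj_I, smul_mulVec, sub_mulVec, add_mulVec,
    dotProduct_neg, dotProduct_sub, dotProduct_add] at h1 h2
  have h4 : ∀ X Y : ℂ, 0 ≤ X.re → 0 < Y.re → X = -4 * Y → False := fun X Y hX hY hXY => by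
    rw [hXY] at hX
    simp at hX
    linarith
  refine h4 _ _ h1 h2 ?_
  linear_combination (star s1 ⬝ᵥ fderiv ℝ h z (Pi.single j 1) *ᵥ s0 -
    Complex.I * star s1 ⬝ᵥ fderiv ℝ h z (Pi.single j Complex.I) *ᵥ s0 -
    2 * deriv (deriv p) 0 / c / c) * Complex.I_mul_I

end Vale.Agent.P296
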