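import Vale.Agent.P296.Ample
import Vale.Agent.P296.NoMax
import Vale.Agent.P296.Key
import Vale.Agent.P296.Grp

/-!
From a Griffiths positive metric on the bundle to the abstract data of the key lemma.
-/

open Matrix Filter Topology

noncomputable section

namespace Vale.Agent.P296

variable {α : ℕ} {P : Polys α} (g : Metric (EE P))

/-- Affine coordinates in the chart `(l, j)`. -/
def pt (l j : Fin 2) (x y : V) : V := ![x l.rev / x l, y j.rev / y j]

/-- The dual norm in homogeneous coordinates. -/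
def NN (l j : Fin 2) (x y v : V) : ℝ :=
  nrm (g.h (l, j) (pt l j x y)) (v ᵥ* SS α (x l)⁻¹ (y j)⁻¹)

theorem NN_nonneg (l j : Fin 2) (x y v : V) : 0 ≤ NN g l j x y v := nrm_nonneg _ _

theorem NN_smul (l j : Fin 2) (x y v : V) (c : ℂ) :
    NN g l j x y (c • v) = ‖c‖ * NN g l j x y v := by
  rw [NN, NN, Matrix.smul_vecMul, nrm_smul]

theorem NN_add_le (l j : Fin 2) (x y v w : V) :
    NN g l j x y (v + w) ≤ NN g l j x y v + NN g l j x y w := by
  rw [NN, NN, NN, Matrix.add_vecMul]
  exact nrm_add_le (g.pos _ _) _ _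

theorem vecMul_SS_ne {a b : ℂ} (ha : a ≠ 0) (hb : b ≠ 0) {v : V} (hv : v ≠ 0) :
    v ᵥ* SS α a b ≠ 0 := by
  intro h
  apply hv
  have := congrArg (fun w => w ᵥ* SS α a⁻¹ b⁻¹) h
  simpa [Matrix.vecMul_vecMul, SS_mul, mul_inv_cancel₀ ha, mul_inv_cancel₀ hb, SS_one] using this

theorem NN_pos {l j : Fin 2} {x y v : V} (hx : x l ≠ 0) (hy : y j ≠ 0) (hv : v ≠ 0) :
    0 < NN g l j x y v :=
  nrm_pos (g.pos _ _) (vecMul_SS_ne (inv_ne_zero hx) (inv_ne_zero hy) hv)

theorem NN_scale (l j : Fin 2) (x y v : V) {s t : ℂ} (hs : s ≠ 0) (ht : t ≠ 0) :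
    NN g l j (s • x) (t • y) (v ᵥ* SS α s t) = NN g l j x y v := by
  have h1 : pt l j (s • x) (t • y) = pt l j x y := by
    simp [pt, mul_div_mul_left _ _ hs, mul_div_mul_left _ _ ht]
  rw [NN, NN, h1, Matrix.vecMul_vecMul, SS_mul]
  simp only [Pi.smul_apply, smul_eq_mul, mul_inv, ← mul_assoc, mul_inv_cancel₀ hs,
    mul_inv_cancel₀ ht, one_mul]

theorem NN_tr {l l' j j' : Fin 2} {x y : V} (v : V) (hx : x l ≠ 0) (hx' : x l' ≠ 0)
    (hy : y j ≠ 0) (hy' : y j' ≠ 0) :
    NN g l' j' x y (v ᵥ* GG P j j' x y) = NN g l j x y v := by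
  have a1 : hc l (pt l j x y 0) = (x l)⁻¹ • x := hc_of hx
  have a2 : hc j (pt l j x y 1) = (y j)⁻¹ • y := hc_of hy
  have b1 : hc l' (pt l' j' x y 0) = (x l')⁻¹ • x := hc_of hx'
  have b2 : hc j' (pt l' j' x y 1) = (y j')⁻¹ • y := hc_of hy'
  have hzw : chart (l, j) (pt l j x y) = chart (l', j') (pt l' j' x y) := by
    refine chart_eq_of (a := (x l')⁻¹ * x l) (b := (y j')⁻¹ * y j) ?_ ?_
    · rw [a1, b1, smul_smul, mul_assoc, mul_inv_cancel₀ hx, mul_one]
    · rw [a2, b2, smul_smul, mul_assoc, mul_inv_cancel₀ hy, mul_one]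
  have hT : IsUnit ((EE P).T (l, j) (l', j') (pt l j x y)).det := by
    have := (EE P).cocycle (l, j) (l', j') (l, j) _ _ hzw ⟨_, rfl⟩
    rw [(EE P).self] at this
    exact Matrix.isUnit_det_of_right_inverse this
  rw [NN, NN, g.compat _ _ _ _ hzw, ← nrm_conj (g.h (l, j) (pt l j x y)) hT]
  congr 1
  change _ = _ ᵥ* TT P (l, j) (l', j') (pt l j x y)
  rw [TT, a1, a2, Matrix.vecMul_vecMul, Matrix.vecMul_vecMul, ← Matrix.mul_assoc,
    GG_scale P _ _ _ _ (inv_ne_zero hx) (inv_ne_zero hy), Matrix.mul_assoc, SS_mul]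
  simp only [Pi.smul_apply, smul_eq_mul, mul_inv, inv_inv, ← mul_assoc, inv_mul_cancel₀ hx,
    inv_mul_cancel₀ hy, one_mul]

theorem NN_continuousAt {X : Type*} [TopologicalSpace X] {x y v : X → V} {p : X} {l j : Fin 2}
    (hx : ContinuousAt x p) (hy : ContinuousAt y p) (hv : ContinuousAt v p) (h1 : x p l ≠ 0)
    (h2 : y p j ≠ 0) : ContinuousAt (fun q => NN g l j (x q) (y q) (v q)) p := by
  have hx' := continuousAt_pi.1 hx
  have hy' := continuousAt_pi.1 hy
  have hv' := continuousAt_pi.1 hv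
  have hpt : ContinuousAt (fun q => pt l j (x q) (y q)) p := by
    rw [continuousAt_pi]
    intro i
    fin_cases i
    · exact (hx' _).div (hx' _) h1
    · exact (hy' _).div (hy' _) h2
  have hchi : ∀ m n, ContinuousAt (fun q => chi m n (x q l)⁻¹ (y q j)⁻¹) p := fun m n =>
    (((hx' l).inv₀ h1).zpow₀ m (Or.inl (inv_ne_zero h1))).mul
      (((hy' j).inv₀ h2).zpow₀ n (Or.inl (inv_ne_zero h2)))
  refine nrm_continuousAt (fun a b => ?_) (g.pos _ _) ?_
  · exact ContinuousAt.comp (g := fun z => g.h (l, j) z a b)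
      (g.smooth (l, j) a b).continuous.continuousAt hpt
  · simp only [vecMul_SS]
    rw [continuousAt_pi]
    intro i
    fin_cases i
    · exact (hchi _ _).mul (hv' 0)
    · exact (hchi _ _).mul (hv' 1)

theorem curv_pos (hg : GriffithsPos g) (c : Fin 2 × Fin 2) (z : V) (j : Fin 2) (s : V)
    (hs : s ≠ 0) : 0 < (star s ⬝ᵥ ((g.h c z * curv (g.h c) j j z) *ᵥ s)).re := by
  have := hg c z (Pi.single j 1) s (by simp) hs
  fin_cases j <;> simpa [Fin.sum_univ_two] using this

theorem analytic_vecMul_SS (a b : ℂ) {v : ℂ → V} (hv : ∀ i, AnalyticAt ℂ (fun t => v t i) 0)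
    (i : Fin 2) : AnalyticAt ℂ (fun t => (v t ᵥ* SS α a b) i) 0 := by
  simp only [vecMul_SS]
  fin_cases i
  · exact analyticAt_const.mul (hv 0)
  · exact analyticAt_const.mul (hv 1)

theorem single_rev_self (l : Fin 2) (s : ℂ) : (Pi.single l.rev s : V) l = 0 := by
  fin_cases l <;> simp

theorem NN_nomax_x (hg : GriffithsPos g) {l j : Fin 2} {x y : V} (hx : x l ≠ 0) (hy : y j ≠ 0)
    {v : ℂ → V} (hv : ∀ i, AnalyticAt ℂ (fun t => v t i) 0) (hv0 : v 0 ≠ 0) :
    ¬ IsLocalMax (fun s : ℂ => NN g l j (x + Pi.single l.rev s) y (v s)) 0 := by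
  have := no_local_max (g.h (l, j)) (g.smooth _) (g.pos _) (pt l j x y) 0
    (curv_pos g hg _ _ _) (x l)⁻¹ (inv_ne_zero hx) (fun t => v t ᵥ* SS α (x l)⁻¹ (y j)⁻¹)
    (analytic_vecMul_SS _ _ hv) (vecMul_SS_ne (inv_ne_zero hx) (inv_ne_zero hy) hv0)
  convert this using 3 with s
  rw [NN]
  congr 2
  · ext i
    fin_cases i
    · simp [pt, single_rev_self]
      ring
    · simp [pt]
  · simp [single_rev_self]

theorem NN_nomax_y (hg : GriffithsPos g) {l j : Fin 2} {x y : V} (hx : x l ≠ 0) (hy : y j ≠ 0)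
    {v : ℂ → V} (hv : ∀ i, AnalyticAt ℂ (fun t => v t i) 0) (hv0 : v 0 ≠ 0) :
    ¬ IsLocalMax (fun s : ℂ => NN g l j x (y + Pi.single j.rev s) (v s)) 0 := by
  have := no_local_max (g.h (l, j)) (g.smooth _) (g.pos _) (pt l j x y) 1
    (curv_pos g hg _ _ _) (y j)⁻¹ (inv_ne_zero hy) (fun t => v t ᵥ* SS α (x l)⁻¹ (y j)⁻¹)
    (analytic_vecMul_SS _ _ hv) (vecMul_SS_ne (inv_ne_zero hx) (inv_ne_zero hy) hv0)
  convert this using 3 with s
  rw [NN]
  congr 2
  · ext i
    fin_cases i
    · simp [pt]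
    · simp [pt, single_rev_self]
      ring
  · simp [single_rev_self]

/-- A nowhere vanishing section of `E* ⊗ O(a, b)`. -/
structure TS (P : Polys α) (a b : ℕ) (w : Fin 2 → V → V → V) : Prop where
  diff : ∀ j, Differentiable ℂ (fun p : V × V => w j p.1 p.2)
  tr : ∀ j j' x y, y j ≠ 0 → w j' x y = w j x y ᵥ* GG P j j' x y
  sc : ∀ j x y (s t : ℂ), s ≠ 0 → t ≠ 0 →
    w j (s • x) (t • y) = (s ^ a * t ^ b) • (w j x y ᵥ* SS α s t)
  ne : ∀ l j x y, x l ≠ 0 → y j ≠ 0 → w j x y ≠ 0

/-- A nonvanishing coordinate. -/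
def pk (x : V) : Fin 2 := if x 0 = 0 then 1 else 0

theorem pk_ne {x : V} (hx : x ≠ 0) : x (pk x) ≠ 0 := by
  unfold pk
  split_ifs with h
  · intro h1
    apply hx
    ext i
    fin_cases i <;> simp [h, h1]
  · exact h

theorem ne_zero_of {x : V} {l : Fin 2} (h : x l ≠ 0) : x ≠ 0 := fun h' => h (by simp [h'])

/-- The length of a twisted section. -/
def uu (w : Fin 2 → V → V → V) (x y : V) : ℝ := NN g (pk x) (pk y) x y (w (pk y) x y)

variable {a b : ℕ} {w : Fin 2 → V → V → V}

theorem uu_eq (hw : TS P a b w) {l j : Fin 2} {x y : V} (hx : x l ≠ 0) (hy : y j ≠ 0) :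
    uu g w x y = NN g l j x y (w j x y) := by
  rw [uu, hw.tr j (pk y) x y hy, NN_tr g _ hx (pk_ne (ne_zero_of hx)) hy (pk_ne (ne_zero_of hy))]

theorem uu_cont (hw : TS P a b w) :
    ContinuousOn (fun p : V × V => uu g w p.1 p.2) {p | p.1 ≠ 0 ∧ p.2 ≠ 0} := by
  intro p hp
  obtain ⟨l, hl⟩ := exists_ne_zero hp.1
  obtain ⟨j, hj⟩ := exists_ne_zero hp.2
  have h1 : ContinuousAt (fun q : V × V => NN g l j q.1 q.2 (w j q.1 q.2)) p :=
    NN_continuousAt g continuousAt_fst continuousAt_snd (hw.diff j).continuous.continuousAt hl hj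
  have h2 : ∀ᶠ q : V × V in 𝓝 p, q.1 l ≠ 0 :=
    (by fun_prop : ContinuousAt (fun q : V × V => q.1 l) p).eventually_ne hl
  have h3 : ∀ᶠ q : V × V in 𝓝 p, q.2 j ≠ 0 :=
    (by fun_prop : ContinuousAt (fun q : V × V => q.2 j) p).eventually_ne hj
  refine (h1.congr ?_).continuousWithinAt
  filter_upwards [h2, h3] with q hq2 hq3
  exact (uu_eq g hw hq2 hq3).symm

theorem uu_hom (hw : TS P a b w) {x y : V} (hx : x ≠ 0) (hy : y ≠ 0) {s t : ℂ} (hs : s ≠ 0)
    (ht : t ≠ 0) : uu g w (s • x) (t • y) = ‖s‖ ^ a * ‖t‖ ^ b * uu g w x y := by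
  obtain ⟨l, hl⟩ := exists_ne_zero hx
  obtain ⟨j, hj⟩ := exists_ne_zero hy
  rw [uu_eq g hw (l := l) (j := j) (mul_ne_zero hs hl) (mul_ne_zero ht hj), uu_eq g hw hl hj,
    hw.sc _ _ _ _ _ hs ht, NN_smul, NN_scale g _ _ _ _ _ hs ht, norm_mul, norm_pow, norm_pow]

theorem TS.diff_comp (hw : TS P a b w) (j : Fin 2) {x y : ℂ → V} (hx : Differentiable ℂ x)
    (hy : Differentiable ℂ y) (i : Fin 2) : Differentiable ℂ (fun s => w j (x s) (y s) i) :=
  differentiable_pi.1 (Differentiable.comp (g := fun p : V × V => w j p.1 p.2)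
    (f := fun s => (x s, y s)) (hw.diff j) (hx.prodMk hy)) i

theorem diff_line (x : V) (l : Fin 2) : Differentiable ℂ (fun s : ℂ => x + Pi.single l s) := by
  rw [differentiable_pi]
  intro i
  by_cases h : i = l
  · subst h
    simpa using differentiable_id.const_add (x i)
  · simp [h]

theorem nm_x (hg : GriffithsPos g) (hw : TS P a b w) {y : V} (hy : y ≠ 0) :
    NM a (fun x => uu g w x y) where
  cont := (uu_cont g hw).comp (f := fun x : V => (x, y)) (by fun_prop) (fun _ hx => ⟨hx, hy⟩)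
  pos x hx := NN_pos g (pk_ne hx) (pk_ne hy) (hw.ne _ _ _ _ (pk_ne hx) (pk_ne hy))
  hom c x hc0 hx := by simpa using uu_hom g hw hx hy hc0 one_ne_zero
  nomax x l κ hx hκ hκ0 := by
    obtain ⟨j, hj⟩ := exists_ne_zero hy
    have := NN_nomax_x g hg hx hj (v := fun s => κ s • w j (x + Pi.single l.rev s) y)
      (fun i => hκ.mul ((hw.diff_comp j (diff_line x l.rev) (differentiable_const y)
        i).analyticAt 0)) (smul_ne_zero hκ0 (hw.ne l j _ _ (by simpa using hx) hj))
    convert this using 3 with s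
    rw [NN_smul, uu_eq g hw (l := l) (by simpa [single_rev_self] using hx) hj]

theorem nm_y (hg : GriffithsPos g) (hw : TS P a b w) {x : V} (hx : x ≠ 0) :
    NM b (fun y => uu g w x y) where
  cont := (uu_cont g hw).comp (f := fun y : V => (x, y)) (by fun_prop) (fun _ hy => ⟨hx, hy⟩)
  pos y hy := NN_pos g (pk_ne hx) (pk_ne hy) (hw.ne _ _ _ _ (pk_ne hx) (pk_ne hy))
  hom c y hc0 hy := by simpa using uu_hom g hw hx hy one_ne_zero hc0
  nomax y j κ hy hκ hκ0 := by
    obtain ⟨l, hl⟩ := exists_ne_zero hx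
    have := NN_nomax_y g hg hl hy (v := fun s => κ s • w j x (y + Pi.single j.rev s))
      (fun i => hκ.mul ((hw.diff_comp j (differentiable_const x) (diff_line y j.rev)
        i).analyticAt 0)) (smul_ne_zero hκ0 (hw.ne l j _ _ hl (by simpa using hy)))
    convert this using 3 with s
    rw [NN_smul, uu_eq g hw (j := j) hl (by simpa [single_rev_self] using hy)]

theorem third_of {N : ℂ → V → ℝ} (h0 : ∀ s v, 0 ≤ N s v)
    (hsmul : ∀ s (c : ℂ) v, N s (c • v) = ‖c‖ * N s v)
    (hadd : ∀ s v v', N s (v + v') ≤ N s v + N s v')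
    (hcont : ∀ v : ℂ → V, Continuous v → Continuous (fun s => N s (v s)))
    (hmax : ∀ (s0 : ℂ) (v : ℂ → V), (∀ i, AnalyticAt ℂ (fun t => v t i) 0) → v 0 ≠ 0 →
      ¬ IsLocalMax (fun t => N (s0 + t) (v t)) 0)
    {w1 w2 F : ℂ → V} {c : ℂ} (hF : Differentiable ℂ F) (hF0 : F (c ^ 5) = 0)
    (hw : ∀ s, w1 s - w2 s = F (s ^ 5)) :
    Third (fun s => N s (w1 s)) (fun s => N s (w2 s)) c := by
  have hd : Differentiable ℂ (dslope F (c ^ 5)) := by
    rw [← differentiableOn_univ, Complex.differentiableOn_dslope Filter.univ_mem]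
    exact hF.differentiableOn
  have hd5 : Differentiable ℂ (fun s : ℂ => dslope F (c ^ 5) (s ^ 5)) :=
    hd.comp (differentiable_pow 5)
  have e : ∀ s, ‖s ^ 5 - c ^ 5‖ * N s (dslope F (c ^ 5) (s ^ 5)) = N s (w1 s - w2 s) := by
    intro s
    rw [← hsmul, sub_smul_dslope, hF0, sub_zero, hw]
  refine ⟨fun s => N s (dslope F (c ^ 5) (s ^ 5)), hcont _ hd5.continuous, fun s => h0 _ _,
    fun s => ?_, fun s => ?_, fun s hs hm => ?_⟩
  · rw [e]
    have := hadd s (w2 s) (w1 s - w2 s)
    rwa [add_sub_cancel] at this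
  · rw [e, sub_eq_add_neg]
    have h1 := hadd s (w1 s) (-w2 s)
    have h2 := hsmul s (-1) (w2 s)
    rw [neg_one_smul, norm_neg, norm_one, one_mul] at h2
    rwa [h2] at h1
  · refine hmax s (fun t => dslope F (c ^ 5) ((s + t) ^ 5)) (fun i => ?_) ?_ ?_
    · exact (differentiable_pi.1 (hd5.comp (differentiable_id.const_add s)) i).analyticAt 0
    · intro h
      apply hs
      rw [add_zero] at h
      have := hsmul s 0 0
      simpa [h] using this
    · have hm' : IsLocalMax (fun s => N s (dslope F (c ^ 5) (s ^ 5))) ((fun t : ℂ => s + t) 0) := by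
        simpa using hm
      exact hm'.comp_continuous (g := fun t : ℂ => s + t) (by fun_prop)

variable (P)

/-- The first section. -/
def v1 (α : ℕ) (j : Fin 2) (_ y : V) : V := ![f5 y j ^ (α + 2), 0]

/-- The second section. -/
def v2 (j : Fin 2) (x y : V) : V := ![P.Θ j (f5 x) (f5 y), DD (f5 x) (f5 y)]

theorem chi_nat (m n : ℕ) (s t : ℂ) : s ^ m * t ^ n = chi m n s t := by simp [chi]

theorem ts_v1 : TS P 4 (5 * α + 4) (v1 α) where
  diff j := by
    rw [differentiable_pi]
    intro i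
    fin_cases i
    · exact (differentiable_pi.1 (f5_differentiable.comp differentiable_snd) j).pow _
    · exact differentiable_const (0 : ℂ)
  tr j j' x y h := by
    have := pow_ne_zero (α + 2) (f5_ne h)
    rw [vecMul_GG]
    ext i
    fin_cases i
    · simp only [v1, Fin.zero_eta, Matrix.cons_val_zero, Matrix.cons_val_one]
      field_simp
      ring
    · simp [v1]
  sc j x y s t hs ht := by
    have c1 : chi ((4 : ℕ) : ℤ) ((5 * α + 4 : ℕ) : ℤ) s t * chi (-4) 6 s t =
        chi 0 (5 * ((α + 2 : ℕ) : ℤ)) s t := chi_eq hs ht (by simp) (by push_cast; ring)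
    rw [vecMul_SS, chi_nat]
    ext i
    fin_cases i
    · simp only [v1, Fin.zero_eta, Matrix.cons_val_zero, Pi.smul_apply, smul_eq_mul,
        f5_pow_smul_right s t]
      rw [← c1]
      ring
    · simp [v1]
  ne l j x y _ hy h := pow_ne_zero (α + 2) (f5_ne hy) (by simpa [v1] using congrFun h 0)

theorem ts_v2 : TS P (5 * α + 4) 4 (v2 P) where
  diff j := by
    rw [differentiable_pi]
    intro i
    have h1 : Differentiable ℂ (fun p : V × V => f5 p.1) :=
      f5_differentiable.comp differentiable_fst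
    have h2 : Differentiable ℂ (fun p : V × V => f5 p.2) :=
      f5_differentiable.comp differentiable_snd
    fin_cases i
    · exact fun p => (P.hΘ j).diffAt (h1 p) (h2 p)
    · exact fun p => hol_DD.diffAt (h1 p) (h2 p)
  tr j j' x y h := by
    have := pow_ne_zero (α + 2) (f5_ne h)
    rw [vecMul_GG]
    ext i
    fin_cases i
    · simp only [v2, Fin.zero_eta, Matrix.cons_val_zero, Matrix.cons_val_one]
      field_simp
      linear_combination P.xi j j' (f5 x) (f5 y)
    · simp [v2]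
  sc j x y s t hs ht := by
    have c1 : chi ((5 * α + 4 : ℕ) : ℤ) ((4 : ℕ) : ℤ) s t * chi (-4) 6 s t =
        chi (5 * α) (5 * 2) s t := chi_eq hs ht (by push_cast; ring) (by simp)
    have c2 : chi ((5 * α + 4 : ℕ) : ℤ) ((4 : ℕ) : ℤ) s t * chi (11 - 5 * α) 11 s t =
        chi (5 * 3) (5 * 3) s t := chi_eq hs ht (by push_cast; ring) (by simp)
    rw [vecMul_SS, chi_nat]
    ext i
    fin_cases i
    · simp only [v2, Fin.zero_eta, Matrix.cons_val_zero, Pi.smul_apply, smul_eq_mul,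
        (P.hΘ j).hom5 hs ht]
      rw [← c1]
      ring
    · simp only [v2, Fin.mk_one, Matrix.cons_val_zero, Matrix.cons_val_one, Pi.smul_apply,
        smul_eq_mul, hol_DD.hom5 hs ht]
      rw [← c2]
      ring
  ne l j x y hx hy h := by
    have h0 : P.Θ j (f5 x) (f5 y) = 0 := by simpa [v2] using congrFun h 0
    have h1 : DD (f5 x) (f5 y) = 0 := by simpa [v2] using congrFun h 1
    have := P.zeta l j (f5 x) (f5 y)
    rw [h0, h1, mul_zero, zero_mul, sub_zero] at this
    exact mul_ne_zero (pow_ne_zero _ (f5_ne hx)) (pow_ne_zero _ (f5_ne hy)) this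

theorem DD_graph (i : Fin 3) (X : V) : DD X (gam i *ᵥ X) = 0 := by
  have : dt (gam i *ᵥ X) (gam i *ᵥ X) = 0 := by
    rw [dt]
    ring
  fin_cases i <;> simp_all [DD]

theorem f5_update (x : V) (l : Fin 2) (s : ℂ) :
    f5 (Function.update x l s) = Function.update (f5 x) l (s ^ 5) := by
  ext i
  by_cases h : i = l
  · subst h
    simp [f5]
  · simp [f5, h]

theorem update_rev_self (x : V) (l : Fin 2) (s : ℂ) : Function.update x l.rev s l = x l := by
  fin_cases l <;> simp

theorem update_add' (x : V) (l : Fin 2) (s t : ℂ) :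
    Function.update x l (s + t) = Function.update x l s + Pi.single l t := by
  ext i
  by_cases h : i = l
  · subst h
    simp
  · simp [h]

theorem diff_update (x : V) (l : Fin 2) : Differentiable ℂ (fun s : ℂ => Function.update x l s) := by
  rw [differentiable_pi]
  intro i
  by_cases h : i = l
  · subst h
    simp
  · simp [h]

variable {P}

theorem data_of (hg : GriffithsPos g) :
    Data gam (5 * α + 4) (uu g (v1 α)) (uu g (v2 P)) where
  cont := uu_cont g (ts_v1 P)
  n1x _ hy := nm_x g hg (ts_v1 P) hy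
  n1y _ hx := nm_y g hg (ts_v1 P) hx
  n2x _ hy := nm_x g hg (ts_v2 P) hy
  n2y _ hx := nm_y g hg (ts_v2 P) hx
  hor i x y l hy hx hxy := by
    obtain ⟨j, hj⟩ := exists_ne_zero hy
    have hl : ∀ s, Function.update x l.rev s l ≠ 0 := fun s => by rwa [update_rev_self]
    simp only [uu_eq g (ts_v1 P) (hl _) hj, uu_eq g (ts_v2 P) (hl _) hj]
    refine third_of (N := fun s v => NN g l j (Function.update x l.rev s) y v)
      (F := fun S => ![f5 y j ^ (α + 2) - P.Θ j (Function.update (f5 x) l.rev S) (f5 y),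
        - DD (Function.update (f5 x) l.rev S) (f5 y)])
      (fun _ _ => NN_nonneg g _ _ _ _ _) (fun _ _ _ => NN_smul g _ _ _ _ _ _)
      (fun _ _ _ => NN_add_le g _ _ _ _ _ _) (fun v hv => continuous_iff_continuousAt.2 fun s =>
        NN_continuousAt g (diff_update x _).continuous.continuousAt continuousAt_const
          hv.continuousAt (hl s) hj) (fun s0 v hv hv0 => ?_) ?_ ?_ (fun s => ?_)
    · simp only [update_add']
      exact NN_nomax_x g hg (hl s0) hj hv hv0
    · rw [differentiable_pi]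
      intro k
      fin_cases k
      · exact fun S => ((P.hΘ j).diffAt (diff_update _ _ S) (differentiableAt_const _)).const_sub _
      · exact fun S => (hol_DD.diffAt (diff_update _ _ S) (differentiableAt_const _)).neg
    · have : Function.update (f5 x) l.rev (x l.rev ^ 5) = f5 x := Function.update_eq_self _ _
      simp only [this, hxy, P.on_D, DD_graph]
      ext k
      fin_cases k <;> simp
    · ext k
      fin_cases k <;> simp [v1, v2, f5_update]
  ver i x y j hx hj hxy := by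
    obtain ⟨l, hl⟩ := exists_ne_zero hx
    have hy : ∀ s, Function.update y j.rev s j ≠ 0 := fun s => by rwa [update_rev_self]
    simp only [uu_eq g (ts_v1 P) hl (hy _), uu_eq g (ts_v2 P) hl (hy _)]
    refine third_of (N := fun s v => NN g l j x (Function.update y j.rev s) v)
      (F := fun S => ![P.Θ j (f5 x) (Function.update (f5 y) j.rev S) - f5 y j ^ (α + 2),
        DD (f5 x) (Function.update (f5 y) j.rev S)])
      (fun _ _ => NN_nonneg g _ _ _ _ _) (fun _ _ _ => NN_smul g _ _ _ _ _ _)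
      (fun _ _ _ => NN_add_le g _ _ _ _ _ _) (fun v hv => continuous_iff_continuousAt.2 fun s =>
        NN_continuousAt g continuousAt_const (diff_update y _).continuous.continuousAt
          hv.continuousAt hl (hy s)) (fun s0 v hv hv0 => ?_) ?_ ?_ (fun s => ?_)
    · simp only [update_add']
      exact NN_nomax_y g hg hl (hy s0) hv hv0
    · rw [differentiable_pi]
      intro k
      fin_cases k
      · exact fun S => ((P.hΘ j).diffAt (differentiableAt_const _) (diff_update _ _ S)).sub_const _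
      · exact fun S => hol_DD.diffAt (differentiableAt_const _) (diff_update _ _ S)
    · have : Function.update (f5 y) j.rev (y j.rev ^ 5) = f5 y := Function.update_eq_self _ _
      simp only [this]
      simp only [hxy, P.on_D, DD_graph]
      ext k
      fin_cases k <;> simp
    · ext k
      fin_cases k <;> simp [v1, v2, f5_update, update_rev_self]

theorem main : ∃ E : Bundle 2, Ample E ∧ ¬ ∃ g : Metric E, GriffithsPos g := by
  obtain ⟨m, Vs, Vu, lam, h0, h1, hm, hs, hu, hsu, hss⟩ := exists_hyp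
  obtain ⟨n0, hn0⟩ := key gam gam_det_ne m Vs Vu lam h0 h1 hm hs hu hsu hss
  obtain ⟨P⟩ := exists_polys (6 * (n0 + 1)) (dvd_mul_right _ _) (by omega)
  refine ⟨EE P, ample P (by omega), ?_⟩
  rintro ⟨g, hg⟩
  exact hn0 _ (by omega) _ _ (data_of g hg)

end Vale.Agent.P296
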