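import Vale.Agent.P296.Bundle

/-!
Twisted sections of `O(m)` on the projective bundle, in homogeneous coordinates.
-/

open Matrix

noncomputable section

namespace Vale.Agent.P296

variable {α : ℕ} (P : Polys α)

/-- A section of `O(m) ⊗ O(a, b)`, given by a formula in each of the two frames. -/
structure HS (m : ℕ) (a b : ℤ) (Φ : Fin 2 → V → V → V → ℂ) : Prop where
  diff : ∀ j (p : V × V × V), p.2.1 j ≠ 0 →
    DifferentiableAt ℂ (fun q : V × V × V => Φ j q.1 q.2.1 q.2.2) p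
  homv : ∀ j x y v (c : ℂ), Φ j x y (c • v) = c ^ m * Φ j x y v
  tr : ∀ j j' x y v, y j ≠ 0 → y j' ≠ 0 → Φ j' x y (v ᵥ* GG P j j' x y) = Φ j x y v
  sc : ∀ j x y v (s t : ℂ), y j ≠ 0 → s ≠ 0 → t ≠ 0 →
    Φ j (s • x) (t • y) (v ᵥ* SS α s t) = chi a b s t * Φ j x y v

variable {P}

theorem HS.cast {m m' : ℕ} {a b a' b' : ℤ} {Φ : Fin 2 → V → V → V → ℂ} (h : HS P m a b Φ)
    (hm : m = m') (ha : a = a') (hb : b = b') : HS P m' a' b' Φ := by
  subst hm ha hb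
  exact h

theorem HS.mul {m m' : ℕ} {a b a' b' : ℤ} {Φ Ψ : Fin 2 → V → V → V → ℂ} (h : HS P m a b Φ)
    (h' : HS P m' a' b' Ψ) :
    HS P (m + m') (a + a') (b + b') (fun j x y v => Φ j x y v * Ψ j x y v) where
  diff j p hp := (h.diff j p hp).mul (h'.diff j p hp)
  homv j x y v c := by
    rw [h.homv, h'.homv]
    ring
  tr j j' x y v h1 h2 := by rw [h.tr _ _ _ _ _ h1 h2, h'.tr _ _ _ _ _ h1 h2]
  sc j x y v s t h1 hs ht := by
    rw [h.sc _ _ _ _ _ _ h1 hs ht, h'.sc _ _ _ _ _ _ h1 hs ht, chi_add _ _ _ _ hs ht]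
    ring

theorem HS.one : HS P 0 0 0 (fun _ _ _ _ => 1) where
  diff _ _ _ := differentiableAt_const _
  homv _ _ _ _ _ := by simp
  tr _ _ _ _ _ _ _ := rfl
  sc _ _ _ _ _ _ _ _ _ := by simp [chi_zero]

theorem HS.pow {m : ℕ} {a b : ℤ} {Φ : Fin 2 → V → V → V → ℂ} (h : HS P m a b Φ) (k : ℕ) :
    HS P (k * m) (k * a) (k * b) (fun j x y v => Φ j x y v ^ k) := by
  induction k with
  | zero => simpa using HS.one
  | succ k ih =>
    have := ih.mul h
    simp only [← pow_succ] at this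
    exact this.cast (by ring) (by push_cast; ring) (by push_cast; ring)

theorem HS.coordX (l : Fin 2) : HS P 0 1 0 (fun _ x _ _ => x l) where
  diff _ _ _ := by fun_prop
  homv _ _ _ _ _ := by simp
  tr _ _ _ _ _ _ _ := rfl
  sc _ _ _ _ _ _ _ _ _ := by simp [chi]

theorem HS.coordY (l : Fin 2) : HS P 0 0 1 (fun _ _ y _ => y l) where
  diff _ _ _ := by fun_prop
  homv _ _ _ _ _ := by simp
  tr _ _ _ _ _ _ _ := rfl
  sc _ _ _ _ _ _ _ _ _ := by simp [chi]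

theorem HS.pad {m : ℕ} {a b : ℤ} {Φ : Fin 2 → V → V → V → ℂ} (h : HS P m a b Φ) (a' b' : ℤ)
    (ha : a ≤ a') (hb : b ≤ b') (l J : Fin 2) :
    HS P m a' b' (fun j x y v => x l ^ (a' - a).toNat * y J ^ (b' - b).toNat * Φ j x y v) := by
  refine ((((HS.coordX l).pow _).mul ((HS.coordY J).pow _)).mul h).cast (by simp) ?_ ?_
  · omega
  · omega

theorem diff_f5x (p : V × V × V) : DifferentiableAt ℂ (fun q : V × V × V => f5 q.1) p :=
  (f5_differentiable.comp differentiable_fst) p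

theorem diff_f5y (p : V × V × V) : DifferentiableAt ℂ (fun q : V × V × V => f5 q.2.1) p :=
  (f5_differentiable.comp (differentiable_fst.comp differentiable_snd)) p

theorem diff_Y (p : V × V × V) (j : Fin 2) (k : ℕ) :
    DifferentiableAt ℂ (fun q : V × V × V => f5 q.2.1 j ^ k) p :=
  (differentiableAt_pi.1 (diff_f5y p) j).pow k

theorem diff_v (p : V × V × V) (i : Fin 2) :
    DifferentiableAt ℂ (fun q : V × V × V => q.2.2 i) p := by fun_prop

theorem HS.sB : HS P 1 (11 - 5 * α) 11 (fun _ _ _ v => v 1) where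
  diff _ p _ := diff_v p 1
  homv _ _ _ _ _ := by simp
  tr _ _ _ _ _ _ _ := by simp [vecMul_GG]
  sc _ _ _ _ _ _ _ _ _ := by simp [vecMul_SS]

theorem HS.lin {a b : ℤ} {U : V → V → ℂ} {W : Fin 2 → V → V → ℂ} (hU : Hol a b U)
    (hW : ∀ j, Hol (a + α - 3) (b - 1) (W j))
    (hc : ∀ j j' X Y, U X Y * P.Ξ j j' X Y + Y j ^ (α + 2) * W j' X Y = Y j' ^ (α + 2) * W j X Y) :
    HS P 1 (5 * a - 4) (5 * b - 5 * α - 4) (fun j x y v =>
      (U (f5 x) (f5 y) * v 0 + W j (f5 x) (f5 y) * v 1) / f5 y j ^ (α + 2)) where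
  diff j p hp := diffAt_div (((hU.diffAt (diff_f5x p) (diff_f5y p)).mul (diff_v p 0)).add
    (((hW j).diffAt (diff_f5x p) (diff_f5y p)).mul (diff_v p 1))) (diff_Y p j _)
    (pow_ne_zero _ (f5_ne hp))
  homv j x y v c := by
    simp only [Pi.smul_apply, smul_eq_mul]
    ring
  tr j j' x y v h1 h2 := by
    have e1 := pow_ne_zero (α + 2) (f5_ne h1)
    have e2 := pow_ne_zero (α + 2) (f5_ne h2)
    simp only [vecMul_GG, Matrix.cons_val_zero, Matrix.cons_val_one]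
    field_simp
    linear_combination v 1 * hc j j' (f5 x) (f5 y)
  sc j x y v s t h1 hs ht := by
    have e1 := pow_ne_zero (α + 2) (f5_ne h1)
    have hz : chi 0 (5 * ((α + 2 : ℕ) : ℤ)) s t ≠ 0 := chi_ne _ _ hs ht
    have c1 : chi (5 * a) (5 * b) s t * chi (-4) 6 s t =
        chi (5 * a - 4) (5 * b - 5 * α - 4) s t * chi 0 (5 * ((α + 2 : ℕ) : ℤ)) s t := by
      rw [chi_eq hs ht rfl rfl, chi_eq hs ht rfl rfl]
      congr 1 <;> push_cast <;> ring
    have c2 : chi (5 * (a + α - 3)) (5 * (b - 1)) s t * chi (11 - 5 * α) 11 s t =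
        chi (5 * a - 4) (5 * b - 5 * α - 4) s t * chi 0 (5 * ((α + 2 : ℕ) : ℤ)) s t := by
      rw [chi_eq hs ht rfl rfl, chi_eq hs ht rfl rfl]
      congr 1 <;> push_cast <;> ring
    simp only [vecMul_SS, Matrix.cons_val_zero, Matrix.cons_val_one, hU.hom5 hs ht,
      (hW j).hom5 hs ht, f5_pow_smul_right s t]
    field_simp
    linear_combination U (f5 x) (f5 y) * v 0 * c1 + W j (f5 x) (f5 y) * v 1 * c2

theorem hol_DD : Hol 3 3 DD where
  diff := by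
    simp only [DD, dt, gam0_mulVec, gam1_mulVec, gam2_mulVec, Matrix.cons_val_zero,
      Matrix.cons_val_one]
    fun_prop
  hom c d X Y _ _ := by
    simp only [DD, dt, Matrix.mulVec_smul, Pi.smul_apply, smul_eq_mul]
    norm_cast
    ring

theorem hol_Y (j : Fin 2) (k : ℕ) : Hol 0 k (fun _ Y => Y j ^ k) where
  diff := by fun_prop
  hom c d X Y _ _ := by simp [mul_pow]

theorem Hol.neg {a b : ℤ} {Q : V → V → ℂ} (h : Hol a b Q) : Hol a b (fun X Y => - Q X Y) where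
  diff := h.diff.neg
  hom c d X Y hc0 hd := by
    rw [h.hom c d X Y hc0 hd]
    ring

theorem Hol.cast {a b a' b' : ℤ} {Q : V → V → ℂ} (h : Hol a b Q) (ha : a = a') (hb : b = b') :
    Hol a' b' Q := by
  subst ha hb
  exact h

variable (P)

/-- The section `A`. -/
def sA (j : Fin 2) (x y v : V) : ℂ :=
  (DD (f5 x) (f5 y) * v 0 + - P.Θ j (f5 x) (f5 y) * v 1) / f5 y j ^ (α + 2)

/-- The sections `e_J`. -/
def sE (J j : Fin 2) (x y v : V) : ℂ :=
  (f5 y J ^ (α + 2) * v 0 + P.Ξ j J (f5 x) (f5 y) * v 1) / f5 y j ^ (α + 2)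

/-- The sections `e'_l`. -/
def sE' (l j : Fin 2) (x y v : V) : ℂ :=
  (P.Θ' l (f5 x) (f5 y) * v 0 + P.Z l j (f5 x) (f5 y) * v 1) / f5 y j ^ (α + 2)

/-- The quadratic sections `P_J`. -/
def sP (J j : Fin 2) (x y v : V) : ℂ :=
  (f5 y J ^ (2 * α + 2) * v 0 ^ 2 + 2 * P.R1 J j (f5 x) (f5 y) * (v 0 * v 1) +
    P.R2 J j (f5 x) (f5 y) * v 1 ^ 2) / (f5 y j ^ (α + 2)) ^ 2

theorem hs_A : HS P 1 11 (11 - 5 * α) (sA P) :=
  (HS.lin hol_DD (fun j => ((P.hΘ j).neg).cast (by ring) (by ring)) (fun j j' X Y => by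
    linear_combination (-1 : ℂ) * P.xi j j' X Y)).cast rfl (by ring) (by ring)

theorem hs_E (J : Fin 2) : HS P 1 (-4) 6 (sE P J) :=
  (HS.lin (hol_Y J (α + 2)) (fun j => (P.hΞ j J).cast (by ring) (by push_cast; ring))
    (fun j j' X Y => P.xi_coc j j' J X Y)).cast rfl (by ring) (by push_cast; ring)

theorem hs_E' (l : Fin 2) : HS P 1 6 (-4) (sE' P l) :=
  (HS.lin (P.hΘ' l) (fun j => (P.hZ l j).cast (by ring) (by ring))
    (fun j j' X Y => P.zeta_coc l j j' X Y)).cast rfl (by ring) (by ring)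

theorem hs_P (J : Fin 2) : HS P 2 (-8) 2 (sP P J) where
  diff j p hp := diffAt_div ((((diff_Y p J _).mul ((diff_v p 0).pow 2)).add
    ((((P.hR1 J j).diffAt (diff_f5x p) (diff_f5y p)).const_mul 2).mul
      ((diff_v p 0).mul (diff_v p 1)))).add
    (((P.hR2 J j).diffAt (diff_f5x p) (diff_f5y p)).mul ((diff_v p 1).pow 2)))
    ((diff_Y p j _).pow 2) (pow_ne_zero _ (pow_ne_zero _ (f5_ne hp)))
  homv j x y v c := by
    simp only [sP, Pi.smul_apply, smul_eq_mul]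
    ring
  tr j j' x y v h1 h2 := by
    have e1 := pow_ne_zero (α + 2) (f5_ne h1)
    have e2 := pow_ne_zero (α + 2) (f5_ne h2)
    simp only [sP, vecMul_GG, Matrix.cons_val_zero, Matrix.cons_val_one]
    field_simp
    linear_combination 2 * f5 y j' ^ (α + 2) * v 0 * v 1 * P.r1_coc J j j' (f5 x) (f5 y) +
      v 1 ^ 2 * P.r2_coc J j j' (f5 x) (f5 y)
  sc j x y v s t h1 hs ht := by
    have e1 := pow_ne_zero (α + 2) (f5_ne h1)
    have hz : chi 0 (5 * ((α + 2 : ℕ) : ℤ)) s t ≠ 0 := chi_ne _ _ hs ht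
    have c0 : chi 0 (5 * ((2 * α + 2 : ℕ) : ℤ)) s t * chi (-4) 6 s t * chi (-4) 6 s t =
        chi (-8) 2 s t * chi 0 (5 * ((α + 2 : ℕ) : ℤ)) s t *
          chi 0 (5 * ((α + 2 : ℕ) : ℤ)) s t := by
      rw [chi_eq hs ht rfl rfl, chi_eq hs ht rfl rfl, chi_eq hs ht rfl rfl, chi_eq hs ht rfl rfl]
      congr 1 <;> push_cast <;> ring
    have c1 : chi (5 * ((α : ℤ) - 3)) (5 * (2 * α + 1)) s t * chi (-4) 6 s t *
        chi (11 - 5 * α) 11 s t = chi (-8) 2 s t * chi 0 (5 * ((α + 2 : ℕ) : ℤ)) s t *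
          chi 0 (5 * ((α + 2 : ℕ) : ℤ)) s t := by
      rw [chi_eq hs ht rfl rfl, chi_eq hs ht rfl rfl, chi_eq hs ht rfl rfl, chi_eq hs ht rfl rfl]
      congr 1 <;> push_cast <;> ring
    have c2 : chi (5 * (2 * (α : ℤ) - 6)) (5 * (2 * α)) s t * chi (11 - 5 * α) 11 s t *
        chi (11 - 5 * α) 11 s t = chi (-8) 2 s t * chi 0 (5 * ((α + 2 : ℕ) : ℤ)) s t *
          chi 0 (5 * ((α + 2 : ℕ) : ℤ)) s t := by
      rw [chi_eq hs ht rfl rfl, chi_eq hs ht rfl rfl, chi_eq hs ht rfl rfl, chi_eq hs ht rfl rfl]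
      congr 1 <;> push_cast <;> ring
    simp only [sP, vecMul_SS, Matrix.cons_val_zero, Matrix.cons_val_one, (P.hR1 J j).hom5 hs ht,
      (P.hR2 J j).hom5 hs ht, f5_pow_smul_right s t]
    field_simp
    linear_combination f5 y J ^ (2 * α + 2) * v 0 ^ 2 * c0 +
      2 * P.R1 J j (f5 x) (f5 y) * v 0 * v 1 * c1 + P.R2 J j (f5 x) (f5 y) * v 1 ^ 2 * c2

variable {P}

theorem HS.compat {m : ℕ} {a b : ℤ} {Φ : Fin 2 → V → V → V → ℂ} (h : HS P m a b Φ)
    {c d : Fin 2 × Fin 2} {z w : V} (v : V) (hzw : chart c z = chart d w) :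
    Φ d.2 (hc d.1 (w 0)) (hc d.2 (w 1)) (v ᵥ* TT P c d z) =
      chi a b (hc c.1 (z 0) d.1)⁻¹ (hc c.2 (z 1) d.2)⁻¹ *
        Φ c.2 (hc c.1 (z 0)) (hc c.2 (z 1)) v := by
  obtain ⟨⟨h1, e1⟩, ⟨h2, e2⟩⟩ := chart_eq hzw
  have hy : hc c.2 (z 1) c.2 ≠ 0 := by rw [hc_self]; exact one_ne_zero
  rw [e1, e2, TT, ← Matrix.vecMul_vecMul, h.sc _ _ _ _ _ _ h2 (inv_ne_zero h1) (inv_ne_zero h2),
    h.tr _ _ _ _ _ hy h2]

theorem HS.chart_diff {m : ℕ} {a b : ℤ} {Φ : Fin 2 → V → V → V → ℂ} (h : HS P m a b Φ)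
    (c : Fin 2 × Fin 2) :
    Differentiable ℂ (fun p : V × V => Φ c.2 (hc c.1 (p.1 0)) (hc c.2 (p.1 1)) p.2) := by
  intro p
  have hy : hc c.2 (p.1 1) c.2 ≠ 0 := by rw [hc_self]; exact one_ne_zero
  have h1 : DifferentiableAt ℂ (fun p : V × V => (hc c.1 (p.1 0), hc c.2 (p.1 1), p.2)) p :=
    (((hcz_diff c.1 0).comp differentiable_fst) p).prodMk
      ((((hcz_diff c.2 1).comp differentiable_fst) p).prodMk differentiableAt_snd)
  exact DifferentiableAt.comp (g := fun q : V × V × V => Φ c.2 q.1 q.2.1 q.2.2) p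
    (h.diff c.2 (hc c.1 (p.1 0), hc c.2 (p.1 1), p.2) hy) h1

/-- An untwisted homogeneous section is a section of `O(m)`. -/
def HS.toSec {m : ℕ} {Φ : Fin 2 → V → V → V → ℂ} (h : HS P m 0 0 Φ) : Sec (EE P) m where
  val c p := Φ c.2 (hc c.1 (p.1 0)) (hc c.2 (p.1 1)) p.2
  holo := h.chart_diff
  homog c z v t := h.homv _ _ _ _ _
  compat c d z w v hzw := by
    have := h.compat v hzw
    rw [chi_zero, one_mul] at this
    exact this

end Vale.Agent.P296
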